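import Vale.Agent.P193.St1

/-! The Steinberg group of a finitely presented ring is finitely presented. -/

namespace Vale.Agent.P193

open scoped commutatorElement IsMulCommutative

/-- the free algebra over the field with two elements -/
abbrev FA (α : Type) : Type := MonoidAlgebra (ZMod 2) (FreeMonoid α)

/-- monomials -/
noncomputable def mono {α : Type} (w : List α) : FA α :=
  MonoidAlgebra.single (FreeMonoid.ofList w) 1

theorem mono_nil {α : Type} : mono ([] : List α) = 1 := rfl

theorem mono_append {α : Type} (u v : List α) : mono (u ++ v) = mono u * mono v := by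
  simp [mono, MonoidAlgebra.single_mul_single]

theorem FA.ind {α : Type} {p : FA α → Prop} (h0 : p 0) (h1 : ∀ w, p (mono w))
    (ha : ∀ a b, p a → p b → p (a + b)) (a : FA α) : p a := by
  induction a using MonoidAlgebra.induction_linear with
  | zero => exact h0
  | add a b h h' => exact ha a b h h'
  | single m r =>
    have : r = 0 ∨ r = 1 := by revert r; decide
    rcases this with rfl | rfl
    · simpa using h0
    · exact h1 (FreeMonoid.toList m)

theorem FA.add_self {α : Type} (a : FA α) : a + a = 0 := by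
  have : (2 : ZMod 2) • a = a + a := two_smul _ _
  rw [← this, show (2 : ZMod 2) = 0 from rfl, zero_smul]

theorem FA.exists_ext {α H : Type} [Group H] (f : List α → H) (hc : ∀ a b, f a * f b = f b * f a)
    (h2 : ∀ a, f a * f a = 1) :
    ∃ F : FA α → H, (∀ a b, F (a + b) = F a * F b) ∧ ∀ w, F (mono w) = f w := by
  let K := Subgroup.closure (Set.range f)
  haveI : IsMulCommutative K := Subgroup.isMulCommutative_closure (by
    rintro _ ⟨a, rfl⟩ _ ⟨b, rfl⟩; exact hc a b)
  let g : FreeMonoid α → K := fun w => ⟨f (FreeMonoid.toList w), Subgroup.subset_closure ⟨_, rfl⟩⟩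
  let G : (FreeMonoid α →₀ ZMod 2) →+ Additive K := Finsupp.liftAddHom fun w =>
    ZMod.lift 2 ⟨zmultiplesHom _ (Additive.ofMul (g w)), by
      change (2 : ℤ) • Additive.ofMul (g w) = 0
      rw [two_smul]
      exact Subtype.ext (h2 _)⟩
  refine ⟨fun a => ((G a.coeff).toMul : K), fun a b => ?_, fun w => ?_⟩
  · simp
  · have : ((1 : ℤ) : ZMod 2) = 1 := by simp
    simp only [mono, MonoidAlgebra.coeff_single, G, Finsupp.liftAddHom_apply_single]
    rw [← this, ZMod.lift_coe]
    simp [g]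

/-- finitely presented algebras over the field with two elements -/
def RingFP (R : Type) [Ring R] : Prop :=
  ∃ (Δ : Type) (_ : Finite Δ) (q : FA Δ →+* R) (S : Set (FA Δ)), S.Finite ∧
    Function.Surjective q ∧ (∀ s ∈ S, q s = 0) ∧
    ∀ c : RingCon (FA Δ), (∀ s ∈ S, c s 0) → ∀ a, q a = 0 → c a 0

theorem comm_assoc {H : Type} [Group H] {a b c : H} (h1 : Commute a c)
    (h2 : Commute ⁅a, b⁆ ⁅b, c⁆) (h3 : Commute c ⁅b, c⁆) : ⁅a, ⁅b, c⁆⁆ = ⁅⁅a, b⁆, c⁆ := by
  have h4 : Commute ⁅⁅a, b⁆, c⁆ ⁅b, c⁆ := by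
    rw [commutatorElement_def ⁅a, b⁆]
    exact ((h2.mul_left h3).mul_left h2.inv_left).mul_left h3.inv_left
  have e1 : a * ⁅b, c⁆ * a⁻¹ = ⁅a, b⁆ * ⁅b, c⁆ * ⁅a, b⁆⁻¹ * ⁅⁅a, b⁆, c⁆ := by
    have hc : a * c * a⁻¹ = c := by rw [h1.eq, mul_inv_cancel_right]
    calc a * ⁅b, c⁆ * a⁻¹ = (a * b * a⁻¹) * (a * c * a⁻¹) * (a * b * a⁻¹)⁻¹ * (a * c * a⁻¹)⁻¹ := by
          simp only [commutatorElement_def]; group
      _ = _ := by rw [hc]; simp only [commutatorElement_def]; group
  rw [commutatorElement_def a, e1, h2.eq, mul_inv_cancel_right, ← h4.eq, mul_inv_cancel_right]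

theorem IsSt.eq_comm_elt' {ι R H : Type} [Ring R] [Group H] {x : ι → ι → R → H} (hx : IsSt x)
    {i j k : ι} (h1 : i ≠ j) (h2 : j ≠ k) (h3 : i ≠ k) (a b : R) :
    ⁅x i j a, x j k b⁆ = x i k (a * b) := by
  rw [commutatorElement_def, hx.mul i j k a b h1 h2 h3]; group

theorem commute_comm {H : Type} [Group H] {a b c : H} (h1 : Commute a c) (h2 : Commute b c) :
    Commute ⁅a, b⁆ c := by
  rw [commutatorElement_def]
  exact ((h1.mul_left h2).mul_left h1.inv_left).mul_left h2.inv_left

section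

variable {ι Δ H : Type} [Group H]

/-- the finitely many relations -/
structure IsSt0 (y : ι → ι → Option Δ → H) : Prop where
  comm : ∀ i j k l a b, i ≠ j → k ≠ l → j ≠ k → i ≠ l → Commute (y i j a) (y k l b)
  mul₁ : ∀ i j k a, i ≠ j → j ≠ k → i ≠ k → ⁅y i j a, y j k none⁆ = y i k a
  mul₂ : ∀ i j k a, i ≠ j → j ≠ k → i ≠ k → ⁅y i j none, y j k a⁆ = y i k a
  sq : ∀ i j, i ≠ j → y i j none * y i j none = 1

/-- the element attached to a monomial -/
def XM (y : ι → ι → Option Δ → H) (κ : ι → ι → ι) : List Δ → ι → ι → H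
  | [], i, j => y i j none
  | [a], i, j => y i j (some a)
  | a :: b :: m, i, j => ⁅y i (κ i j) (some a), XM y κ (b :: m) (κ i j) j⁆

variable {y : ι → ι → Option Δ → H} {κ : ι → ι → ι}

/-- multiplicative relations up to a length -/
def MM (y : ι → ι → Option Δ → H) (κ : ι → ι → ι) (n : ℕ) : Prop :=
  ∀ u v : List Δ, u.length + v.length ≤ n → ∀ i j k, i ≠ j → j ≠ k → i ≠ k →
    ⁅XM y κ u i j, XM y κ v j k⁆ = XM y κ (u ++ v) i k

/-- commutation relations up to a length -/
def CC (y : ι → ι → Option Δ → H) (κ : ι → ι → ι) (n : ℕ) : Prop :=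
  ∀ u v : List Δ, u.length ≤ n → v.length ≤ n → ∀ i j k l, i ≠ j → k ≠ l → j ≠ k → i ≠ l →
    Commute (XM y κ u i j) (XM y κ v k l)

variable (hy : IsSt0 y) (h5 : ∀ a b c d : ι, ∃ e, e ≠ a ∧ e ≠ b ∧ e ≠ c ∧ e ≠ d)
  (hκ : ∀ i j, κ i j ≠ i ∧ κ i j ≠ j)

include hy h5 in
theorem CC_of_MM {n : ℕ} (hM : MM y κ n) : CC y κ n := by
  have step : ∀ (z : ι → ι → H), (∀ a i j k l, i ≠ j → k ≠ l → j ≠ k → i ≠ l →
      Commute (y i j a) (z k l)) → ∀ u : List Δ, u.length ≤ n → ∀ i j k l, i ≠ j → k ≠ l →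
      j ≠ k → i ≠ l → Commute (XM y κ u i j) (z k l) := by
    intro z hz u
    induction u with
    | nil => intro _ i j k l; exact hz none i j k l
    | cons a u ih =>
      intro hu i j k l h1 h2 h3 h4
      cases u with
      | nil => exact hz (some a) i j k l h1 h2 h3 h4
      | cons b u =>
        obtain ⟨h, e1, e2, e3, e4⟩ := h5 i j k l
        have := hM [a] (b :: u) (by simpa [add_comm] using hu) i h j e1.symm e2 h1
        rw [List.singleton_append] at this
        rw [← this]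
        exact commute_comm (hz _ _ _ _ _ e1.symm h2 e3 h4)
          (ih (by simp at hu ⊢; omega) _ _ _ _ e2 h2 h3 e4)
  intro u v hu hv
  refine step (XM y κ v) (fun a i j k l h1 h2 h3 h4 => ?_) u hu
  exact (step (fun i j => y i j a) (fun b i j k l => hy.comm i j k l b a) v hv k l i j h2 h1
    h4.symm h3.symm).symm

include hy in
theorem MM_one : MM y κ 1 := by
  intro u v h i j k h1 h2 h3
  match u, v, h with
  | [], [], _ => exact hy.mul₁ i j k none h1 h2 h3
  | [a], [], _ => exact hy.mul₁ i j k (some a) h1 h2 h3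
  | [], [a], _ => exact hy.mul₂ i j k (some a) h1 h2 h3
  | _ :: _ :: _, _, h => simp at h; omega
  | _, _ :: _ :: _, h => simp at h; omega
  | _ :: _, _ :: _, h => simp at h; omega

include hy h5 hκ in
theorem MM_succ {n : ℕ} (hn : 1 ≤ n) (hM : MM y κ n) : MM y κ (n + 1) := by
  have hC := CC_of_MM hy h5 hM
  have key : ∀ u v w : List Δ, u ≠ [] → w ≠ [] → u.length + v.length + w.length ≤ n + 1 →
      ∀ i j l k, i ≠ j → i ≠ l → i ≠ k → j ≠ l → j ≠ k → l ≠ k →
      ⁅XM y κ u i j, XM y κ (v ++ w) j k⁆ = ⁅XM y κ (u ++ v) i l, XM y κ w l k⁆ := by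
    intro u v w hu hw hl i j l k h1 h2 h3 h4 h6 h7
    have := List.length_pos_iff.2 hu
    have := List.length_pos_iff.2 hw
    have e1 := hM u v (by omega) i j l h1 h4 h2
    have e2 := hM v w (by omega) j l k h4 h7 h6
    rw [← e1, ← e2]
    refine comm_assoc (hC _ _ (by omega) (by omega) _ _ _ _ h1 h7 h4 h3) ?_ ?_
    · rw [e1, e2]
      exact hC _ _ (by simp; omega) (by simp; omega) _ _ _ _ h2 h6 h4.symm h3
    · rw [e2]
      exact hC _ _ (by omega) (by simp; omega) _ _ _ _ h7 h6 h6.symm h7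
  have ne : ∀ u v : List Δ, u ≠ [] → v ≠ [] → u.length + v.length ≤ n + 1 →
      ∀ i j k, i ≠ j → j ≠ k → i ≠ k →
      ⁅XM y κ u i j, XM y κ v j k⁆ = XM y κ (u ++ v) i k := by
    have aux : ∀ u v : List Δ, u ≠ [] → v ≠ [] → u.length + v.length ≤ n + 1 →
        ∀ i j k, i ≠ j → j ≠ k → i ≠ k → j ≠ κ i k →
        ⁅XM y κ u i j, XM y κ v j k⁆ = XM y κ (u ++ v) i k := by
      intro u v hu hv hl i j k h1 h2 h3 h4
      obtain ⟨a, u, rfl⟩ := List.exists_cons_of_ne_nil hu
      have := key [a] u v (by simp) hv (by simp at hl ⊢; omega) i (κ i k) j k (hκ i k).1.symm h1 h3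
        h4.symm (hκ i k).2 h2
      rw [List.singleton_append] at this
      rw [← this, List.cons_append]
      obtain ⟨b, m, hm⟩ := List.exists_cons_of_ne_nil (List.append_ne_nil_of_right_ne_nil u hv)
      rw [hm]; rfl
    intro u v hu hv hl i j k h1 h2 h3
    by_cases h4 : j = κ i k
    · obtain ⟨l, e1, e2, e3, -⟩ := h5 i j k k
      have := key u [] v hu hv (by simpa using hl) i j l k h1 e1.symm h3 e2.symm h2 e3
      rw [List.nil_append, List.append_nil] at this
      rw [this, aux u v hu hv hl i l k e1.symm e3 h3 (h4 ▸ e2)]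
    · exact aux u v hu hv hl i j k h1 h2 h3 h4
  intro u v hl i j k h1 h2 h3
  by_cases hl' : u.length + v.length ≤ n
  · exact hM u v hl' i j k h1 h2 h3
  obtain ⟨l, l1, l2, l3, -⟩ := h5 i j k k
  obtain ⟨h, g1, g2, g3, g4⟩ := h5 i j k l
  by_cases hu : u = []
  · subst hu
    obtain ⟨a, w, rfl⟩ := List.exists_cons_of_ne_nil (l := v) (by rintro rfl; simp at hl')
    have hw : w ≠ [] := by rintro rfl; simp at hl'; omega
    have hwl : w.length ≤ n := by simp at hl; omega
    have hl2 : [a].length + w.length ≤ n + 1 := by simp; omega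
    have e1 := hM [] [a] (by simpa using hn) i j l h1 l2.symm l1.symm
    have e2 := ne [a] w (by simp) hw hl2 j l k l2.symm l3 h2
    have e2' := ne [a] w (by simp) hw hl2 j h k g2.symm g3 h2
    have e3 := ne [a] w (by simp) hw hl2 i l k l1.symm l3 h3
    have ha : [a].length ≤ n := by simpa using hn
    rw [List.nil_append] at e1 ⊢
    rw [List.singleton_append] at e2 e2' e3
    rw [← e3, ← e1, ← e2]
    refine comm_assoc (hC _ _ (by simp) hwl _ _ _ _ h1 l3 l2.symm h3) ?_ ?_
    · rw [e1, e2, ← e2']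
      exact (commute_comm (hC _ _ ha ha _ _ _ _ g2.symm l1.symm g1 l2.symm)
        (hC _ _ hwl ha _ _ _ _ g3 l1.symm h3.symm g4)).symm
    · rw [e2, ← e2']
      exact (commute_comm (hC _ _ ha hwl _ _ _ _ g2.symm l3 g4 h2)
        (hC _ _ hwl hwl _ _ _ _ g3 l3 l3.symm g3)).symm
  by_cases hv : v = []
  · subst hv
    obtain ⟨a, w, rfl⟩ := List.exists_cons_of_ne_nil hu
    have hw : w ≠ [] := by rintro rfl; simp at hl'; omega
    have hwl : w.length ≤ n := by simp at hl; omega
    have hl2 : [a].length + w.length ≤ n + 1 := by simp; omega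
    have e1 := ne [a] w (by simp) hw hl2 i l j l1.symm l2 h1
    have e1' := ne [a] w (by simp) hw hl2 i h j g1.symm g2 h1
    have e2 := hM w [] (by simpa using hwl) l j k l2 h2 l3
    have e3 := ne [a] w (by simp) hw hl2 i l k l1.symm l3 h3
    have ha : [a].length ≤ n := by simpa using hn
    rw [List.append_nil] at e2 ⊢
    rw [List.singleton_append] at e1 e1' e3
    rw [← e3, ← e1, ← e2]
    refine (comm_assoc (hC _ _ ha (by simp) _ _ _ _ l1.symm h2 l2 h3) ?_ ?_).symm
    · rw [e1, e2, ← e1']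
      exact commute_comm (hC _ _ ha hwl _ _ _ _ g1.symm l3 g4 h3)
        (hC _ _ hwl hwl _ _ _ _ g2 l3 l2.symm g3)
    · rw [e2]
      exact hC _ _ (by simp) hwl _ _ _ _ h2 l3 l3.symm h2
  exact ne u v hu hv hl i j k h1 h2 h3

include hy h5 hκ in
theorem MM_all (n : ℕ) : MM y κ (n + 1) := by
  induction n with
  | zero => exact MM_one hy
  | succ n ih => exact MM_succ hy h5 hκ (by omega) ih

include hy h5 hκ in
theorem exists_isSt : ∃ X : ι → ι → FA Δ → H, IsSt X ∧
    ∀ i j, i ≠ j → ∀ w, X i j (mono w) = XM y κ w i j := by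
  classical
  have hM : ∀ u v : List Δ, ∀ i j k, i ≠ j → j ≠ k → i ≠ k →
      ⁅XM y κ u i j, XM y κ v j k⁆ = XM y κ (u ++ v) i k := fun u v =>
    MM_all hy h5 hκ (u.length + v.length) u v (by omega)
  have hC : ∀ u v : List Δ, ∀ i j k l, i ≠ j → k ≠ l → j ≠ k → i ≠ l →
      Commute (XM y κ u i j) (XM y κ v k l) := fun u v =>
    CC_of_MM hy h5 (MM_all hy h5 hκ (u.length + v.length)) u v (by omega) (by omega)
  have hsq : ∀ i k, i ≠ k → ∀ u, XM y κ u i k * XM y κ u i k = 1 := by
    intro i k hik u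
    obtain ⟨j, h1, h2, -⟩ := h5 i k k k
    have e := hM u [] i j k h1.symm h2 hik
    rw [List.append_nil] at e
    have c := hC u [] i k j k hik h2 h2.symm hik
    have q : XM y κ [] j k * XM y κ [] j k = 1 := hy.sq j k h2
    have e' : XM y κ u i j * XM y κ [] j k * (XM y κ u i j)⁻¹ = XM y κ u i k * XM y κ [] j k := by
      rw [← e, commutatorElement_def]; group
    have : (XM y κ u i k * XM y κ [] j k) * (XM y κ u i k * XM y κ [] j k) = 1 := by
      rw [← e']
      calc _ = XM y κ u i j * (XM y κ [] j k * XM y κ [] j k) * (XM y κ u i j)⁻¹ := by group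
        _ = 1 := by rw [q]; group
    rw [mul_assoc, ← mul_assoc (XM y κ [] j k), ← c.eq, mul_assoc, q, mul_one] at this
    exact this
  have ex : ∀ i j, ∃ F : FA Δ → H, (∀ a b, F (a + b) = F a * F b) ∧
      ∀ w, F (mono w) = if i = j then 1 else XM y κ w i j := fun i j =>
    FA.exists_ext _ (fun a b => by
      split_ifs with h
      · rfl
      · exact (hC a b i j i j h h (Ne.symm h) h).eq) (fun a => by
      split_ifs with h
      · simp
      · exact hsq i j h a)
  choose X hadd hmono using ex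
  have hz : ∀ i j, X i j 0 = 1 := fun i j => by
    have := hadd i j 0 0
    rw [add_zero] at this
    exact mul_left_cancel (a := X i j 0) (by rw [← this, mul_one])
  have hdiag : ∀ i r, X i i r = 1 := fun i r =>
    FA.ind (p := fun r => X i i r = 1) (hz i i) (fun w => by simp [hmono])
      (fun a b ha hb => by rw [hadd, ha, hb, mul_one]) r
  have hcomm : ∀ i j k l r s, j ≠ k → i ≠ l → Commute (X i j r) (X k l s) := by
    intro i j k l r s h1 h2
    by_cases h3 : i = j
    · subst h3; simp [hdiag]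
    by_cases h4 : k = l
    · subst h4; simp [hdiag]
    refine FA.ind (p := fun r => Commute (X i j r) (X k l s)) (by simp [hz]) (fun u => ?_)
      (fun a b ha hb => by rw [hadd]; exact ha.mul_left hb) r
    refine FA.ind (p := fun s => Commute (X i j (mono u)) (X k l s)) (by simp [hz]) (fun v => ?_)
      (fun a b ha hb => by rw [hadd]; exact ha.mul_right hb) s
    rw [hmono, hmono, if_neg h3, if_neg h4]
    exact hC u v i j k l h3 h4 h1 h2
  refine ⟨X, ⟨hdiag, hadd, fun i j k l r s h1 h2 => (hcomm i j k l r s h1 h2).eq, ?_⟩,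
    fun i j h w => by rw [hmono, if_neg h]⟩
  intro i j k r s h1 h2 h3
  refine FA.ind (p := fun r => X i j r * X j k s = X i k (r * s) * X j k s * X i j r)
    (by simp [hz]) (fun u => ?_) (fun a b ha hb => ?_) r
  · refine FA.ind (p := fun s => X i j (mono u) * X j k s =
      X i k (mono u * s) * X j k s * X i j (mono u)) (by simp [hz]) (fun v => ?_)
      (fun a b ha hb => ?_) s
    · rw [← mono_append, hmono, hmono, hmono, if_neg h1, if_neg h2, if_neg h3,
        ← hM u v i j k h1 h2 h3, commutatorElement_def]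
      group
    · have c := (hcomm j k i k a (mono u * b) h3.symm h2).eq
      rw [mul_add, hadd, hadd, ← mul_assoc, ha, mul_assoc, hb]
      simp only [mul_assoc]
      rw [← mul_assoc (X j k a), c, mul_assoc]
  · have c := (hcomm i j i k a (b * s) h1.symm h3).eq
    have c' := (hcomm i k i k (b * s) (a * s) h3.symm h3).eq
    rw [add_mul, hadd, hadd, mul_assoc, hb, ← mul_assoc, ← mul_assoc, c, mul_assoc _ (X i j a), ha]
    simp only [← mul_assoc]
    rw [c']

end

/-- the finite set of relators -/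
def rels0 (ι Δ : Type) : Set (FreeGroup (ι × ι × Option Δ)) :=
  (Set.range fun p : (ι × ι × ι × ι × Option Δ × Option Δ) =>
    open Classical in
    if p.1 ≠ p.2.1 ∧ p.2.2.1 ≠ p.2.2.2.1 ∧ p.2.1 ≠ p.2.2.1 ∧ p.1 ≠ p.2.2.2.1 then
      ⁅FreeGroup.of (p.1, p.2.1, p.2.2.2.2.1), FreeGroup.of (p.2.2.1, p.2.2.2.1, p.2.2.2.2.2)⁆
    else 1) ∪
  (Set.range fun p : (ι × ι × ι × Option Δ) =>
    open Classical in
    if p.1 ≠ p.2.1 ∧ p.2.1 ≠ p.2.2.1 ∧ p.1 ≠ p.2.2.1 then
      ⁅FreeGroup.of (p.1, p.2.1, p.2.2.2), FreeGroup.of (p.2.1, p.2.2.1, (none : Option Δ))⁆ *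
        (FreeGroup.of (p.1, p.2.2.1, p.2.2.2))⁻¹
    else 1) ∪
  (Set.range fun p : (ι × ι × ι × Option Δ) =>
    open Classical in
    if p.1 ≠ p.2.1 ∧ p.2.1 ≠ p.2.2.1 ∧ p.1 ≠ p.2.2.1 then
      ⁅FreeGroup.of (p.1, p.2.1, (none : Option Δ)), FreeGroup.of (p.2.1, p.2.2.1, p.2.2.2)⁆ *
        (FreeGroup.of (p.1, p.2.2.1, p.2.2.2))⁻¹
    else 1) ∪
  (Set.range fun p : (ι × ι) => FreeGroup.of (p.1, p.2, none) * FreeGroup.of (p.1, p.2, none)) ∪
  (Set.range fun p : (ι × Option Δ) => FreeGroup.of (p.1, p.1, p.2))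

theorem rels0_finite (ι Δ : Type) [Finite ι] [Finite Δ] : (rels0 ι Δ).Finite :=
  ((((Set.finite_range _).union (Set.finite_range _)).union (Set.finite_range _)).union
    (Set.finite_range _)).union (Set.finite_range _)

theorem isSt0_of (ι Δ : Type) : IsSt0 (fun i j a =>
    (PresentedGroup.of (i, j, a) : PresentedGroup (rels0 ι Δ))) where
  comm i j k l a b h1 h2 h3 h4 := by
    rw [← commutatorElement_eq_one_iff_commute]
    have := PresentedGroup.one_of_mem (rels := rels0 ι Δ)
      (Or.inl (Or.inl (Or.inl (Or.inl ⟨(i, j, k, l, a, b), rfl⟩))))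
    simp only [ne_eq, h1, h2, h3, h4, not_false_eq_true, and_self, if_true,
      map_commutatorElement] at this
    exact this
  mul₁ i j k a h1 h2 h3 := by
    have := PresentedGroup.one_of_mem (rels := rels0 ι Δ)
      (Or.inl (Or.inl (Or.inl (Or.inr ⟨(i, j, k, a), rfl⟩))))
    simp only [ne_eq, h1, h2, h3, not_false_eq_true, and_self, if_true,
      map_commutatorElement, map_mul, map_inv] at this
    exact mul_inv_eq_one.1 this
  mul₂ i j k a h1 h2 h3 := by
    have := PresentedGroup.one_of_mem (rels := rels0 ι Δ)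
      (Or.inl (Or.inl (Or.inr ⟨(i, j, k, a), rfl⟩)))
    simp only [ne_eq, h1, h2, h3, not_false_eq_true, and_self, if_true,
      map_commutatorElement, map_mul, map_inv] at this
    exact mul_inv_eq_one.1 this
  sq i j _ := PresentedGroup.one_of_mem (rels := rels0 ι Δ)
      (Or.inl (Or.inr ⟨(i, j), rfl⟩))

theorem st_fp {ι R : Type} [Finite ι] [Ring R] (h2 : ∀ r : R, r + r = 0)
    (h5 : ∀ a b c d : ι, ∃ e, e ≠ a ∧ e ≠ b ∧ e ≠ c ∧ e ≠ d) (hR : RingFP R) :
    Group.IsFinitelyPresented (St ι R) := by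
  classical
  obtain ⟨Δ, _, q, S, hS, hq, hS0, hker⟩ := hR
  have hκ' : ∀ i j : ι, ∃ k, k ≠ i ∧ k ≠ j := fun i j => by
    obtain ⟨e, h1, h2, -⟩ := h5 i j j j; exact ⟨e, h1, h2⟩
  choose κ hκ using hκ'
  let H := PresentedGroup (rels0 ι Δ)
  haveI : Finite (rels0 ι Δ) := rels0_finite ι Δ
  obtain ⟨X, hX, hXm⟩ := exists_isSt (isSt0_of ι Δ) h5 hκ
  have cx : ∀ {i j k : ι}, i ≠ j → j ≠ k → i ≠ k → ∀ a b : R,
      ⁅(xs i j a : St ι R), xs j k b⁆ = xs i k (a * b) := fun h1 h2 h3 a b => by
    rw [isSt_xs.eq_comm_elt' h1 h2 h3]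
  let ψ : H →* St ι R := PresentedGroup.toGroup
    (f := fun p => xs p.1 p.2.1 (q (mono p.2.2.toList))) (by
      rintro _ ((((⟨⟨i, j, k, l, a, b⟩, rfl⟩ | ⟨⟨i, j, k, a⟩, rfl⟩) | ⟨⟨i, j, k, a⟩, rfl⟩) |
        ⟨⟨i, j⟩, rfl⟩) | ⟨⟨i, a⟩, rfl⟩)
      · dsimp only
        split_ifs with h
        · rw [map_commutatorElement, FreeGroup.lift_apply_of, FreeGroup.lift_apply_of,
            commutatorElement_eq_one_iff_mul_comm]
          exact isSt_xs.comm _ _ _ _ _ _ h.2.2.1 h.2.2.2
        · simp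
      · dsimp only
        split_ifs with h
        · simp [map_commutatorElement, cx h.1 h.2.1 h.2.2, mono_nil]
        · simp
      · dsimp only
        split_ifs with h
        · simp [map_commutatorElement, cx h.1 h.2.1 h.2.2, mono_nil]
        · simp
      · simp [isSt_xs.sq h2]
      · simp [isSt_xs.diag])
  have ψof : ∀ i j a, ψ (PresentedGroup.of (i, j, a)) = xs i j (q (mono a.toList)) :=
    fun i j a => PresentedGroup.toGroup.of _
  have ψM : ∀ w i j, i ≠ j → ψ (XM (fun i j a => (PresentedGroup.of (i, j, a) : H)) κ w i j) =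
      xs i j (q (mono w)) := by
    intro w
    induction w with
    | nil => intro i j _; exact ψof i j none
    | cons a w ih =>
      intro i j h
      cases w with
      | nil => exact ψof i j (some a)
      | cons b w =>
        rw [XM, map_commutatorElement, ψof, ih _ _ (hκ i j).2, cx (hκ i j).1.symm (hκ i j).2 h,
          ← map_mul, ← mono_append]; rfl
  have ψX : ∀ i j a, ψ (X i j a) = xs i j (q a) := by
    intro i j a
    by_cases h : i = j
    · subst h; simp [hX.diag, isSt_xs.diag]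
    refine FA.ind (p := fun a => ψ (X i j a) = xs i j (q a)) ?_ (fun w => ?_)
      (fun a b ha hb => ?_) a
    · simp [hX.zero, isSt_xs.zero]
    · rw [hXm i j h, ψM w i j h]
    · rw [hX.add, map_mul, ha, hb, map_add, isSt_xs.add]
  have ψsurj : Function.Surjective ψ := fun g =>
    St.mem_of_gens ψ.range (fun i j r => by
      obtain ⟨a, rfl⟩ := hq r
      exact ⟨_, ψX i j a⟩) g
  let T : Set H := (fun p : ι × ι × FA Δ => X p.1 p.2.1 p.2.2) '' (Set.univ ×ˢ Set.univ ×ˢ S)
  have hT : T.Finite := (Set.finite_univ.prod (Set.finite_univ.prod hS)).image _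
  refine Group.IsFinitelyPresented.of_surjective ψ ψsurj ⟨T, hT, le_antisymm ?_ ?_⟩
  · refine Subgroup.normalClosure_le_normal ?_
    rintro _ ⟨⟨i, j, s⟩, ⟨-, -, hs⟩, rfl⟩
    change ψ (X i j s) = 1
    rw [ψX, hS0 s hs, isSt_xs.zero]
  · let π := QuotientGroup.mk' (Subgroup.normalClosure T)
    have hX' := hX.map π
    let c : RingCon (FA Δ) :=
      { r := fun a b => ∀ i j, π (X i j a) = π (X i j b)
        iseqv := ⟨fun _ _ _ => rfl, fun h i j => (h i j).symm, fun h h' i j => (h i j).trans (h' i j)⟩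
        add' := fun h h' i j => by rw [hX'.add, hX'.add, h, h']
        mul' := fun h h' i j => by
          by_cases hij : i = j
          · subst hij; rw [hX'.diag, hX'.diag]
          rw [← hX'.eq_comm_elt' (hκ i j).1.symm (hκ i j).2 hij,
            ← hX'.eq_comm_elt' (hκ i j).1.symm (hκ i j).2 hij, h, h'] }
    have hc : ∀ a b, q a = q b → ∀ i j, π (X i j a) = π (X i j b) := by
      intro a b hab
      have h0 : c (a - b) 0 := hker c (fun s hs i j => by
        rw [hX'.zero]
        exact (QuotientGroup.eq_one_iff _).2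
          (Subgroup.subset_normalClosure ⟨(i, j, s), ⟨trivial, trivial, hs⟩, rfl⟩)) _
        (by rw [map_sub, hab, sub_self])
      have := c.add h0 (c.refl b)
      rwa [sub_add_cancel, zero_add] at this
    let Y : ι → ι → R → _ := fun i j r => π (X i j (Function.surjInv hq r))
    have Yq : ∀ i j a, Y i j (q a) = π (X i j a) := fun i j a =>
      hc _ _ (Function.surjInv_eq hq _) i j
    have hY : IsSt Y := ⟨fun i r => hX'.diag _ _, fun i j r s => by
        obtain ⟨a, rfl⟩ := hq r
        obtain ⟨b, rfl⟩ := hq s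
        rw [← map_add, Yq, Yq, Yq, hX'.add],
      fun i j k l r s h1 h2 => hX'.comm _ _ _ _ _ _ h1 h2,
      fun i j k r s h1 h2 h3 => by
        obtain ⟨a, rfl⟩ := hq r
        obtain ⟨b, rfl⟩ := hq s
        rw [← map_mul q, Yq, Yq, Yq, hX'.mul _ _ _ _ _ h1 h2 h3]⟩
    have e : hY.lift.comp ψ = π := PresentedGroup.ext fun ⟨i, j, a⟩ => by
      rw [MonoidHom.comp_apply, ψof, IsSt.lift_xs, Yq]
      by_cases h : i = j
      · subst h
        rw [hX'.diag, show (PresentedGroup.of (i, i, a) : H) = 1 from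
          PresentedGroup.one_of_mem (rels := rels0 ι Δ) (Or.inr ⟨(i, a), rfl⟩), map_one]
      rw [hXm i j h]
      cases a <;> rfl
    intro g hg
    have := DFunLike.congr_fun e g
    rw [MonoidHom.comp_apply, (MonoidHom.mem_ker).1 hg, map_one] at this
    exact (QuotientGroup.eq_one_iff _).1 this.symm

end Vale.Agent.P193
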