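import Vale.Agent.P193.Sound

/-! The ring is finitely presented when the machine prints all rules. -/

namespace Vale.Agent.P193

attribute [-simp] Prod.forall Prod.exists

/-- contents on a single stack -/
def sgl : Fin 5 → List ℕ → PP
  | 0, l => (l, [], [], [], [])
  | 1, l => ([], l, [], [], [])
  | 2, l => ([], [], l, [], [])
  | 3, l => ([], [], [], l, [])
  | 4, l => ([], [], [], [], l)

/-- pushing one small symbol -/
def gs (b : ℕ) (j : Fin 5) (s : ℕ) : List Lt := if s < b then [mon 0 (sgl j [s])] else []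

/-- pushing the symbols one by one -/
def pw (b : ℕ) (κ : PP) : List Lt :=
  κ.1.flatMap (gs b 0) ++ (κ.2.1.flatMap (gs b 1) ++ (κ.2.2.1.flatMap (gs b 2) ++
    (κ.2.2.2.1.flatMap (gs b 3) ++ κ.2.2.2.2.flatMap (gs b 4))))

/-- small stacks -/
def smS (b : ℕ) : Set (List ℕ) := {l | l.length ≤ 1 ∧ ∀ s ∈ l, s < b}

/-- small patterns -/
def patS (b : ℕ) : Set PP := smS b ×ˢ smS b ×ˢ smS b ×ˢ smS b ×ˢ smS b

theorem patS_finite (b : ℕ) : (patS b).Finite := by
  have : (smS b).Finite := (((Set.finite_Iio b).image fun s => [s]).insert []).subset (by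
    rintro (_ | ⟨s, _ | _⟩) ⟨h1, h2⟩
    · simp
    · simpa using h2
    · simp at h1)
  exact this.prod (this.prod (this.prod (this.prod this)))

theorem hd_mem_patS {b : ℕ} {κ : PP} (h : Bd b κ) (t : ℕ) : hd t κ ∈ patS b := by
  have : ∀ (n : ℕ) (l : List ℕ), n ≤ 1 → (∀ s ∈ l, s < b) → l.take n ∈ smS b := fun n l hn hl =>
    ⟨(List.length_take_le _ _).trans hn, fun s hs => hl s (List.mem_of_mem_take hs)⟩
  have a : ra t ≤ 1 := by unfold ra; split_ifs <;> simp
  have a' : rb t ≤ 1 := by unfold rb; split_ifs <;> simp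
  have a'' : rc t ≤ 1 := by unfold rc; split_ifs <;> simp
  exact ⟨this _ _ a h.1, this _ _ a' h.2.1, this _ _ a'' h.2.2.1, this _ _ a'' h.2.2.2.1,
    this _ _ a'' h.2.2.2.2⟩

theorem Bd_of_patS {b : ℕ} {κ : PP} (h : κ ∈ patS b) : Bd b κ :=
  ⟨h.1.2, h.2.1.2, h.2.2.1.2, h.2.2.2.1.2, h.2.2.2.2.2⟩

variable {mul : ℕ → ℕ → ℕ} {T : Tb} {b : ℕ}

theorem der_N (hb : 15 ≤ b) (is : List ℕ) (hi : ∀ i ∈ is, i < 3) (u : List Lt) :
    Der T b [(u ++ [op 0 9 0], (is.map (· + 1) ++ [0], [], [], [], []))]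
      [(u ++ is.map (op 0 10), cfg0 (Encodable.encode T))] := by
  induction is generalizing u with
  | nil =>
    exact .step₁ u (by omega) (by omega) (by omega) (by simp [Bd]; omega)
      (by simp [dl, need, hd, tl, ra, rb, rc, d0, papp])
  | cons i is ih =>
    refine .trans (l2 := [(u ++ [op 0 10 i, op 0 9 0], (is.map (· + 1) ++ [0], [], [], [], []))])
      (.step₁ u (by omega) (by omega) (by omega) ?_ ?_) ?_
    · refine ⟨fun s hs => ?_, by simp, by simp, by simp, by simp⟩
      simp only [List.mem_append, List.mem_map, List.mem_singleton] at hs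
      rcases hs with ⟨j, hj, rfl⟩ | rfl
      · have := hi j hj; omega
      · omega
    · simp [dl, need, hd, tl, ra, rb, rc, d0, papp, pnil]
    · simpa using ih (fun j hj => hi j (List.mem_cons_of_mem _ hj)) (u ++ [op 0 10 i])

theorem der_run (hb : 15 ≤ b) (hT : ∀ i h, Bd b (lk T i h)) {κ κ' : PP}
    (h : Relation.ReflTransGen (fun κ κ' => ∃ i < 3, gstep T i κ = some κ') κ κ') :
    ∃ is : List ℕ, (∀ i ∈ is, i < 3) ∧
      (Bd b κ → ∀ u, Der T b [(u ++ is.map (op 0 10), κ)] [(u, κ')]) := by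
  induction h using Relation.ReflTransGen.head_induction_on with
  | refl => exact ⟨[], by simp, fun _ u => by simpa using Der.refl _⟩
  | head h _ ih =>
    obtain ⟨i, hi, h⟩ := h
    obtain ⟨is, h1, h2⟩ := ih
    refine ⟨is ++ [i], by simpa [or_imp, forall_and, hi] using h1, fun hκ u => ?_⟩
    have := Der.step₁ (u ++ is.map (op 0 10)) (by omega) (by omega) (by omega) hκ (dl_gstep h)
    exact .trans (by simpa using this) (h2 (Bd_gstep hT h hκ) u)

section

variable {A : Type} [Ring A] {ψ : FA Lt →+* A}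

theorem comm_flatMap {g g' : ℕ → List Lt}
    (h : ∀ s s', Commute (ψ (mono (g s))) (ψ (mono (g' s')))) (l l' : List ℕ) :
    Commute (ψ (mono (l.flatMap g))) (ψ (mono (l'.flatMap g'))) := by
  have : ∀ s, Commute (ψ (mono (g s))) (ψ (mono (l'.flatMap g'))) := fun s => by
    induction l' with
    | nil => simp [mono_nil]
    | cons s' l' ih => rw [List.flatMap_cons, mono_append, map_mul]; exact (h s s').mul_right ih
  induction l with
  | nil => simp [mono_nil]
  | cons s l ih => rw [List.flatMap_cons, mono_append, map_mul]; exact (this s).mul_left ih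

variable (hc : ∀ j j' : Fin 5, j ≠ j' → ∀ s s',
  Commute (ψ (mono (gs b j s))) (ψ (mono (gs b j' s'))))
include hc

theorem pw_papp (κ κ' : PP) :
    ψ (mono (pw b (papp κ κ'))) = ψ (mono (pw b κ)) * ψ (mono (pw b κ')) := by
  have c : ∀ j j' : Fin 5, j ≠ j' → ∀ l l', Commute (ψ (mono (List.flatMap (gs b j) l)))
      (ψ (mono (List.flatMap (gs b j') l'))) := fun j j' h => comm_flatMap (hc j j' h)
  simp only [pw, papp, List.flatMap_append, mono_append, map_mul]
  rw [(((c 1 0 (by decide) _ _).mul_left ((c 2 0 (by decide) _ _).mul_left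
      ((c 3 0 (by decide) _ _).mul_left (c 4 0 (by decide) _ _))))).mul_mul_mul_comm,
    ((c 2 1 (by decide) _ _).mul_left
      ((c 3 1 (by decide) _ _).mul_left (c 4 1 (by decide) _ _))).mul_mul_mul_comm,
    ((c 3 2 (by decide) _ _).mul_left (c 4 2 (by decide) _ _)).mul_mul_mul_comm,
    (c 4 3 (by decide) _ _).mul_mul_mul_comm]

variable (hl : ∀ t < b, ∀ i < b, ∀ h ∈ patS b, 8 ≤ t → need t h → hd t h = h → tl t h = pnil →
  ψ (mono (op 0 t i :: pw b h)) = ψ (sm (d0 T t i h).1 * mono (pw b (d0 T t i h).2)))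
include hl

theorem Der.ring {l l' : List (List Lt × PP)} (h : Der T b l l') :
    (l.map fun x => ψ (mono x.1) * ψ (mono (pw b x.2))).sum =
      (l'.map fun x => ψ (mono x.1) * ψ (mono (pw b x.2))).sum := by
  induction h with
  | refl => rfl
  | trans _ _ h1 h2 => exact h1.trans h2
  | app _ _ h1 h2 => simp only [List.map_append, List.sum_append, h1, h2]
  | step u t i κ f κ' h8 ht hi hκ h =>
    obtain ⟨hn, rfl, rfl⟩ := dl_eq.1 h
    obtain ⟨h1, h2, h3, -⟩ := hn.hd
    have h4 := hl t ht i hi _ (hd_mem_patS hκ t) h8 h1 h2 h3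
    rw [mono_cons, map_mul, map_mul] at h4
    have h5 := pw_papp hc (hd t κ) (tl t κ)
    rw [papp_hd_tl] at h5
    simp only [List.map_cons, List.map_nil, List.sum_cons, List.sum_nil, add_zero, List.map_map,
      Function.comp_def, mono_append, map_mul, pw_papp hc]
    rw [h5, mul_assoc, ← mul_assoc (ψ (mono [_])), h4]
    generalize (d0 T t i (hd t κ)).1 = f
    induction f with
    | nil => simp
    | cons w f ih =>
      simp only [sm, NL_cons, map_add, add_mul, mul_add, List.map_cons, List.sum_cons] at ih ⊢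
      rw [ih]; simp only [mul_assoc]

theorem boot (hb : 15 ≤ b) (hT : ∀ i h, Bd b (lk T i h))
    (he : ψ (mono [op 0 11 0, op 0 9 0]) = 0) (hz : ψ (mono (zw.flatMap (tau T))) = 0)
    {L : List Lt} {f : List (List Lt)} (hf : f.length ≤ 2)
    (h : Relation.ReflTransGen (fun κ κ' => ∃ i < 3, gstep T i κ = some κ')
      (cfg0 (Encodable.encode T)) (cfgH (bits (codes T L (f.getD 0 zw) (f.getD 1 zw))))) :
    ψ (FA.sub (tau T) (mono L)) = ψ (FA.sub (tau T) (sm f)) := by
  obtain ⟨is, h1, h2⟩ := der_run hb hT h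
  have h3 := ((der_N hb is h1 [op 0 11 0]).trans (h2 (Bd_cfg0 (by omega) _) _)).trans
    (der_out hb _ fun c hc => (codes_lt c hc).trans_le (by omega))
  obtain ⟨e1, e2, e3⟩ := emit_codes T L (f.getD 0 zw) (f.getD 1 zw)
  rw [e1, e2, e3] at h3
  have h4 := h3.ring hc hl
  have h5 : ψ (mono (pw b pnil)) = 1 := map_one ψ
  simp only [List.map_cons, List.map_nil, List.sum_cons, List.sum_nil, add_zero, h5, mul_one,
    List.singleton_append, he, zero_mul] at h4
  have h6 : ψ (mono (L.flatMap (tau T))) = ψ (mono ((f.getD 0 zw).flatMap (tau T))) +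
      ψ (mono ((f.getD 1 zw).flatMap (tau T))) := by
    rw [← add_left_cancel_iff (a := ψ (mono (L.flatMap (tau T)))), ← h4, ← map_add, FA.add_self,
      map_zero]
  rw [FA.sub_mono, h6]
  rcases f with _ | ⟨u, _ | ⟨v, _ | _⟩⟩
  · simp [hz]
  · simp [hz, FA.sub_mono]
  · simp [FA.sub_mono]
  · simp at hf

end

/-- a letter in terms of three generators -/
def tf (T : Tb) (a : Lt) : List (Fin 3) := 0 :: (List.replicate (nl T a) 1 ++ [2])

theorem FA.hom_ext {α A : Type} [Ring A] {f g : FA α →+* A}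
    (h : ∀ a, f (mono [a]) = g (mono [a])) (x : FA α) : f x = g x := by
  refine FA.ind (p := fun x => f x = g x) (by simp) (fun w => ?_)
    (fun a b ha hb => by rw [map_add, map_add, ha, hb]) x
  induction w with
  | nil => simp [mono_nil]
  | cons a w ih => rw [mono_cons, map_mul, map_mul, h, ih]

namespace Model

variable {R : Type} [Ring R] {π : FA Lt →+* R} (M : Model mul (dl T) π)
include M

theorem monW_papp (κ κ' : PP) :
    π (mono (monW 0 (papp κ κ'))) = π (mono (monW 0 κ)) * π (mono (monW 0 κ')) := by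
  by_cases h : κ = pnil
  · subst h; simp [monW, mono_nil]
  by_cases h' : κ' = pnil
  · subst h'; simp [monW, mono_nil]
  have := M.rule _ _ (Pre.mon 0 κ κ' h h')
  have h'' : papp κ κ' ≠ pnil := fun e => h (papp_eq_pnil.1 e).1
  rw [mono_cons, map_mul] at this
  simpa [monW, h, h', h''] using this.symm

theorem pw_eq {κ : PP} (h : Bd b κ) : π (mono (pw b κ)) = π (mono (monW 0 κ)) := by
  have : ∀ j l, (∀ s ∈ l, s < b) → π (mono (l.flatMap (gs b j))) = π (mono (monW 0 (sgl j l))) := by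
    intro j l hl
    induction l with
    | nil => fin_cases j <;> rfl
    | cons s l ih =>
      have e1 : sgl j (s :: l) = papp (sgl j [s]) (sgl j l) := by fin_cases j <;> rfl
      have e2 : sgl j [s] ≠ pnil := by fin_cases j <;> simp [sgl, pnil]
      rw [List.flatMap_cons, mono_append, map_mul, ih fun s hs => hl s (List.mem_cons_of_mem _ hs),
        e1, M.monW_papp, gs, if_pos (hl s List.mem_cons_self), monW.eq_1 0 (sgl j [s]), if_neg e2]
  simp only [pw, mono_append, map_mul]
  rw [this _ _ h.1, this _ _ h.2.1, this _ _ h.2.2.1, this _ _ h.2.2.2.1, this _ _ h.2.2.2.2]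
  simp only [← M.monW_papp]
  simp [sgl, papp]

theorem tau_eq (a : Lt) : π (mono (tau T a)) = π (mono [a]) := by
  have h1 : ∀ n i, π (mono (op 0 8 i :: (List.replicate n (mon 0 ([], [2], [], [], [])) ++
      [mon 0 ([], [3], [], [], [])]))) =
      π (mono [op 0 8 (i + n), mon 0 ([], [3], [], [], [])]) := by
    intro n
    induction n with
    | zero => exact fun i => rfl
    | succ n ih =>
      intro i
      have := M.rule _ _ (Pre.op 0 8 i ([], [2], [], [], []) [[op 0 8 (i + 1)]] pnil le_rfl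
        (by simp [dl, need, hd, tl, ra, rb, rc, d0, papp, pnil]))
      simp only [monW, if_true, List.map_cons, List.map_nil, sm, NL_cons, NL_nil, add_zero,
        sh_zero, List.append_nil] at this
      rw [← add_assoc, add_right_comm, ← ih (i + 1), mono_cons (op 0 8 (i + 1)), map_mul, ← this,
        ← map_mul, ← mono_append]
      rfl
  have e1 : dlt (nl T a) = a := by simp only [dlt, nl, Nat.unpair_pair, Encodable.encodek]; rfl
  have e2 : wt (bw T) a ≤ nl T a := Nat.right_le_pair _ _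
  have e3 : tau T a = op 0 8 0 :: (List.replicate (nl T a) (mon 0 ([], [2], [], [], [])) ++
      [mon 0 ([], [3], [], [], [])]) := by
    simp [tau, tn, gen]
  rw [e3, h1, zero_add]
  simpa [monW] using M.rule _ _ (Pre.op 0 8 (nl T a) ([], [3], [], [], []) [[a]] pnil le_rfl
    (by simp [dl, need, hd, tl, ra, rb, rc, d0, papp, pnil, e1, e2]))

theorem ringFP (hC : ∀ L f, Rule mul (dl T) L f →
    Relation.ReflTransGen (fun κ κ' => ∃ i < 3, gstep T i κ = some κ')
      (cfg0 (Encodable.encode T)) (cfgH (bits (codes T L (f.getD 0 zw) (f.getD 1 zw))))) :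
    RingFP R := by
  obtain ⟨b, hb, hT⟩ := exists_Bd_table T
  let ι : FA (Fin 3) →+* FA Lt := FA.sub fun j => [gen j]
  let τ : FA Lt →+* FA (Fin 3) := FA.sub (tf T)
  have ιτ : ∀ x, ι (τ x) = FA.sub (tau T) x := FA.hom_ext (f := ι.comp τ) fun a => by
    simp [ι, τ, FA.sub_mono, tf, tau, tn, List.flatMap_replicate]
  have πτ : ∀ x, π (FA.sub (tau T) x) = π x := FA.hom_ext (f := π.comp _) fun a => by
    simp [FA.sub_mono, M.tau_eq]
  let q := π.comp ι
  have qτ : ∀ x, q (τ x) = π x := fun x => by rw [← πτ, ← ιτ]; rfl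
  let Φ : Filter (RingCon (FA (Fin 3))) :=
    Filter.generate ((fun s => {c | c s 0}) '' {s | q s = 0})
  have ev : ∀ x y, q x = q y → ∀ᶠ c in Φ, c.mk' x = c.mk' y := fun x y h => by
    have : {c : RingCon (FA (Fin 3)) | c (x - y) 0} ∈ Φ :=
      Filter.mem_generate_of_mem ⟨x - y, by simp [h], rfl⟩
    filter_upwards [this] with c hc
    rw [← sub_eq_zero, ← map_sub, ← map_zero c.mk']
    exact c.eq.2 hc
  have ev' : ∀ x y, π x = π y → ∀ᶠ c in Φ, c.mk'.comp τ x = c.mk'.comp τ y := fun x y h =>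
    ev _ _ (by rw [qτ, qτ, h])
  have e1 : ∀ᶠ c in Φ, ∀ j : Fin 3, c.mk' (τ (ι (mono [j]))) = c.mk' (mono [j]) :=
    Filter.eventually_all.2 fun j => ev _ _ (qτ _)
  have e2 : ∀ᶠ c in Φ, ∀ j j' : Fin 5, ∀ s s' : Fin b, j ≠ j' →
      Commute (c.mk'.comp τ (mono (gs b j s))) (c.mk'.comp τ (mono (gs b j' s'))) := by
    simp only [Filter.eventually_all]
    intro j j' s s' h
    have : π (mono (gs b j s) * mono (gs b j' s')) = π (mono (gs b j' s') * mono (gs b j s)) := by
      have e : ∀ j (s : Fin b), gs b j s = monW 0 (sgl j [s]) := fun j s => by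
        have e2 : sgl j [s] ≠ pnil := by fin_cases j <;> simp [sgl, pnil]
        rw [gs, if_pos s.2, monW, if_neg e2]
      rw [map_mul, map_mul, e, e, ← M.monW_papp, ← M.monW_papp]
      congr 3
      fin_cases j <;> fin_cases j' <;> first | rfl | exact absurd rfl h
    filter_upwards [ev' _ _ this] with c hc
    rwa [map_mul, map_mul] at hc
  have e3 : ∀ᶠ c in Φ, ∀ t i : Fin b, ∀ h ∈ patS b, 8 ≤ (t : ℕ) → need t h → hd t h = h →
      tl t h = pnil → c.mk'.comp τ (mono (op 0 t i :: pw b h)) =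
        c.mk'.comp τ (sm (d0 T t i h).1 * mono (pw b (d0 T t i h).2)) := by
    simp only [Filter.eventually_all, Filter.eventually_all_finite (patS_finite b)]
    intro t i h hh h8 h1 h2 h3
    refine ev' _ _ ?_
    have := M.rule _ _ (Pre.op 0 t i h (d0 T t i h).1 (d0 T t i h).2 h8
      (dl_eq.2 ⟨h1, by rw [h2], by rw [h2, h3, papp_pnil]⟩))
    have e := sm_ctx [] (monW 0 (d0 T t i h).2) (d0 T t i h).1
    simp only [ctx, List.nil_append, mono_nil, one_mul] at e
    simp only [sh_zero, e] at this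
    rw [mono_cons, map_mul, map_mul, M.pw_eq (Bd_of_patS hh),
      M.pw_eq (Bd_d0 (by omega) hT _ _ (Bd_of_patS hh)), ← map_mul, ← map_mul, ← this, monW,
      if_neg h1.ne, ← mono_cons]
  have e4 := ev' (mono [op 0 11 0, op 0 9 0]) 0 (by simpa using M.rule _ _ (Pre.en 0 [] (by simp)))
  have e5 := ev' (mono (zw.flatMap (tau T))) 0 (by
    rw [← FA.sub_mono, πτ]; simpa [zw] using M.rule _ _ (Pre.yx 0 true false))
  have key : ∀ᶠ c in Φ, ∀ a, q a = 0 → c a 0 := by
    filter_upwards [e1, e2, e3, e4, e5] with c c1 c2 c3 c4 c5 a ha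
    have d1 : ∀ x, c.mk' (τ (ι x)) = c.mk' x := FA.hom_ext (f := (c.mk'.comp τ).comp ι) c1
    rw [← c.eq]
    change c.mk' a = c.mk' 0
    rw [← d1, map_zero]
    refine M.univ _ (c.mk'.comp τ) (fun L f hr => ?_) _ ha
    have := boot (ψ := c.mk'.comp τ) (fun j j' h s s' => ?_)
      (fun t ht i hi => c3 ⟨t, ht⟩ ⟨i, hi⟩) hb hT (by rw [c4, map_zero]) (by rw [c5, map_zero])
      (Pre.len hr) (hC L f hr)
    · rw [← ιτ, ← ιτ] at this
      exact (d1 _).symm.trans (this.trans (d1 _))
    by_cases hs : s < b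
    · by_cases hs' : s' < b
      · exact c2 j j' ⟨s, hs⟩ ⟨s', hs'⟩ h
      · simp [gs, hs', mono_nil]
    · simp [gs, hs, mono_nil]
  obtain ⟨S, h1, h2, h3⟩ := Set.exists_subset_image_finite_and.1 (Filter.mem_generate_iff.1 key)
  refine ⟨Fin 3, inferInstance, q, S, h2, fun r => ?_, h1, fun c hc => h3 ?_⟩
  · obtain ⟨x, rfl⟩ := M.surj r
    exact ⟨τ x, qτ x⟩
  · rintro _ ⟨s, hs, rfl⟩
    exact hc s hs

end Model

end Vale.Agent.P193
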