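import Mathlib

/-! `fun_prop` support for primitive recursive functions and predicates. -/

namespace Vale.Agent.P193

attribute [fun_prop] Primrec PrimrecPred

/-- bounded universal quantifier -/
def AllL {β : Type} (l : List β) (p : β → Prop) : Prop := ∀ x ∈ l, p x

instance {β : Type} (l : List β) (p : β → Prop) [DecidablePred p] : Decidable (AllL l p) :=
  List.decidableBAll p l

variable {α β γ σ : Type} [Primcodable α] [Primcodable β] [Primcodable γ] [Primcodable σ]

@[fun_prop] theorem p_id : Primrec (fun x : α => x) := Primrec.id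
@[fun_prop] theorem p_const (x : σ) : Primrec (fun _ : α => x) := Primrec.const x
@[fun_prop] theorem p_comp {f : β → σ} {g : α → β} (hf : Primrec f) (hg : Primrec g) :
    Primrec (fun a => f (g a)) := hf.comp hg
@[fun_prop] theorem p_pair {f : α → β} {g : α → γ} (hf : Primrec f) (hg : Primrec g) :
    Primrec (fun a => (f a, g a)) := hf.pair hg
@[fun_prop] theorem p_fst {f : α → β × γ} (hf : Primrec f) : Primrec (fun a => (f a).1) :=
  Primrec.fst.comp hf
@[fun_prop] theorem p_snd {f : α → β × γ} (hf : Primrec f) : Primrec (fun a => (f a).2) :=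
  Primrec.snd.comp hf
@[fun_prop] theorem p_add {f g : α → ℕ} (hf : Primrec f) (hg : Primrec g) :
    Primrec (fun a => f a + g a) := Primrec.nat_add.comp hf hg
@[fun_prop] theorem p_sub {f g : α → ℕ} (hf : Primrec f) (hg : Primrec g) :
    Primrec (fun a => f a - g a) := Primrec.nat_sub.comp hf hg
@[fun_prop] theorem p_mul {f g : α → ℕ} (hf : Primrec f) (hg : Primrec g) :
    Primrec (fun a => f a * g a) := Primrec.nat_mul.comp hf hg
@[fun_prop] theorem p_div {f g : α → ℕ} (hf : Primrec f) (hg : Primrec g) :
    Primrec (fun a => f a / g a) := Primrec.nat_div.comp hf hg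
@[fun_prop] theorem p_mod {f g : α → ℕ} (hf : Primrec f) (hg : Primrec g) :
    Primrec (fun a => f a % g a) := Primrec.nat_mod.comp hf hg
@[fun_prop] theorem p_pow {f g : α → ℕ} (hf : Primrec f) (hg : Primrec g) :
    Primrec (fun a => f a ^ g a) :=
  (Primrec₂.unpaired'.1 Nat.Primrec.pow).comp hf hg
@[fun_prop] theorem p_natPair {f g : α → ℕ} (hf : Primrec f) (hg : Primrec g) :
    Primrec (fun a => Nat.pair (f a) (g a)) := Primrec₂.natPair.comp hf hg
@[fun_prop] theorem p_unpair {f : α → ℕ} (hf : Primrec f) :
    Primrec (fun a => Nat.unpair (f a)) := Primrec.unpair.comp hf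
@[fun_prop] theorem p_cond {c : α → Bool} {f g : α → σ} (hc : Primrec c) (hf : Primrec f)
    (hg : Primrec g) : Primrec (fun a => cond (c a) (f a) (g a)) := Primrec.cond hc hf hg
@[fun_prop] theorem p_ite {c : α → Prop} [∀ a, Decidable (c a)] {f g : α → σ}
    (hc : PrimrecPred c) (hf : Primrec f) (hg : Primrec g) :
    Primrec (fun a => if c a then f a else g a) := Primrec.ite hc hf hg
@[fun_prop] theorem p_decide {c : α → Prop} [∀ a, Decidable (c a)] (hc : PrimrecPred c) :
    Primrec (fun a => decide (c a)) := hc.decide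
@[fun_prop] theorem p_cons {f : α → β} {g : α → List β} (hf : Primrec f) (hg : Primrec g) :
    Primrec (fun a => f a :: g a) := Primrec.list_cons.comp hf hg
@[fun_prop] theorem p_append {f g : α → List β} (hf : Primrec f) (hg : Primrec g) :
    Primrec (fun a => f a ++ g a) := Primrec.list_append.comp hf hg
@[fun_prop] theorem p_map {f : α → List β} {g : α → β → σ} (hf : Primrec f)
    (hg : Primrec (fun p : α × β => g p.1 p.2)) :
    Primrec (fun a => List.map (g a) (f a)) := Primrec.list_map hf hg
@[fun_prop] theorem p_flatMap {f : α → List β} {g : α → β → List σ} (hf : Primrec f)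
    (hg : Primrec (fun p : α × β => g p.1 p.2)) :
    Primrec (fun a => List.flatMap (g a) (f a)) := Primrec.list_flatMap hf hg
@[fun_prop] theorem p_foldr {f : α → List β} {g : α → σ} {h : α → β → σ → σ} (hf : Primrec f)
    (hg : Primrec g) (hh : Primrec (fun p : α × β × σ => h p.1 p.2.1 p.2.2)) :
    Primrec (fun a => List.foldr (h a) (g a) (f a)) :=
  Primrec.list_foldr (h := fun a p => h a p.1 p.2) hf hg hh
@[fun_prop] theorem p_range {f : α → ℕ} (hf : Primrec f) :
    Primrec (fun a => List.range (f a)) := Primrec.list_range.comp hf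
@[fun_prop] theorem p_replicate {f : α → ℕ} {g : α → β} (hf : Primrec f) (hg : Primrec g) :
    Primrec (fun a => List.replicate (f a) (g a)) :=
  (p_map (g := fun a _ => g a) (p_range hf) (hg.comp Primrec.fst)).of_eq fun a => by simp
@[fun_prop] theorem p_length {f : α → List β} (hf : Primrec f) :
    Primrec (fun a => List.length (f a)) := Primrec.list_length.comp hf
@[fun_prop] theorem p_sum {f : α → List ℕ} (hf : Primrec f) :
    Primrec (fun a => List.sum (f a)) :=
  (p_foldr (h := fun _ x y => x + y) hf (Primrec.const 0)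
    (p_add (p_fst Primrec.snd) (p_snd Primrec.snd))).of_eq fun _ => rfl
@[fun_prop] theorem p_take {f : α → ℕ} {g : α → List β} (hf : Primrec f) (hg : Primrec g) :
    Primrec (fun a => List.take (f a) (g a)) := Primrec.list_take.comp hf hg
@[fun_prop] theorem p_drop {f : α → ℕ} {g : α → List β} (hf : Primrec f) (hg : Primrec g) :
    Primrec (fun a => List.drop (f a) (g a)) := Primrec.list_drop.comp hf hg
@[fun_prop] theorem p_ogetD {f : α → Option β} {g : α → β} (hf : Primrec f) (hg : Primrec g) :
    Primrec (fun a => Option.getD (f a) (g a)) := Primrec.option_getD.comp hf hg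
@[fun_prop] theorem p_getD {f : α → List β} {g : α → ℕ} {d : α → β} (hf : Primrec f)
    (hg : Primrec g) (hd : Primrec d) : Primrec (fun a => List.getD (f a) (g a) (d a)) :=
  (p_ogetD (Primrec.list_getElem?.comp hf hg) hd).of_eq fun a => by simp
@[fun_prop] theorem p_headD {f : α → List β} {d : α → β} (hf : Primrec f) (hd : Primrec d) :
    Primrec (fun a => List.headD (f a) (d a)) :=
  (p_getD hf (Primrec.const 0) hd).of_eq fun a => by cases f a <;> simp
@[fun_prop] theorem p_some {f : α → β} (hf : Primrec f) :
    Primrec (fun a => some (f a)) := Primrec.option_some.comp hf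
@[fun_prop] theorem p_encode {f : α → β} (hf : Primrec f) :
    Primrec (fun a => Encodable.encode (f a)) := Primrec.encode.comp hf
@[fun_prop] theorem p_decode {f : α → ℕ} (hf : Primrec f) :
    Primrec (fun a => (Encodable.decode (f a) : Option β)) := Primrec.decode.comp hf
@[fun_prop] theorem p_lookup {f : α → ℕ} {g : α → List (ℕ × β)} (hf : Primrec f)
    (hg : Primrec g) : Primrec (fun a => List.lookup (f a) (g a)) :=
  Primrec.listLookup.comp hf hg

@[fun_prop] theorem q_const (c : Prop) : PrimrecPred (fun _ : α => c) := by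
  classical exact Primrec.primrecPred (Primrec.const (decide c))
@[fun_prop] theorem q_comp {p : β → Prop} {g : α → β} (hp : PrimrecPred p) (hg : Primrec g) :
    PrimrecPred (fun a => p (g a)) := hp.comp hg
@[fun_prop] theorem q_eq {f g : α → β} (hf : Primrec f) (hg : Primrec g) :
    PrimrecPred (fun a => f a = g a) := Primrec.eq.comp hf hg
@[fun_prop] theorem q_le {f g : α → ℕ} (hf : Primrec f) (hg : Primrec g) :
    PrimrecPred (fun a => f a ≤ g a) := Primrec.nat_le.comp hf hg
@[fun_prop] theorem q_lt {f g : α → ℕ} (hf : Primrec f) (hg : Primrec g) :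
    PrimrecPred (fun a => f a < g a) := Primrec.nat_lt.comp hf hg
@[fun_prop] theorem q_not {p : α → Prop} (hp : PrimrecPred p) :
    PrimrecPred (fun a => ¬ p a) := hp.not
@[fun_prop] theorem q_ne {f g : α → β} (hf : Primrec f) (hg : Primrec g) :
    PrimrecPred (fun a => f a ≠ g a) := (q_eq hf hg).not
@[fun_prop] theorem q_and {p q : α → Prop} (hp : PrimrecPred p) (hq : PrimrecPred q) :
    PrimrecPred (fun a => p a ∧ q a) := hp.and hq
@[fun_prop] theorem q_or {p q : α → Prop} (hp : PrimrecPred p) (hq : PrimrecPred q) :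
    PrimrecPred (fun a => p a ∨ q a) := hp.or hq
@[fun_prop] theorem q_all {f : α → List β} {p : α → β → Prop} (hf : Primrec f)
    (hp : PrimrecPred (fun x : α × β => p x.1 x.2)) : PrimrecPred (fun a => AllL (f a) (p a)) :=
  (PrimrecRel.forall_mem_list (R := fun b a => p a b)
    (hp.comp (Primrec.snd.pair Primrec.fst))).comp hf Primrec.id

example : Primrec (fun p : List (ℕ × ℕ) × ℕ =>
    if AllL p.1 (fun x => x.1 < p.2 ∧ x ≠ (p.2, 3)) ∨ p.2 = 4 then p.1.take 3 else []) := by
  fun_prop

end Vale.Agent.P193
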