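import Vale.Agent.P193.Delta
import Vale.Agent.P193.PR

/-! Every computable function is computed by a table machine. -/

namespace Vale.Agent.P193

attribute [-simp] Prod.forall Prod.exists

open Turing Turing.PartrecToTM2 Function StateTransition

theorem exists_table {β : Type} (E : Set (ℕ × β)) (hE : E.Finite)
    (hf : ∀ a b b', (a, b) ∈ E → (a, b') ∈ E → b = b') :
    ∃ T : List (ℕ × β), ∀ a b, T.lookup a = some b ↔ (a, b) ∈ E := by
  have h1 : ∀ a b, hE.toFinset.toList.lookup a = some b → (a, b) ∈ E := fun a b h => by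
    obtain ⟨l1, l2, e, -⟩ := List.lookup_eq_some_iff.1 h
    have : (a, b) ∈ hE.toFinset.toList := by simp [e]
    simpa using this
  refine ⟨hE.toFinset.toList, fun a b => ⟨h1 a b, fun h => ?_⟩⟩
  cases e : hE.toFinset.toList.lookup a with
  | none => simpa using List.lookup_eq_none_iff.1 e (a, b) (by simpa using h)
  | some b' => rw [hf a b b' h (h1 a b' e)]

/-- codes of symbols -/
def cd : Γ' → ℕ
  | .consₗ => 0
  | .cons => 1
  | .bit0 => 2
  | .bit1 => 3

/-- decoding of symbols -/
def dc (n : ℕ) : Option Γ' :=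
  if n = 0 then some .consₗ else if n = 1 then some .cons else if n = 2 then some .bit0
  else if n = 3 then some .bit1 else none

/-- a stack with its bottom marker -/
def enc (l : List Γ') : List ℕ := l.map cd ++ [4]

theorem dc_enc (l : List Γ') : dc ((enc l).headD 4) = l.head? := by
  rcases l with _ | ⟨_ | _ | _ | _, l⟩ <;> rfl

theorem pop_enc (l : List Γ') :
    (if (enc l).headD 4 = 4 then enc l else (enc l).tail) = enc l.tail := by
  rcases l with _ | ⟨_ | _ | _ | _, l⟩ <;> rfl

theorem enc_eq (l : List Γ') : ∃ (a : Fin 5) (r : List ℕ), enc l = (a : ℕ) :: r := by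
  rcases l with _ | ⟨_ | _ | _ | _, l⟩
  exacts [⟨4, _, rfl⟩, ⟨0, _, rfl⟩, ⟨1, _, rfl⟩, ⟨2, _, rfl⟩, ⟨3, _, rfl⟩]

theorem trNat_bit1 (m : ℕ) : trNat (2 * m + 1) = .bit1 :: trNat m := by
  have := Num.ofNat'_bit true m
  rw [Num.ofNat'_eq, Num.ofNat'_eq, Nat.bit_true] at this
  simp only [trNat]
  rw [this]
  cases (m : Num) <;> rfl

theorem trNat_bit0 {m : ℕ} (hm : m ≠ 0) : trNat (2 * m) = .bit0 :: trNat m := by
  have := Num.ofNat'_bit false m
  rw [Num.ofNat'_eq, Num.ofNat'_eq, Nat.bit_false] at this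
  simp only [trNat]
  rw [this]
  cases h : (m : Num) with
  | zero => exact absurd (by rw [← Num.to_of_nat m, h]; rfl) hm
  | pos => rfl

/-- the number whose binary digits spell a list of unary codes -/
def num (cs : List ℕ) : ℕ := cs.foldr (fun c m => 2 ^ c * (2 * m + 1)) 0

theorem trNat_num (cs : List ℕ) : (trNat (num cs)).map cd = bits cs := by
  induction cs with
  | nil => simp [num, bits]
  | cons c cs ih =>
    have : ∀ c, (trNat (2 ^ c * (2 * num cs + 1))).map cd =
        List.replicate c 2 ++ [3] ++ bits cs := by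
      intro c
      induction c with
      | zero => simp [trNat_bit1, ih, cd]
      | succ c ih' =>
        rw [pow_succ', mul_assoc, trNat_bit0 (by positivity), List.map_cons, ih']
        rfl
    exact this c

/-- a configuration -/
def mkc (c : ℕ) (S : K' → List ℕ) : PP := ([c], S .main, S .rev, S .aux, S .stack)

/-- one small step -/
def ns : Stmt' → Option Γ' → (K' → List ℕ) → (Option Stmt' × Option Γ') × (K' → List ℕ)
  | .push k f q, v, S => ((some q, v), update S k (cd (f v) :: S k))
  | .peek k f q, v, S => ((some q, f v (dc ((S k).headD 4))), S)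
  | .pop k f q, v, S => ((some q, f v (dc ((S k).headD 4))),
      update S k (if (S k).headD 4 = 4 then S k else (S k).tail))
  | .load f q, v, S => ((some q, f v), S)
  | .branch f q1 q2, v, S => ((some (cond (f v) q1 q2), v), S)
  | .goto f, v, S => ((some (tr (f v)), v), S)
  | .halt, v, S => ((none, v), S)

theorem ns_local (q : Stmt') (v : Option Γ') (H : K' → ℕ) (R : K' → List ℕ) :
    ns q v (fun k => H k :: R k) = ((ns q v fun k => [H k]).1,
      fun k => (ns q v fun k => [H k]).2 k ++ R k) := by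
  cases q with
  | push k f q =>
    simp only [ns, Prod.mk.injEq, true_and]
    funext j
    by_cases h : j = k
    · subst h; simp
    · simp [h]
  | pop k f q =>
    simp only [ns, Prod.mk.injEq, List.headD_cons, true_and]
    funext j
    by_cases h : j = k
    · subst h; simp only [update_self]; split_ifs with c <;> simp [c]
    · simp [h]
  | _ => rfl

theorem ns_wP (q : Stmt') (v : Option Γ') (H : K' → ℕ) (c : ℕ) :
    wP (mkc c (ns q v fun k => [H k]).2) ≤ 14 := by
  cases q with
  | push k f q => cases k <;> simp [ns, wP, mkc]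
  | pop k f q => cases k <;> simp only [ns] <;> split_ifs <;> simp [wP, mkc]
  | _ => simp [ns, wP, mkc]

/-- patterns -/
def pat (c : ℕ) (H : K' → Fin 5) : PP := mkc c fun k => [H k]

theorem pat_inj {c c' : ℕ} {H H' : K' → Fin 5} (h : pat c H = pat c' H') : c = c' ∧ H = H' := by
  simp only [pat, mkc, Prod.mk.injEq, List.cons.injEq, and_true, Fin.val_inj] at h
  refine ⟨h.1, funext fun k => ?_⟩
  cases k
  exacts [h.2.1, h.2.2.1, h.2.2.2.1, h.2.2.2.2]

/-- codes of states -/
def ecs (e : Stmt' × Option Γ' → ℕ) : Option Stmt' × Option Γ' → ℕ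
  | (none, _) => 0
  | (some q, v) => e (q, v) + 2

/-- entries of the table -/
inductive Ent (e : Stmt' × Option Γ' → ℕ) (D : Set (Stmt' × Option Γ')) (q0 : Stmt') :
    ℕ → PP → PP → Prop
  | inp (i : Fin 2) (H : K' → Fin 5) :
      Ent e D q0 i (pat 1 H) (mkc 1 (update (fun k => [H k]) .main [2 + i, H .main]))
  | start (H : K' → Fin 5) : Ent e D q0 2 (pat 1 H) (pat (e (q0, none) + 2) H)
  | run (x : Stmt' × Option Γ') (hx : x ∈ D) (H : K' → Fin 5) :
      Ent e D q0 2 (pat (e x + 2) H)
        (mkc (ecs e (ns x.1 x.2 fun k => [H k]).1) (ns x.1 x.2 fun k => [H k]).2)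

instance : Finite K' :=
  Finite.of_surjective (fun i : Fin 4 => ([K'.main, .rev, .aux, .stack] : List K').getD i .main)
    fun k => by cases k; exacts [⟨0, rfl⟩, ⟨1, rfl⟩, ⟨2, rfl⟩, ⟨3, rfl⟩]

variable {e : Stmt' × Option Γ' → ℕ} {D : Set (Stmt' × Option Γ')} {q0 : Stmt'}

theorem exists_ent (hD : D.Finite) (he : Set.InjOn e D) : ∃ T : Tb, ∀ i h v,
    T.lookup (Encodable.encode (i, h)) = some v ↔ Ent e D q0 i h v := by
  have fin : {x : (ℕ × PP) × PP | Ent e D q0 x.1.1 x.1.2 x.2}.Finite := by
    refine (((Set.finite_range fun x : Fin 2 × (K' → Fin 5) => (((x.1 : ℕ), pat 1 x.2),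
      mkc 1 (update (fun k => [x.2 k]) .main [2 + x.1, x.2 .main]))).union
      (Set.finite_range fun H : K' → Fin 5 => ((2, pat 1 H), pat (e (q0, none) + 2) H))).union
      ((hD.prod (Set.finite_univ (α := K' → Fin 5))).image fun x => ((2, pat (e x.1 + 2) x.2),
        mkc (ecs e (ns x.1.1 x.1.2 fun k => [x.2 k]).1)
          (ns x.1.1 x.1.2 fun k => [x.2 k]).2))).subset ?_
    rintro ⟨⟨i, h⟩, v⟩ hx
    cases hx with
    | inp i H => exact Or.inl (Or.inl ⟨(i, H), rfl⟩)
    | start H => exact Or.inl (Or.inr ⟨H, rfl⟩)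
    | run x hx H => exact Or.inr ⟨(x, H), ⟨hx, trivial⟩, rfl⟩
  have func : ∀ i h v v', Ent e D q0 i h v → Ent e D q0 i h v' → v = v' := by
    intro i h v v' h1 h2
    generalize e1 : i = i' at h2
    generalize e2 : h = h' at h2
    cases h1 with
    | inp i H =>
      cases h2 with
      | inp i' H' => rw [(pat_inj e2).2, e1]
      | _ => omega
    | start H =>
      cases h2 with
      | inp i' H' => omega
      | start H' => rw [(pat_inj e2).2]
      | run x hx H' => have := (pat_inj e2).1; omega
    | run x hx H =>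
      cases h2 with
      | inp i' H' => omega
      | start H' => have := (pat_inj e2).1; omega
      | run x' hx' H' =>
        rw [(pat_inj e2).2, he hx hx' (by have := (pat_inj e2).1; omega)]
  obtain ⟨T, hT⟩ := exists_table _ (fin.image fun x => (Encodable.encode x.1, x.2)) (by
    rintro a b b' ⟨x, hx, e1⟩ ⟨x', hx', e2⟩
    obtain ⟨rfl, rfl⟩ := Prod.mk.inj e1
    obtain ⟨e3, rfl⟩ := Prod.mk.inj e2
    have := Encodable.encode_injective e3
    rw [Set.mem_setOf_eq, this] at hx'
    exact func _ _ _ _ hx hx')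
  refine ⟨T, fun i h v => (hT _ _).trans ⟨?_, fun h1 => ⟨((i, h), v), h1, rfl⟩⟩⟩
  rintro ⟨x, hx, e1⟩
  obtain ⟨e2, rfl⟩ := Prod.mk.inj e1
  have := Encodable.encode_injective e2
  rw [Set.mem_setOf_eq, this] at hx
  exact hx

section

variable {T : Tb} (hT : ∀ i h v, T.lookup (Encodable.encode (i, h)) = some v ↔ Ent e D q0 i h v)
include hT

theorem gstep_ent {i c c' : ℕ} {H : K' → Fin 5} {S : K' → List ℕ} (R : K' → List ℕ)
    (h : Ent e D q0 i (pat c H) (mkc c' S)) (hw : wP (mkc c' S) ≤ 14) :
    gstep T i (mkc c fun k => H k :: R k) = some (mkc c' fun k => S k ++ R k) := by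
  have e1 : hd 10 (mkc c fun k => H k :: R k) = pat c H := rfl
  have e2 : lk T i (pat c H) = mkc c' S := by rw [lk, (hT _ _ _).2 h]; rfl
  rw [gstep, e1, e2, if_pos ⟨by simp [need, mkc, ra, rb, rc], by simp [mkc], hw⟩]
  simp [papp, mkc, tl, ra, rb, rc]

theorem ent_of_gstep {i : ℕ} {κ κ' : PP} (h : gstep T i κ = some κ') :
    ∃ v, Ent e D q0 i (hd 10 κ) v ∧ κ' = papp v (tl 10 κ) := by
  unfold gstep at h
  split_ifs at h with c
  obtain rfl := Option.some.inj h
  refine ⟨_, ?_, rfl⟩
  unfold lk at c ⊢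
  cases e1 : T.lookup (Encodable.encode (i, hd 10 κ)) with
  | none => rw [e1] at c; exact (c.2.1 rfl).elim
  | some v => exact (hT _ _ _).1 e1

theorem gstep_ns {q : Stmt'} {v : Option Γ'} (hx : (q, v) ∈ D) (S : K' → List Γ') :
    gstep T 2 (mkc (e (q, v) + 2) fun k => enc (S k)) =
      some (mkc (ecs e (ns q v fun k => enc (S k)).1) (ns q v fun k => enc (S k)).2) := by
  choose H R hHR using fun k => enc_eq (S k)
  simp only [hHR]
  rw [ns_local]
  exact gstep_ent hT R (.run (q, v) hx H) (ns_wP ..)

theorem reach_stmt {Sp : Finset Λ'} (hD : ∀ q v, some q ∈ TM2.stmts tr Sp → (q, v) ∈ D)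
    (q : Stmt') (h1 : some q ∈ TM2.stmts tr Sp) (v : Option Γ') (S : K' → List Γ') :
    Reaches (gstep T 2) (mkc (e (q, v) + 2) fun k => enc (S k))
      (mkc (ecs e ((TM2.stepAux q v S).l.map tr, (TM2.stepAux q v S).var))
        fun k => enc ((TM2.stepAux q v S).stk k)) := by
  have up : ∀ (S : K' → List Γ') k l,
      (update (fun k => enc (S k)) k (enc l)) = fun j => enc (update S k l j) :=
    fun S k l => by
      funext j
      by_cases h : j = k
      · subst h; simp
      · simp [h]
  induction q generalizing v S with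
  | push k f q ih =>
    have h2 := TM2.stmts_trans (by classical exact Finset.mem_insert_of_mem TM2.stmts₁_self) h1
    refine .head (gstep_ns hT (hD _ v h1) S) ?_
    have := ih h2 v (update S k (f v :: S k))
    rw [← up] at this
    exact this
  | peek k f q ih =>
    have h2 := TM2.stmts_trans (by classical exact Finset.mem_insert_of_mem TM2.stmts₁_self) h1
    refine .head (gstep_ns hT (hD _ v h1) S) ?_
    simp only [ns, dc_enc]
    exact ih h2 _ S
  | pop k f q ih =>
    have h2 := TM2.stmts_trans (by classical exact Finset.mem_insert_of_mem TM2.stmts₁_self) h1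
    refine .head (gstep_ns hT (hD _ v h1) S) ?_
    simp only [ns, dc_enc, pop_enc, up]
    exact ih h2 _ _
  | load f q ih =>
    have h2 := TM2.stmts_trans (by classical exact Finset.mem_insert_of_mem TM2.stmts₁_self) h1
    exact .head (gstep_ns hT (hD _ v h1) S) (ih h2 _ S)
  | branch f q1 q2 ih1 ih2 =>
    have h2 : some q1 ∈ TM2.stmts tr Sp := TM2.stmts_trans (by
      classical exact Finset.mem_insert_of_mem (Finset.mem_union_left _ TM2.stmts₁_self)) h1
    have h3 : some q2 ∈ TM2.stmts tr Sp := TM2.stmts_trans (by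
      classical exact Finset.mem_insert_of_mem (Finset.mem_union_right _ TM2.stmts₁_self)) h1
    refine .head (gstep_ns hT (hD _ v h1) S) ?_
    simp only [ns, TM2.stepAux]
    cases f v
    · exact ih2 h3 _ S
    · exact ih1 h2 _ S
  | goto f => exact .single (gstep_ns hT (hD _ v h1) S)
  | halt => exact .single (gstep_ns hT (hD _ v h1) S)

end

theorem exists_machine (F : ℕ → ℕ → List ℕ) (hF : Computable₂ F) : ∃ T : Tb, ∀ p,
    ∃ Good : PP → Prop, Good (cfg0 p) ∧ (∀ κ, Good κ → need 10 κ) ∧
      (∀ κ i κ', Good κ → gstep T i κ = some κ' → Good κ') ∧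
      (∀ κ, Good κ → κ.1.headD 0 = 0 → ∃ n, κ = cfgH (bits (F p n))) ∧
      ∀ n, Relation.ReflTransGen (fun κ κ' => ∃ i < 3, gstep T i κ = some κ') (cfg0 p)
        (cfgH (bits (F p n))) := by
  classical
  let lg : ℕ → ℕ := fun x => x.findGreatest fun k => 2 ^ k ≤ x
  have hlg : Primrec lg := Primrec.nat_findGreatest (p := fun x k => 2 ^ k ≤ x) Primrec.id
    (by unfold PrimrecRel; fun_prop)
  have lg2 : ∀ p, lg (2 ^ p) = p := fun p =>
    Nat.findGreatest_eq_iff.2 ⟨Nat.lt_two_pow_self.le, fun _ => le_rfl, fun n hn _ =>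
      not_le.2 (Nat.pow_lt_pow_right (by norm_num) hn)⟩
  have hnum : Primrec num := by unfold num; fun_prop
  have hF' : Computable₂ fun n x => num (F (lg x) (n - 1)) :=
    hnum.to_comp.comp (hF.comp (hlg.to_comp.comp Computable.snd)
      (Primrec.to_comp (by fun_prop)))
  obtain ⟨c, hc⟩ := ToPartrec.Code.exists_code (Nat.Partrec'.part_iff₂.2 hF'.partrec₂)
  let Sp := codeSupp c Cont'.halt
  let D : Set (Stmt' × Option Γ') := {x | some x.1 ∈ TM2.stmts tr Sp}
  have hD : D.Finite := by
    refine ((((TM2.stmts tr Sp).finite_toSet.preimage (Option.some_injective _).injOn).prod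
      (Set.finite_univ (α := Option Γ'))).subset fun x hx => ⟨hx, trivial⟩)
  obtain ⟨e, he⟩ := Set.countable_iff_exists_injOn.1 hD.countable
  obtain ⟨T, hT⟩ := exists_ent (q0 := tr (trNormal c Cont'.halt)) hD he
  refine ⟨T, fun p => ?_⟩
  let inc : ℕ → PP := fun n => mkc 1 fun k => enc (K'.elim (trList [n, 2 ^ p]) [] [] [] k)
  have halt0 : ∀ κ : PP, κ.1.headD 0 = 0 → gstep T 2 κ = none := fun κ h => by
    cases e1 : gstep T 2 κ with
    | none => rfl
    | some κ' =>
      obtain ⟨v, h1, -⟩ := ent_of_gstep hT e1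
      have h2 : (hd 10 κ).1.headD 0 = 0 := by
        rcases κ with ⟨_ | _, _⟩ <;> simpa [hd, ra] using h
      generalize hd 10 κ = h0 at h1 h2
      generalize 2 = i at h1
      cases h1 <;> simp [pat, mkc] at h2
  have run : ∀ n, Reaches (gstep T 2) (inc n) (cfgH (bits (F p (n - 1)))) := fun n => by
    have h1 := hc ⟨[n, 2 ^ p], rfl⟩
    have h2 : halt [num (F p (n - 1))] ∈ eval (TM2.step tr) (init c [n, 2 ^ p]) := by
      rw [PartrecToTM2.tr_eval]
      refine Part.mem_map _ ?_
      erw [h1]
      refine Part.mem_map _ ?_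
      simp [List.Vector.head, List.Vector.tail, lg2]
    have h3 : ∀ a b : Cfg', Reaches (TM2.step tr) a b → a.l ∈ Finset.insertNone Sp →
        Reaches (gstep T 2) (mkc (ecs e (a.l.map tr, a.var)) fun k => enc (a.stk k))
          (mkc (ecs e (b.l.map tr, b.var)) fun k => enc (b.stk k)) := by
      intro a b hab
      induction hab using Relation.ReflTransGen.head_induction_on with
      | refl => exact fun _ => .refl
      | @head a a' h _ ih =>
        intro ha
        refine .trans ?_ (ih (@TM2.step_supports _ _ _ _ ⟨_⟩ _ tr _ (tr_supports c _) _ _ h ha))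
        rcases a with ⟨_ | l, v, S⟩
        · cases h
        obtain rfl : TM2.stepAux (tr l) v S = a' := Option.some.inj h
        refine reach_stmt hT (Sp := Sp) (fun q v h => h) _ ?_ v S
        exact Finset.some_mem_insertNone.2 (Finset.mem_biUnion.2
          ⟨l, Finset.some_mem_insertNone.1 ha, TM2.stmts₁_self⟩)
    have h4 := h3 _ _ (mem_eval.1 h2).1 (Finset.some_mem_insertNone.2 (tr_supports c _).1)
    choose H R hHR using fun k => enc_eq (K'.elim (trList [n, 2 ^ p]) [] [] [] k)
    have h5 := gstep_ent hT R (.start H) (by simp [wP, mkc])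
    simp only [List.singleton_append, ← hHR] at h5
    have : cfgH (bits (F p (n - 1))) = mkc 0 fun k => enc ((halt [num (F p (n - 1))]).stk k) := by
      simp [cfgH, mkc, halt, enc, K'.elim, trNat_num, cd]
    rw [this]
    exact .head h5 h4
  have push : ∀ n (i : Fin 2), n ≠ 0 → gstep T i (inc n) = some (inc (2 * n + i)) := by
    intro n i hn
    choose H R hHR using fun k => enc_eq (K'.elim (trList [n, 2 ^ p]) [] [] [] k)
    have h5 := gstep_ent hT R (.inp i H) (by simp [wP, mkc])
    simp only [← hHR] at h5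
    rw [h5]
    have e1 := hHR .main
    have e2 := hHR .rev
    have e3 := hHR .aux
    have e4 := hHR .stack
    have e5 : trNat (2 * n + i) = (if i = 0 then .bit0 else .bit1) :: trNat n := by
      fin_cases i
      · exact trNat_bit0 hn
      · exact trNat_bit1 n
    simp only [K'.elim] at e1 e2 e3 e4
    simp only [inc, mkc, update_self, ne_eq, reduceCtorEq, not_false_eq_true, update_of_ne,
      List.cons_append, List.nil_append, ← e1, ← e2, ← e3, ← e4, K'.elim, trList, e5]
    fin_cases i <;> rfl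
  have inc1 : cfg0 p = inc 1 := by
    have h1 := trNat_num [p]
    have h2 := trNat_bit1 0
    simp only [num, bits, List.foldr, mul_zero, zero_add, mul_one, List.flatMap_cons,
      List.flatMap_nil, List.append_nil, trNat_zero] at h1 h2
    simp [cfg0, inc, mkc, enc, K'.elim, h1, h2, cd]
  refine ⟨fun κ => ∃ n, n ≠ 0 ∧ Reaches (gstep T 2) (inc n) κ, ⟨1, one_ne_zero, inc1 ▸ .refl⟩,
    ?_, ?_, ?_, fun n => ?_⟩
  · rintro κ ⟨n, -, h⟩
    have hH : need 10 (cfgH (bits (F p (n - 1)))) := by simp [need, cfgH, ra, rb, rc]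
    rcases reaches_total h (run n) with h | h
    · rcases h.cases_head with rfl | ⟨κ', h, -⟩
      · exact hH
      · by_contra hn
        simp [gstep, hn] at h
    · rcases h.cases_head with rfl | ⟨κ', h, -⟩
      · exact hH
      · rw [halt0 _ rfl] at h; cases h
  · rintro κ i κ' ⟨n, hn, h⟩ hs
    obtain ⟨v, h1, -⟩ := ent_of_gstep hT hs
    generalize e1 : hd 10 κ = h0 at h1
    cases h1 with
    | start => exact ⟨n, hn, h.tail hs⟩
    | run => exact ⟨n, hn, h.tail hs⟩
    | inp i H =>
      rcases h.cases_tail with rfl | ⟨κ0, -, h2⟩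
      · rw [push n i hn] at hs
        exact ⟨2 * n + i, by omega, Option.some.inj hs ▸ .refl⟩
      · exfalso
        obtain ⟨v, h3, rfl⟩ := ent_of_gstep hT h2
        have e2 := congrArg Prod.fst e1
        generalize hd 10 κ0 = h0 at h3
        generalize e3 : 2 = j at h3
        cases h3 with
        | inp j => omega
        | start => simp [hd, papp, pat, mkc, ra] at e2
        | run x hx H =>
          generalize (ns x.1 x.2 fun k => [H k]) = y at e2
          rcases y with ⟨⟨_ | _, _⟩, _⟩ <;> simp [hd, papp, pat, mkc, ra, ecs] at e2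
  · rintro κ ⟨n, -, h⟩ h0
    exact ⟨n - 1, Part.mem_unique (mem_eval.2 ⟨h, halt0 _ h0⟩) (mem_eval.2 ⟨run n, halt0 _ rfl⟩)⟩
  · have h1 : ∀ n, n ≠ 0 → Relation.ReflTransGen
        (fun κ κ' => ∃ i < 3, gstep T i κ = some κ') (inc 1) (inc n) := by
      intro n
      induction n using Nat.strong_induction_on with
      | _ n ih =>
      intro hn
      by_cases h : n = 1
      · subst h; exact .refl
      have := push (n / 2) ⟨n % 2, by omega⟩ (by omega)
      rw [Nat.div_add_mod] at this
      exact (ih (n / 2) (by omega) (by omega)).tail ⟨n % 2, by omega, this⟩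
    rw [inc1]
    exact (h1 (n + 1) (by omega)).trans 
      (Relation.ReflTransGen.mono (fun a b h => ⟨2, by omega, h⟩) _ _ (run (n + 1)))

end Vale.Agent.P193
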