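import Vale.Agent.P193.Boot
import Vale.Agent.P193.Machine

/-! The rules can be enumerated by a computable function. -/

namespace Vale.Agent.P193

attribute [-simp] Prod.forall Prod.exists

open Classical in
/-- a conditional singleton -/
noncomputable def ifl {α : Type} (c : Prop) (x : α) : List α := if c then [x] else []

theorem mem_ifl {α : Type} {c : Prop} {x y : α} : y ∈ ifl c x ↔ c ∧ y = x := by
  unfold ifl; split_ifs with h <;> simp [h]

/-- candidates for the right side of a rule -/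
noncomputable def cands (T : Tb) (v : ℕ) (ok : Prop) (a : Lt) (m : List Lt) (b : Lt) :
    List (List (List Lt)) :=
  ifl (m = [] ∧ a = op a.1 5 a.2.2.1 ∧ b = op a.1 5 b.2.2.1) [[op a.1 5 v]] ++
  (ifl (m = [] ∧ a = mon a.1 a.2.2.2 ∧ b = mon a.1 b.2.2.2 ∧ a.2.2.2 ≠ pnil ∧ b.2.2.2 ≠ pnil)
    [[mon a.1 (papp a.2.2.2 b.2.2.2)]] ++
  (ifl (m = [] ∧ a = op a.1 a.2.1 a.2.2.1 ∧ b = mon a.1 b.2.2.2 ∧ 8 ≤ a.2.1 ∧
      need a.2.1 b.2.2.2)
    ((d0 T a.2.1 a.2.2.1 (hd a.2.1 b.2.2.2)).1.map fun w => sh a.1 w ++ monW a.1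
      (papp (d0 T a.2.1 a.2.2.1 (hd a.2.1 b.2.2.2)).2 (tl a.2.1 b.2.2.2))) ++
  (ifl (a = op a.1 11 0 ∧ b = op a.1 9 0 ∧ AllL m fun c => c = op a.1 10 c.2.2.1) [] ++
  (ifl (a = op a.1 6 a.2.2.1 ∧ b = op a.1 7 a.2.2.1 ∧
      (AllL m fun c => a.1 ≤ c.1 ∧ c.2.2.1 < a.2.2.1) ∧
      Encodable.encode (dn a.1 m) < a.2.2.1 ∧ ok) [xi a.1 (Encodable.encode (dn a.1 m))] ++
  (([true, false].flatMap fun β =>
    ifl (m = [] ∧ b = xl b.1 β ∧ b.1 < a.1) [[b, da (eps β) a]] ++
    (ifl (m = [] ∧ a = yl a.1 β ∧ a.1 < b.1) [[da (eps β) b, a]] ++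
    [true, false].flatMap fun β' =>
      ifl (m = [] ∧ a = yl a.1 β ∧ b = xl a.1 β') (if β = β' then [[]] else []))) ++
  ifl (a = xl a.1 false ∧ b = yl a.1 false ∧ AllL m fun c => a.1 < c.1)
    [m, xl a.1 true :: (dn 1 m ++ [yl a.1 true])])))))

theorem mem_cands {mul : ℕ → ℕ → ℕ} {T : Tb} {I : List Lt → Prop} {a b : Lt} {m : List Lt}
    {f : List (List Lt)} :
    f ∈ cands T (mul a.2.2.1 b.2.2.1) (I m) a m b ↔ Pre mul (dl T) I (a :: (m ++ [b])) f := by
  simp only [cands, List.mem_append, mem_ifl, List.mem_flatMap, AllL]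
  constructor
  · rintro (⟨⟨rfl, h1, h2⟩, rfl⟩ | ⟨⟨rfl, h1, h2, h3, h4⟩, rfl⟩ | ⟨⟨rfl, h1, h2, h3, h4⟩, rfl⟩ |
      ⟨⟨h1, h2, h3⟩, rfl⟩ | ⟨⟨h1, h2, h3, h4, h5⟩, rfl⟩ |
      ⟨β, -, ⟨⟨rfl, h1, h2⟩, rfl⟩ | ⟨⟨rfl, h1, h2⟩, rfl⟩ | ⟨β', -, ⟨rfl, h1, h2⟩, rfl⟩⟩ |
      ⟨⟨h1, h2, h3⟩, rfl⟩)
    · have := Pre.gam (mul := mul) (δ := dl T) (I := I) a.1 a.2.2.1 b.2.2.1
      rwa [← h1, ← h2] at this
    · have := Pre.mon (mul := mul) (δ := dl T) (I := I) a.1 _ _ h3 h4
      rwa [← h1, ← h2] at this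
    · have := Pre.op (mul := mul) (δ := dl T) (I := I) a.1 a.2.1 a.2.2.1 _ _ _ h3
        (dl_eq.2 ⟨h4, rfl, rfl⟩)
      rwa [← h1, ← h2] at this
    · have := Pre.en (mul := mul) (δ := dl T) (I := I) a.1 m h3
      rwa [← h1, ← h2] at this
    · have := Pre.st (mul := mul) (δ := dl T) (I := I) a.1 _ m h3 h4 h5
      rwa [← h1, ← h2] at this
    · have := Pre.mx (mul := mul) (δ := dl T) (I := I) a _ β h2
      rwa [← h1] at this
    · have := Pre.my (mul := mul) (δ := dl T) (I := I) b _ β h2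
      rwa [← h1] at this
    · have := Pre.yx (mul := mul) (δ := dl T) (I := I) a.1 β β'
      rwa [← h1, ← h2] at this
    · have := Pre.xy (mul := mul) (δ := dl T) (I := I) a.1 m h3
      rwa [← h1, ← h2] at this
  · intro h
    generalize e : a :: (m ++ [b]) = L at h
    cases h with
    | gam k g g' =>
      obtain ⟨rfl, rfl, rfl⟩ := two_eq e.symm
      exact Or.inl ⟨⟨rfl, rfl, rfl⟩, rfl⟩
    | mon k κ κ' h h' =>
      obtain ⟨rfl, rfl, rfl⟩ := two_eq e.symm
      exact Or.inr (Or.inl ⟨⟨rfl, rfl, rfl, h, h'⟩, rfl⟩)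
    | op k t i κ f κ' ht h =>
      obtain ⟨rfl, rfl, rfl⟩ := two_eq e.symm
      obtain ⟨hn, rfl, rfl⟩ := dl_eq.1 h
      exact Or.inr (Or.inr (Or.inl ⟨⟨rfl, rfl, rfl, ht, hn⟩, rfl⟩))
    | en k w hw =>
      obtain ⟨rfl, rfl, rfl⟩ := long_eq e
      exact Or.inr (Or.inr (Or.inr (Or.inl ⟨⟨rfl, rfl, hw⟩, rfl⟩)))
    | st k n w hw hc hI =>
      obtain ⟨rfl, rfl, rfl⟩ := long_eq e
      exact Or.inr (Or.inr (Or.inr (Or.inr (Or.inl ⟨⟨rfl, rfl, hw, hc, hI⟩, rfl⟩))))
    | mx a j β h =>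
      obtain ⟨rfl, rfl, rfl⟩ := two_eq e.symm
      exact Or.inr (Or.inr (Or.inr (Or.inr (Or.inr (Or.inl
        ⟨β, by cases β <;> simp, Or.inl ⟨⟨rfl, rfl, h⟩, rfl⟩⟩)))))
    | my a j β h =>
      obtain ⟨rfl, rfl, rfl⟩ := two_eq e.symm
      exact Or.inr (Or.inr (Or.inr (Or.inr (Or.inr (Or.inl
        ⟨β, by cases β <;> simp, Or.inr (Or.inl ⟨⟨rfl, rfl, h⟩, rfl⟩)⟩)))))
    | yx k β β' =>
      obtain ⟨rfl, rfl, rfl⟩ := two_eq e.symm
      exact Or.inr (Or.inr (Or.inr (Or.inr (Or.inr (Or.inl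
        ⟨β, by cases β <;> simp, Or.inr (Or.inr
          ⟨β', by cases β' <;> simp, ⟨rfl, rfl, rfl⟩, rfl⟩)⟩)))))
    | xy k w hw =>
      obtain ⟨rfl, rfl, rfl⟩ := long_eq e
      exact Or.inr (Or.inr (Or.inr (Or.inr (Or.inr (Or.inr ⟨⟨rfl, rfl, hw⟩, rfl⟩)))))

/-- test of irreducibility -/
def irrT (T : Tb) (m : List Lt) : Prop :=
  AllL (List.range m.length) fun i => AllL (List.range m.length) fun j =>
    ¬ i + 1 + j < m.length ∨ cands T 0 True (m.getD i (op 0 0 0)) ((m.drop (i + 1)).take j)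
      (m.getD (i + 1 + j) (op 0 0 0)) = []

theorem Pre.change {mul : ℕ → ℕ → ℕ} (mul' : ℕ → ℕ → ℕ) {δ I L f} (h : Pre mul δ I L f) :
    ∃ f', Pre mul' δ I L f' := by
  cases h with
  | gam => exact ⟨_, .gam ..⟩
  | mon k κ κ' h h' => exact ⟨_, .mon k κ κ' h h'⟩
  | op k t i κ f κ' ht h => exact ⟨_, .op k t i κ f κ' ht h⟩
  | en k w hw => exact ⟨_, .en k w hw⟩
  | st k n m hm hc hI => exact ⟨_, .st k n m hm hc hI⟩
  | mx a j b h => exact ⟨_, .mx a j b h⟩
  | my a j b h => exact ⟨_, .my a j b h⟩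
  | yx => exact ⟨_, .yx ..⟩
  | xy k m hm => exact ⟨_, .xy k m hm⟩

theorem irrT_iff {mul : ℕ → ℕ → ℕ} {T : Tb} {m : List Lt} : irrT T m ↔ Irr mul (dl T) m := by
  constructor
  · intro h C L D f hr e
    obtain ⟨a, w, b, rfl⟩ := exists_long hr.two_le
    obtain ⟨f', hr'⟩ := hr.change fun _ _ => 0
    have := h C.length (by simp [e]) w.length (by simp [e]; omega)
    have e1 : m.getD C.length (op 0 0 0) = a := by simp [e]
    have e2 : (m.drop (C.length + 1)).take w.length = w := by simp [e]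
    have e3 : m.getD (C.length + 1 + w.length) (op 0 0 0) = b := by
      have : m = (C ++ a :: w) ++ b :: D := by simp [e]
      rw [this, List.getD_append_right _ _ _ _ (by simp; omega)]
      simp [show C.length + 1 + w.length - (C.length + (w.length + 1)) = 0 by omega]
    rw [e1, e2, e3] at this
    rcases this with h | h
    · exact h (by simp [e]; omega)
    · have := (mem_cands (mul := fun _ _ => 0) (I := fun _ => True)).2 hr'
      rw [h] at this
      simp at this
  · intro h i _ j _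
    rw [or_iff_not_imp_left, not_not, List.eq_nil_iff_forall_not_mem]
    intro hj f hf
    obtain ⟨f', hr⟩ := ((mem_cands (mul := fun _ _ => 0) (I := fun _ => True)).1 hf).change mul
    refine h (m.take i) _ (m.drop (i + 1 + j + 1)) f' hr ?_
    rw [List.getD_eq_getElem _ _ hj, List.getD_eq_getElem _ _ (by omega : i < m.length)]
    conv_lhs => rw [← List.take_append_drop i m, List.drop_eq_getElem_cons (by omega),
      ← List.take_append_drop j (m.drop (i + 1)), List.drop_drop,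
      List.drop_eq_getElem_cons (by omega)]
    simp

/-- decoding a left side -/
def dtr (n : ℕ) : Lt × List Lt × Lt := (Encodable.decode n).getD (op 0 0 0, [], op 0 0 0)

/-- the right side chosen for a left side -/
noncomputable def rhs (T : Tb) (v : ℕ) (x : Lt × List Lt × Lt) : List (List Lt) :=
  (cands T v (irrT T x.2.1) x.1 x.2.1 x.2.2).headD [x.1 :: (x.2.1 ++ [x.2.2])]

/-- the printed relation -/
noncomputable def outp (T : Tb) (v : ℕ) (x : Lt × List Lt × Lt) : List ℕ :=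
  codes T (x.1 :: (x.2.1 ++ [x.2.2])) ((rhs T v x).getD 0 zw) ((rhs T v x).getD 1 zw)

theorem rhs_spec (mul : ℕ → ℕ → ℕ) (T : Tb) (a : Lt) (m : List Lt) (b : Lt) :
    (Rule mul (dl T) (a :: (m ++ [b])) (rhs T (mul a.2.2.1 b.2.2.1) (a, m, b)) ∨
      rhs T (mul a.2.2.1 b.2.2.1) (a, m, b) = [a :: (m ++ [b])]) ∧
    ∀ f, Rule mul (dl T) (a :: (m ++ [b])) f → rhs T (mul a.2.2.1 b.2.2.1) (a, m, b) = f := by
  have h := fun f => mem_cands (mul := mul) (T := T) (I := Irr mul (dl T)) (a := a) (b := b)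
    (m := m) (f := f)
  rw [← propext (irrT_iff (mul := mul))] at h
  simp only [rhs]
  generalize cands T (mul a.2.2.1 b.2.2.1) (irrT T m) a m b = l at h
  rcases l with _ | ⟨g, l⟩
  · exact ⟨Or.inr rfl, fun f hf => by simpa using (h f).2 hf⟩
  · have := (h g).1 List.mem_cons_self
    exact ⟨Or.inl this, fun f hf => Rule.det this hf⟩

instance : Primcodable PP := inferInstance
instance : Primcodable Lt := inferInstance

section

variable {α β : Type} [Primcodable α] [Primcodable β]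

@[fun_prop] theorem p_ifl {c : α → Prop} {f : α → β} (hc : PrimrecPred c) (hf : Primrec f) :
    Primrec fun a => ifl (c a) (f a) := by unfold ifl; fun_prop
@[fun_prop] theorem p_papp {f g : α → PP} (hf : Primrec f) (hg : Primrec g) :
    Primrec fun a => papp (f a) (g a) := by unfold papp; fun_prop
@[fun_prop] theorem p_wP {f : α → PP} (hf : Primrec f) : Primrec fun a => wP (f a) := by
  unfold wP; fun_prop
@[fun_prop] theorem p_mon {f : α → ℕ} {g : α → PP} (hf : Primrec f) (hg : Primrec g) :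
    Primrec fun a => mon (f a) (g a) := by unfold mon; fun_prop
@[fun_prop] theorem p_op {f g h : α → ℕ} (hf : Primrec f) (hg : Primrec g) (hh : Primrec h) :
    Primrec fun a => op (f a) (g a) (h a) := by unfold op; fun_prop
@[fun_prop] theorem p_xl {f : α → ℕ} {g : α → Bool} (hf : Primrec f) (hg : Primrec g) :
    Primrec fun a => xl (f a) (g a) := by unfold xl; fun_prop
@[fun_prop] theorem p_yl {f : α → ℕ} {g : α → Bool} (hf : Primrec f) (hg : Primrec g) :
    Primrec fun a => yl (f a) (g a) := by unfold yl; fun_prop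
@[fun_prop] theorem p_eps {g : α → Bool} (hg : Primrec g) : Primrec fun a => eps (g a) := by
  unfold eps; fun_prop
@[fun_prop] theorem p_ua {f : α → ℕ} {g : α → Lt} (hf : Primrec f) (hg : Primrec g) :
    Primrec fun a => ua (f a) (g a) := by unfold ua; fun_prop
@[fun_prop] theorem p_da {f : α → ℕ} {g : α → Lt} (hf : Primrec f) (hg : Primrec g) :
    Primrec fun a => da (f a) (g a) := by unfold da; fun_prop
@[fun_prop] theorem p_sh {f : α → ℕ} {g : α → List Lt} (hf : Primrec f) (hg : Primrec g) :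
    Primrec fun a => sh (f a) (g a) := by unfold sh; fun_prop
@[fun_prop] theorem p_dn {f : α → ℕ} {g : α → List Lt} (hf : Primrec f) (hg : Primrec g) :
    Primrec fun a => dn (f a) (g a) := by unfold dn; fun_prop
@[fun_prop] theorem p_monW {f : α → ℕ} {g : α → PP} (hf : Primrec f) (hg : Primrec g) :
    Primrec fun a => monW (f a) (g a) := by unfold monW; fun_prop
@[fun_prop] theorem p_xi {f g : α → ℕ} (hf : Primrec f) (hg : Primrec g) :
    Primrec fun a => xi (f a) (g a) := by unfold xi; fun_prop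
@[fun_prop] theorem p_wt {f : α → ℕ} {g : α → Lt} (hf : Primrec f) (hg : Primrec g) :
    Primrec fun a => wt (f a) (g a) := by unfold wt; fun_prop
@[fun_prop] theorem p_ra {f : α → ℕ} (hf : Primrec f) : Primrec fun a => ra (f a) := by
  unfold ra; fun_prop
@[fun_prop] theorem p_rb {f : α → ℕ} (hf : Primrec f) : Primrec fun a => rb (f a) := by
  unfold rb; fun_prop
@[fun_prop] theorem p_rc {f : α → ℕ} (hf : Primrec f) : Primrec fun a => rc (f a) := by
  unfold rc; fun_prop
@[fun_prop] theorem p_hd {f : α → ℕ} {g : α → PP} (hf : Primrec f) (hg : Primrec g) :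
    Primrec fun a => hd (f a) (g a) := by unfold hd; fun_prop
@[fun_prop] theorem p_tl {f : α → ℕ} {g : α → PP} (hf : Primrec f) (hg : Primrec g) :
    Primrec fun a => tl (f a) (g a) := by unfold tl; fun_prop
@[fun_prop] theorem q_need {f : α → ℕ} {g : α → PP} (hf : Primrec f) (hg : Primrec g) :
    PrimrecPred fun a => need (f a) (g a) := by unfold need; fun_prop
@[fun_prop] theorem p_lk {T : α → Tb} {f : α → ℕ} {g : α → PP} (hT : Primrec T) (hf : Primrec f)
    (hg : Primrec g) : Primrec fun a => lk (T a) (f a) (g a) := by unfold lk; fun_prop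
@[fun_prop] theorem p_cfg0 {f : α → ℕ} (hf : Primrec f) : Primrec fun a => cfg0 (f a) := by
  unfold cfg0; fun_prop
@[fun_prop] theorem p_gen {f : α → ℕ} (hf : Primrec f) : Primrec fun a => gen (f a) := by
  unfold gen; fun_prop
@[fun_prop] theorem p_bw {T : α → Tb} (hT : Primrec T) : Primrec fun a => bw (T a) := by
  unfold bw; fun_prop
@[fun_prop] theorem p_dlt {f : α → ℕ} (hf : Primrec f) : Primrec fun a => dlt (f a) := by
  unfold dlt; fun_prop
@[fun_prop] theorem p_emit {f g : α → ℕ} (hf : Primrec f) (hg : Primrec g) :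
    Primrec fun a => emit (f a) (g a) := by unfold emit; fun_prop
@[fun_prop] theorem p_d0 {T : α → Tb} {f g : α → ℕ} {h : α → PP} (hT : Primrec T)
    (hf : Primrec f) (hg : Primrec g) (hh : Primrec h) :
    Primrec fun a => d0 (T a) (f a) (g a) (h a) := by unfold d0; fun_prop
@[fun_prop] theorem p_cands {T : α → Tb} {v : α → ℕ} {ok : α → Prop} {f g : α → Lt}
    {m : α → List Lt} (hT : Primrec T) (hv : Primrec v) (hok : PrimrecPred ok) (hf : Primrec f)
    (hm : Primrec m) (hg : Primrec g) :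
    Primrec fun a => cands (T a) (v a) (ok a) (f a) (m a) (g a) := by unfold cands; fun_prop
@[fun_prop] theorem q_irrT {T : α → Tb} {m : α → List Lt} (hT : Primrec T) (hm : Primrec m) :
    PrimrecPred fun a => irrT (T a) (m a) := by unfold irrT; fun_prop
@[fun_prop] theorem p_dtr {f : α → ℕ} (hf : Primrec f) : Primrec fun a => dtr (f a) := by
  unfold dtr; fun_prop
@[fun_prop] theorem p_rhs {T : α → Tb} {v : α → ℕ} {x : α → Lt × List Lt × Lt} (hT : Primrec T)
    (hv : Primrec v) (hx : Primrec x) : Primrec fun a => rhs (T a) (v a) (x a) := by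
  unfold rhs; fun_prop
@[fun_prop] theorem p_tn {T : α → Tb} {f : α → Lt} (hT : Primrec T) (hf : Primrec f) :
    Primrec fun a => tn (T a) (f a) := by unfold tn nl; fun_prop
@[fun_prop] theorem p_codes {T : α → Tb} {f g h : α → List Lt} (hT : Primrec T) (hf : Primrec f)
    (hg : Primrec g) (hh : Primrec h) : Primrec fun a => codes (T a) (f a) (g a) (h a) := by
  unfold codes; fun_prop
@[fun_prop] theorem p_outp {T : α → Tb} {v : α → ℕ} {x : α → Lt × List Lt × Lt} (hT : Primrec T)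
    (hv : Primrec v) (hx : Primrec x) : Primrec fun a => outp (T a) (v a) (x a) := by
  unfold outp; fun_prop

end

theorem comp_outp {mul : ℕ → ℕ → ℕ} (hm : Computable₂ mul) :
    Computable₂ fun p n => outp ((Encodable.decode p : Option Tb).getD [])
      (mul (dtr n).1.2.2.1 (dtr n).2.2.2.2.1) (dtr n) := by
  have h1 : Primrec fun x : (ℕ × ℕ) × ℕ =>
      outp ((Encodable.decode x.1.1 : Option Tb).getD []) x.2 (dtr x.1.2) := by fun_prop
  have h3 : Primrec fun x : ℕ × ℕ => (dtr x.2).1.2.2.1 := by fun_prop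
  have h4 : Primrec fun x : ℕ × ℕ => (dtr x.2).2.2.2.2.1 := by fun_prop
  have h5 := h1.to_comp.comp (Computable.id.pair (hm.comp h3.to_comp h4.to_comp))
  exact h5.of_eq fun _ => rfl

theorem exists_fp_ring {mul : ℕ → ℕ → ℕ} (hm : Computable₂ mul)
    (assoc : ∀ a b c, mul (mul a b) c = mul a (mul b c)) :
    ∃ (T : Tb) (R : Type) (_ : Ring R) (π : FA Lt →+* R), Model mul (dl T) π ∧ RingFP R := by
  have h2 := comp_outp hm
  obtain ⟨T, hT⟩ := exists_machine _ h2
  obtain ⟨Good, g0, g1, g2, g3, g4⟩ := hT (Encodable.encode T)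
  simp only [Encodable.encodek, Option.getD_some] at g3 g4
  obtain ⟨R, _, π, r1, r2, r3, r4, r5⟩ := exists_ring (bw T) assoc (dl_wt T) (dl_equiv T)
    (sound g0 g1 g2 fun κ hκ h => by
      obtain ⟨n, rfl⟩ := g3 κ hκ h
      generalize dtr n = x
      obtain ⟨a, m, b⟩ := x
      exact ⟨_, _, (rhs_spec mul T a m b).1, by rw [outp]⟩)
  have M : Model mul (dl T) π := ⟨r1, r2, r3, r4, r5⟩
  refine ⟨T, R, inferInstance, π, M, M.ringFP fun L f hr => ?_⟩
  obtain ⟨a, m, b, rfl⟩ := exists_long (Pre.two_le hr)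
  have := g4 (Encodable.encode (a, m, b))
  simp only [dtr, Encodable.encodek, Option.getD_some, outp] at this
  rwa [(rhs_spec mul T a m b).2 f hr] at this

theorem boone_higman {G : Type*} [Group G] {n : ℕ} (g : Fin n → G)
    (hg : Subgroup.closure (Set.range g) = ⊤)
    (hw : ComputablePred fun w : List (Fin n × Bool) =>
      (w.map fun x => if x.2 then g x.1 else (g x.1)⁻¹).prod = 1) :
    ∃ (H : Type) (_ : Group H), Group.IsFinitelyPresented H ∧ IsSimpleGroup H ∧
      ∃ f : G →* H, Function.Injective f := by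
  classical
  let dec : ℕ → List (Fin n × Bool) := fun a => (Encodable.decode a).getD []
  let val : ℕ → G := fun a => FreeGroup.lift g (FreeGroup.mk (dec a))
  have hs : ∀ x, ∃ a, val a = x := fun x => by
    obtain ⟨⟨w⟩, rfl⟩ := FreeGroup.lift_surjective_iff_closure_range_eq_top.2 hg x
    exact ⟨Encodable.encode w, by simp only [val, dec, Encodable.encodek]; rfl⟩
  let c : G → ℕ := fun x => Nat.find (hs x)
  have hc : ∀ x, val (c x) = x := fun x => Nat.find_spec (hs x)
  have h1 : Primrec fun x : (ℕ × ℕ) × ℕ => dec x.2 ++ FreeGroup.invRev (dec x.1.1 ++ dec x.1.2) := by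
    have : Primrec fun w : List (Fin n × Bool) => FreeGroup.invRev w :=
      Primrec.list_reverse.comp (p_map Primrec.id
        (p_pair (by fun_prop) (Primrec.not.comp (by fun_prop))))
    simp only [dec]; fun_prop
  have h2 : ComputablePred fun x : (ℕ × ℕ) × ℕ => val x.2 = val x.1.1 * val x.1.2 := by
    refine (Computable.computablePred (hw.decide.comp h1.to_comp)).of_eq fun x => ?_
    simp only [Bool.ite_eq_cond_iff, ← Bool.cond_eq_ite]
    rw [← FreeGroup.lift_mk, ← FreeGroup.mul_mk, ← FreeGroup.inv_mk, ← FreeGroup.mul_mk,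
      map_mul, map_inv, map_mul, mul_inv_eq_one]
  have h3 : Computable₂ fun a b => c (val a * val b) :=
    Computable.find (P := fun x : ℕ × ℕ => fun k => val k = val x.1 * val x.2) h2 _
  obtain ⟨T, R, _, π, M, hR⟩ := exists_fp_ring h3 fun a b d => by simp only [hc, mul_assoc]
  exact M.final hR c (fun x y h => by rw [← hc x, h, hc]) fun x y => by simp only [hc]

end Vale.Agent.P193
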