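import Vale.Agent.P193.Rules

/-! Resolution of the ambiguities. -/

namespace Vale.Agent.P193

attribute [-simp] Prod.forall Prod.exists

variable {mul : ℕ → ℕ → ℕ} {δ : ℕ → ℕ → PP → Option (List (List Lt) × PP)}

theorem RL.step' {α : Type} {Rule : List α → List (List α) → Prop} {L w : List α}
    {f g : List (List α)} (h : Rule L f) (C D : List α) (e : w = C ++ L ++ D)
    (e' : g = P193.ctx C D f) : RL Rule [w] g := by
  subst e e'; exact RL.step h C D

theorem RL.ctx₁ {α : Type} {Rule : List α → List (List α) → Prop} {a w : List α}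
    {f g : List (List α)} (h : RL Rule [a] f) (C D : List α) (e : w = C ++ a ++ D)
    (e' : g = P193.ctx C D f) : RL Rule [w] g := by
  subst e e'; exact h.ctx C D

theorem moveX {u : List Lt} {j : ℕ} (b : Bool) (h : ∀ a ∈ u, j < a.1) :
    RL (Rule mul δ) [u ++ [xl j b]] [xl j b :: dn (eps b) u] := by
  induction u with
  | nil => exact RL.refl _
  | cons a u ih =>
    refine ((ih fun c hc => h c (List.mem_cons_of_mem _ hc)).ctx₁ [a] [] (by simp) rfl).trans ?_
    exact RL.step' (Pre.mx a j b (h a List.mem_cons_self)) [] (dn (eps b) u) (by simp) (by simp)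

theorem moveY {u : List Lt} {j : ℕ} (b : Bool) (h : ∀ a ∈ u, j < a.1) :
    RL (Rule mul δ) [yl j b :: u] [dn (eps b) u ++ [yl j b]] := by
  induction u with
  | nil => exact RL.refl _
  | cons a u ih =>
    refine (RL.step' (Pre.my a j b (h a List.mem_cons_self)) [] u (by simp) rfl).trans ?_
    exact (ih fun c hc => h c (List.mem_cons_of_mem _ hc)).ctx₁ [da (eps b) a] [] (by simp)
      (by simp)

theorem amb_X {C : List Lt} {z : Lt} {f : List (List Lt)} (hr : Rule mul δ (C ++ [z]) f) {j : ℕ}
    (b : Bool) (h : ∀ a ∈ C ++ [z], j < a.1) :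
    RL (Rule mul δ) (ctx [] [xl j b] f ++ ctx C [] [[xl j b, da (eps b) z]]) [] := by
  refine RL.join (c := ctx [xl j b] [] (f.map (dn (eps b)))) ?_ ?_
  · rw [ctx, ctx, List.map_map]
    refine RL.map fun v hv => ?_
    simpa using moveX b (Pre.lev hr h v hv)
  · refine ((moveX b fun a ha => h a (List.mem_append_left _ ha)).ctx₁ [] [da (eps b) z]
      (by simp) rfl).trans ?_
    exact RL.step' (hr.down b fun a ha => by have := h a ha; omega) [xl j b] [] (by simp) rfl

theorem amb_Y {E : List Lt} {z : Lt} {f : List (List Lt)} (hr : Rule mul δ (z :: E) f) {j : ℕ}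
    (b : Bool) (h : ∀ a ∈ z :: E, j < a.1) :
    RL (Rule mul δ) (ctx [] E [[da (eps b) z, yl j b]] ++ ctx [yl j b] [] f) [] := by
  refine RL.join (c := ctx [] [yl j b] (f.map (dn (eps b)))) ?_ ?_
  · refine ((moveY b fun a ha => h a (List.mem_cons_of_mem _ ha)).ctx₁ [da (eps b) z] []
      (by simp) rfl).trans ?_
    exact RL.step' (hr.down b fun a ha => by have := h a ha; omega) [] [yl j b] (by simp) rfl
  · rw [ctx, ctx, List.map_map]
    refine RL.map fun v hv => ?_
    simpa using moveY b (Pre.lev hr h v hv)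

theorem Pre.head_min {I : List Lt → Prop} {L : List Lt} {f} (hr : Pre mul δ I L f) {z : Lt}
    {E : List Lt} (e : L = z :: E) : (∀ a ∈ L, z.1 ≤ a.1) ∨
      ∃ j b, j < z.1 ∧ E = [xl j b] ∧ f = [[xl j b, da (eps b) z]] := by
  cases hr with
  | mx a j b h =>
    simp only [List.cons.injEq] at e
    obtain ⟨rfl, rfl⟩ := e
    exact Or.inr ⟨j, b, h, rfl, rfl⟩
  | my a j b h => left; rw [← (List.cons.inj e).1]; simp [h.le]
  | en k w hw =>
    left; rw [← (List.cons.inj e).1]
    simp only [List.mem_cons, List.mem_append, List.not_mem_nil, or_false]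
    rintro a (rfl | ha | rfl)
    · rfl
    · rw [hw a ha]; rfl
    · rfl
  | st k n m hm hc hI =>
    left; rw [← (List.cons.inj e).1]
    simp only [List.mem_cons, List.mem_append, List.not_mem_nil, or_false]
    rintro a (rfl | ha | rfl)
    · rfl
    · exact (hm a ha).1
    · rfl
  | xy k m hm =>
    left; rw [← (List.cons.inj e).1]
    simp only [List.mem_cons, List.mem_append, List.not_mem_nil, or_false]
    rintro a (rfl | ha | rfl)
    · rfl
    · exact (hm a ha).le
    · rfl
  | _ => left; rw [← (List.cons.inj e).1]; simp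

theorem concat_eq_two {α : Type} {C : List α} {z a b : α} (e : [a, b] = C ++ [z]) :
    C = [a] ∧ z = b := by
  have := List.append_inj' (s₁ := [a]) (t₁ := [b]) e rfl
  exact ⟨this.1.symm, (List.cons.inj this.2).1.symm⟩

theorem concat_eq_long {α : Type} {C m : List α} {z a b : α} (e : a :: (m ++ [b]) = C ++ [z]) :
    C = a :: m ∧ z = b := by
  have := List.append_inj' (s₁ := a :: m) (t₁ := [b]) e rfl
  exact ⟨this.1.symm, (List.cons.inj this.2).1.symm⟩

theorem Pre.last_min {I : List Lt → Prop} {L : List Lt} {f} (hr : Pre mul δ I L f) {z : Lt}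
    {C : List Lt} (e : L = C ++ [z]) : (∀ a ∈ L, z.1 ≤ a.1) ∨
      ∃ j b, j < z.1 ∧ C = [yl j b] ∧ f = [[da (eps b) z, yl j b]] := by
  cases hr with
  | my a j b h =>
    obtain ⟨rfl, rfl⟩ := concat_eq_two e
    exact Or.inr ⟨j, b, h, rfl, rfl⟩
  | mx a j b h => left; rw [(concat_eq_two e).2]; simp [h.le]
  | en k w hw =>
    left; rw [(concat_eq_long e).2]
    simp only [List.mem_cons, List.mem_append, List.not_mem_nil, or_false]
    rintro a (rfl | ha | rfl)
    · rfl
    · rw [hw a ha]; rfl
    · rfl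
  | st k n m hm hc hI =>
    left; rw [(concat_eq_long e).2]
    simp only [List.mem_cons, List.mem_append, List.not_mem_nil, or_false]
    rintro a (rfl | ha | rfl)
    · rfl
    · exact (hm a ha).1
    · rfl
  | xy k m hm =>
    left; rw [(concat_eq_long e).2]
    simp only [List.mem_cons, List.mem_append, List.not_mem_nil, or_false]
    rintro a (rfl | ha | rfl)
    · rfl
    · exact (hm a ha).le
    · rfl
  | _ => left; rw [(concat_eq_two e).2]; simp

theorem amb_YX (a : Lt) {j : ℕ} (b b' : Bool) (h : j < a.1) :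
    RL (Rule mul δ) (ctx [] [xl j b'] [[da (eps b) a, yl j b]] ++
      ctx [yl j b] [] [[xl j b', da (eps b') a]]) [] := by
  refine RL.join (c := if b = b' then [[da (eps b) a]] else []) ?_ ?_
  · exact RL.step' (Pre.yx j b b') [da (eps b) a] [] (by simp) (by split_ifs <;> simp)
  · refine RL.step' (Pre.yx j b b') [] [da (eps b') a] (by simp) ?_
    split_ifs with h
    · simp [h]
    · simp

theorem cons_lev {k : ℕ} {a : Lt} {m : List Lt} (ha : k < a.1) (hm : ∀ c ∈ m, k < c.1) :
    ∀ c ∈ a :: m, k < c.1 := by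
  intro c hc
  rcases List.mem_cons.1 hc with rfl | hc
  exacts [ha, hm c hc]

theorem concat_lev {k : ℕ} {a : Lt} {m : List Lt} (ha : k < a.1) (hm : ∀ c ∈ m, k < c.1) :
    ∀ c ∈ m ++ [a], k < c.1 := by
  intro c hc
  rcases List.mem_append.1 hc with hc | hc
  · exact hm c hc
  · rw [List.mem_singleton.1 hc]; exact ha

theorem amb_aXY (a : Lt) {k : ℕ} {m : List Lt} (h : k < a.1) (hm : ∀ c ∈ m, k < c.1) :
    RL (Rule mul δ) (ctx [] (m ++ [yl k false]) [[xl k false, da (eps false) a]] ++
      ctx [a] [] [m, xl k true :: (dn 1 m ++ [yl k true])]) [] := by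
  refine RL.join (c := [a :: m, xl k true :: (dn 1 (a :: m) ++ [yl k true])]) ?_ ?_
  · exact RL.step' (Pre.xy k (a :: m) (cons_lev h hm)) [] [] (by simp [eps]) (by simp)
  · refine RL.cons₁ (RL.of_eq (by simp)) ?_
    exact RL.step' (Pre.mx a k true h) [] (dn 1 m ++ [yl k true]) (by simp) (by simp [eps])

theorem amb_XYa (a : Lt) {k : ℕ} {m : List Lt} (h : k < a.1) (hm : ∀ c ∈ m, k < c.1) :
    RL (Rule mul δ) (ctx [] [a] [m, xl k true :: (dn 1 m ++ [yl k true])] ++
      ctx (xl k false :: m) [] [[da (eps false) a, yl k false]]) [] := by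
  refine RL.join (c := [m ++ [a], xl k true :: (dn 1 (m ++ [a]) ++ [yl k true])]) ?_ ?_
  · refine RL.cons₁ (RL.of_eq (by simp)) ?_
    exact RL.step' (Pre.my a k true h) (xl k true :: dn 1 m) [] (by simp) (by simp [eps])
  · exact RL.step' (Pre.xy k (m ++ [a]) (concat_lev h hm)) [] [] (by simp [eps]) (by simp)

theorem amb_YXY {k : ℕ} {m : List Lt} (b : Bool) (hm : ∀ c ∈ m, k < c.1) :
    RL (Rule mul δ) (ctx [] (m ++ [yl k false]) (if b = false then [[]] else []) ++
      ctx [yl k b] [] [m, xl k true :: (dn 1 m ++ [yl k true])]) [] := by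
  have h1 := moveY (mul := mul) (δ := δ) b hm
  have h2 : RL (Rule mul δ) [yl k b :: xl k true :: (dn 1 m ++ [yl k true])]
      (ctx [] (dn 1 m ++ [yl k true]) (if b = true then [[]] else [])) :=
    RL.step' (Pre.yx k b true) [] _ (by simp) rfl
  cases b
  · refine RL.join (c := [m ++ [yl k false]]) (RL.of_eq (by simp)) ?_
    simpa [eps] using h1.append h2
  · simpa [eps] using RL.join h1 h2

theorem amb_XYX {k : ℕ} {m : List Lt} (b : Bool) (hm : ∀ c ∈ m, k < c.1) :
    RL (Rule mul δ) (ctx [] [xl k b] [m, xl k true :: (dn 1 m ++ [yl k true])] ++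
      ctx (xl k false :: m) [] (if false = b then [[]] else [])) [] := by
  have h1 := moveX (mul := mul) (δ := δ) b hm
  have h2 : RL (Rule mul δ) [xl k true :: (dn 1 m ++ [yl k true, xl k b])]
      (ctx (xl k true :: dn 1 m) [] (if true = b then [[]] else [])) :=
    RL.step' (Pre.yx k true b) _ [] (by simp) rfl
  cases b
  · refine RL.join (c := [xl k false :: m]) ?_ (RL.of_eq (by simp))
    simpa [eps] using h1.append h2
  · have h3 : RL (Rule mul δ) [xl k true :: (dn 1 m ++ [yl k true, xl k true])]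
        [xl k true :: dn 1 m] := by simpa using h2
    simpa [eps] using RL.join h1 h3

theorem amb_incl {k : ℕ} {C L D : List Lt} {g : List (List Lt)} (hr : Rule mul δ L g)
    (hm : ∀ c ∈ C ++ L ++ D, k < c.1) :
    RL (Rule mul δ) ([C ++ L ++ D, xl k true :: (dn 1 (C ++ L ++ D) ++ [yl k true])] ++
      ctx (xl k false :: C) (D ++ [yl k false]) g) [] := by
  have hL : ∀ c ∈ L, k < c.1 := fun c hc => hm c (by simp [hc])
  have hg := Pre.lev hr hL
  have hv : ∀ v ∈ g, ∀ c ∈ C ++ v ++ D, k < c.1 := fun v hv c hc => by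
    simp only [List.mem_append] at hc
    rcases hc with (hc | hc) | hc
    · exact hm c (by simp [hc])
    · exact hg v hv c hc
    · exact hm c (by simp [hc])
  refine RL.join (c := ctx C D g ++
    ctx (xl k true :: dn 1 C) (dn 1 D ++ [yl k true]) (g.map (dn 1))) ?_ ?_
  · refine RL.cons (RL.step hr C D) ?_
    exact RL.step' (hr.down true fun a ha => by have := hL a ha; omega) _ _ (by simp [eps]) rfl
  · clear hg hr
    induction g with
    | nil => exact RL.refl _
    | cons v g ih =>
      have h1 : RL (Rule mul δ) [xl k false :: C ++ v ++ (D ++ [yl k false])]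
          [C ++ v ++ D, xl k true :: dn 1 C ++ dn 1 v ++ (dn 1 D ++ [yl k true])] :=
        RL.step' (Pre.xy k _ (hv v List.mem_cons_self)) [] [] (by simp) (by simp)
      refine (h1.cons (ih fun w hw => hv w (List.mem_cons_of_mem _ hw))).trans (RL.perm ?_)
      simp only [ctx_cons, List.map_cons, List.cons_append, List.nil_append]
      exact List.Perm.cons _ List.perm_middle.symm

theorem monW_mon (k : ℕ) (κ : PP) {κ' : PP} (h : κ' ≠ pnil) :
    RL (Rule mul δ) [monW k κ ++ [mon k κ']] [monW k (papp κ κ')] := by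
  have : papp κ κ' ≠ pnil := fun e => h (papp_eq_pnil.1 e).2
  by_cases h' : κ = pnil
  · subst h'; exact RL.of_eq (by simp [monW, h])
  · exact RL.step' (Pre.mon k κ κ' h' h) [] [] (by simp [monW, h']) (by simp [monW, this])

/-- overlaps in one letter -/
theorem amb_one (assoc : ∀ a b c, mul (mul a b) c = mul a (mul b c))
    (heq : ∀ t i κ f κ' κ'', δ t i κ = some (f, κ') → δ t i (papp κ κ'') = some (f, papp κ' κ''))
    (hN : ∀ k w κ f κ', (∀ a ∈ w, a = op k 10 a.2.2.1) → δ 9 0 κ = some (f, κ') →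
      RL (Rule mul δ) (ctx (op k 11 0 :: w) [] (f.map fun v => sh k v ++ monW k κ')) [])
    {C E : List Lt} {z : Lt} {f g : List (List Lt)} (h1 : Rule mul δ (C ++ [z]) f)
    (h2 : Rule mul δ (z :: E) g) : RL (Rule mul δ) (ctx [] E f ++ ctx C [] g) [] := by
  rcases Pre.head_min h2 rfl with m2 | ⟨j, b, hj, rfl, rfl⟩
  swap
  · rcases Pre.last_min h1 rfl with m1 | ⟨j', b', hj', rfl, rfl⟩
    · exact amb_X h1 b fun a ha => hj.trans_le (m1 a ha)
    · rcases lt_trichotomy j j' with h | rfl | h
      · exact amb_X h1 b (by simpa [hj] using h)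
      · exact amb_YX z b' b hj
      · exact amb_Y h2 b' (by simpa [hj'] using h)
  rcases Pre.last_min h1 rfl with m1 | ⟨j', b', hj', rfl, rfl⟩
  swap
  · exact amb_Y h2 b' fun a ha => hj'.trans_le (m2 a ha)
  generalize e1 : C ++ [z] = L1 at h1 m1
  generalize e2 : z :: E = L2 at h2 m2
  cases h1 with
  | gam k g1 g2 =>
    obtain ⟨rfl, rfl⟩ := concat_eq_two e1.symm
    cases h2 with
    | gam k' g3 g4 =>
      simp only [op, List.cons.injEq, Prod.mk.injEq, and_true, true_and] at e2
      obtain ⟨⟨rfl, rfl⟩, rfl⟩ := e2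
      refine RL.join (c := [[op k 5 (mul (mul g1 g2) g4)]]) ?_ ?_
      · exact RL.step' (Pre.gam k _ g4) [] [] rfl rfl
      · exact RL.step' (Pre.gam k g1 _) [] [] rfl (by rw [assoc]; rfl)
    | mx a j b h => simp [← (List.cons.inj e2).1] at m2 h; omega
    | my a j b h => cases b <;> simp [op, yl] at e2
    | yx k b b' => cases b <;> simp [op, yl] at e2
    | op k t i κ f κ' ht h => simp [op] at e2; omega
    | _ => simp [op, mon, xl] at e2
  | mon k κ1 κ2 h h' =>
    obtain ⟨rfl, rfl⟩ := concat_eq_two e1.symm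
    cases h2 with
    | mon k' κ3 κ4 h3 h4 =>
      simp only [mon, List.cons.injEq, Prod.mk.injEq, and_true, true_and] at e2
      obtain ⟨⟨rfl, rfl⟩, rfl⟩ := e2
      refine RL.join (c := [[mon k (papp (papp κ1 κ2) κ4)]]) ?_ ?_
      · exact RL.step' (Pre.mon k _ κ4 (fun e => h (papp_eq_pnil.1 e).1) h4) [] [] rfl rfl
      · exact RL.step' (Pre.mon k κ1 _ h (fun e => h' (papp_eq_pnil.1 e).1)) [] [] rfl
          (by rw [papp_assoc]; rfl)
    | mx a j b h => simp [← (List.cons.inj e2).1] at m2 h; omega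
    | my a j b h => cases b <;> simp [op, mon, yl] at e2
    | yx k b b' => cases b <;> simp [op, mon, yl] at e2
    | op k t i κ f κ' ht h => simp [op, mon] at e2; omega
    | _ => simp [op, mon, xl] at e2
  | op k t i κ f κ' ht h =>
    obtain ⟨rfl, rfl⟩ := concat_eq_two e1.symm
    cases h2 with
    | mon k' κ3 κ4 h3 h4 =>
      simp only [mon, List.cons.injEq, Prod.mk.injEq, and_true, true_and] at e2
      obtain ⟨⟨rfl, rfl⟩, rfl⟩ := e2
      refine RL.join (c := f.map fun w => sh k w ++ monW k (papp κ' κ4)) ?_ ?_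
      · rw [ctx, List.map_map]
        refine RL.map fun v _ => ?_
        exact (monW_mon k κ' h4).ctx₁ (sh k v) [] (by simp [mon]) (by simp)
      · exact RL.step' (Pre.op k t i _ f _ ht (heq _ _ _ _ _ κ4 h)) [] [] rfl (by simp)
    | mx a j b h => simp [← (List.cons.inj e2).1] at m2 h; omega
    | my a j b h => cases b <;> simp [op, mon, yl] at e2
    | yx k b b' => cases b <;> simp [op, mon, yl] at e2
    | op k t i κ f κ' ht h => simp [op, mon] at e2; omega
    | _ => simp [op, mon, xl] at e2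
  | en k w hw =>
    obtain ⟨rfl, rfl⟩ := concat_eq_long e1.symm
    cases h2 with
    | op k' t i κ f κ' ht h =>
      simp only [op, List.cons.injEq, Prod.mk.injEq, and_true] at e2
      obtain ⟨⟨rfl, rfl, rfl⟩, rfl⟩ := e2
      exact hN k w κ f κ' hw h
    | mx a j b h => simp [← (List.cons.inj e2).1] at m2 h; omega
    | my a j b h => cases b <;> simp [op, yl] at e2
    | yx k b b' => cases b <;> simp [op, yl] at e2
    | _ => simp [op, mon, xl] at e2
  | st k n m hm hc hI =>
    obtain ⟨rfl, rfl⟩ := concat_eq_long e1.symm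
    cases h2 with
    | op k' t i κ f κ' ht h => simp [op] at e2; omega
    | mx a j b h => simp [← (List.cons.inj e2).1] at m2 h; omega
    | my a j b h => cases b <;> simp [op, yl] at e2
    | yx k b b' => cases b <;> simp [op, yl] at e2
    | _ => simp [op, mon, xl] at e2
  | mx a j b h =>
    obtain ⟨rfl, rfl⟩ := concat_eq_two e1.symm
    cases h2 with
    | xy k m hm =>
      have e3 := (List.cons.inj e2).1
      obtain ⟨rfl, rfl⟩ : j = k ∧ b = false := by cases b <;> simpa [xl, op] using e3
      rw [(List.cons.inj e2).2]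
      exact amb_aXY a h hm
    | op k' t i κ f κ' ht h => cases b <;> simp [op, xl] at e2 <;> omega
    | mx a j b h => simp [← (List.cons.inj e2).1] at m2 h; omega
    | my a j b' h => cases b <;> cases b' <;> simp [op, xl, yl] at e2
    | yx k b' b'' => cases b <;> cases b' <;> simp [op, xl, yl] at e2
    | _ => cases b <;> simp [op, mon, xl] at e2
  | my a j b h =>
    obtain ⟨rfl, rfl⟩ := concat_eq_two e1.symm
    simp at m1; omega
  | yx j b0 b =>
    obtain ⟨rfl, rfl⟩ := concat_eq_two e1.symm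
    cases h2 with
    | xy k m hm =>
      have e3 := (List.cons.inj e2).1
      obtain ⟨rfl, rfl⟩ : j = k ∧ b = false := by cases b <;> simpa [xl, op] using e3
      rw [(List.cons.inj e2).2]
      exact amb_YXY b0 hm
    | op k' t i κ f κ' ht h => cases b <;> simp [op, xl] at e2 <;> omega
    | mx a j b h => simp [← (List.cons.inj e2).1] at m2 h; omega
    | my a j b' h => cases b <;> cases b' <;> simp [op, xl, yl] at e2
    | yx k b' b'' => cases b <;> cases b' <;> simp [op, xl, yl] at e2
    | _ => cases b <;> simp [op, mon, xl] at e2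
  | xy k m hm =>
    obtain ⟨rfl, rfl⟩ := concat_eq_long e1.symm
    cases h2 with
    | my a j b h =>
      have e3 := (List.cons.inj e2).1
      obtain ⟨rfl, rfl⟩ : k = j ∧ b = false := by cases b <;> simpa [yl, op] using e3
      rw [(List.cons.inj e2).2]
      exact amb_XYa a h hm
    | yx j b b' =>
      have e3 := (List.cons.inj e2).1
      obtain ⟨rfl, rfl⟩ : k = j ∧ b = false := by cases b <;> simpa [yl, op] using e3
      rw [(List.cons.inj e2).2]
      exact amb_XYX b' hm
    | op k' t i κ f κ' ht h => simp [op, yl] at e2; omega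
    | mx a j b h => simp [← (List.cons.inj e2).1] at m2 h; omega
    | _ => simp [op, mon, xl, yl] at e2

theorem long_eq {α : Type} {a b a' b' : α} {m m' : List α}
    (e : a :: (m ++ [b]) = a' :: (m' ++ [b'])) : a = a' ∧ m = m' ∧ b = b' := by
  obtain ⟨h1, h2⟩ := List.cons.inj e
  have := List.append_inj' h2 rfl
  exact ⟨h1, this.1, (List.cons.inj this.2).1⟩

theorem two_eq {α : Type} {a b a' b' : α} {m' : List α}
    (e : [a, b] = a' :: (m' ++ [b'])) : a = a' ∧ [] = m' ∧ b = b' := long_eq (m := []) e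

theorem exists_long {α : Type} {L : List α} (h : 2 ≤ L.length) :
    ∃ a m b, L = a :: (m ++ [b]) := by
  rcases L with _ | ⟨a, L⟩
  · simp at h
  rcases L.eq_nil_or_concat' with rfl | ⟨m, b, rfl⟩
  · simp at h
  exact ⟨a, m, b, rfl⟩

/-- what the long rules look like -/
theorem Rule.long {L : List Lt} {f} (h : Rule mul δ L f) {a b : Lt} {m : List Lt}
    (e : L = a :: (m ++ [b])) (hm : m ≠ []) :
    (∃ k, a = op k 11 0 ∧ b = op k 9 0 ∧ (∀ c ∈ m, c = op k 10 c.2.2.1) ∧ f = []) ∨
    (∃ k n, a = op k 6 n ∧ b = op k 7 n ∧ (∀ c ∈ m, k ≤ c.1 ∧ c.2.2.1 < n) ∧ Irr mul δ m) ∨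
    (∃ k, a = xl k false ∧ b = yl k false ∧ (∀ c ∈ m, k < c.1) ∧
      f = [m, xl k true :: (dn 1 m ++ [yl k true])]) := by
  cases h with
  | en k w hw => obtain ⟨rfl, rfl, rfl⟩ := long_eq e; exact Or.inl ⟨k, rfl, rfl, hw, rfl⟩
  | st k n w hw hc hI =>
    obtain ⟨rfl, rfl, rfl⟩ := long_eq e; exact Or.inr (Or.inl ⟨k, n, rfl, rfl, hw, hI⟩)
  | xy k w hw => obtain ⟨rfl, rfl, rfl⟩ := long_eq e; exact Or.inr (Or.inr ⟨k, rfl, rfl, hw, rfl⟩)
  | _ => exact absurd (two_eq e).2.1.symm hm

theorem head_G {L : List Lt} {f} (h : Rule mul δ L f) {k i : ℕ} {E : List Lt}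
    (e : L = op k 10 i :: E) : ∃ c, E = [c] ∧ c.2.1 ≤ 2 := by
  cases h with
  | op k t i κ f κ' ht h => exact ⟨_, (List.cons.inj e).2.symm, by simp [mon]⟩
  | mx a j b h => exact ⟨_, (List.cons.inj e).2.symm, by cases b <;> simp [xl, op]⟩
  | my a j b h => cases b <;> simp [op, yl] at e
  | yx k b b' => cases b <;> simp [op, yl] at e
  | _ => simp [op, mon, xl] at e

theorem amb_two {C D E : List Lt} {f g : List (List Lt)} (h1 : Rule mul δ (C ++ D) f)
    (h2 : Rule mul δ (D ++ E) g) (hC : C ≠ []) (hD : 2 ≤ D.length) : False := by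
  obtain ⟨d, D', b, rfl⟩ := exists_long hD
  obtain ⟨c, C', rfl⟩ := List.exists_cons_of_ne_nil hC
  have hd : d ∈ C' ++ d :: D' := by simp
  rcases h1.long (a := c) (m := C' ++ d :: D') (b := b) (by simp) (by simp) with
    ⟨k, rfl, rfl, hm, -⟩ | ⟨k, n, rfl, rfl, hm, -⟩ | ⟨k, rfl, rfl, hm, -⟩
  · obtain ⟨c, e, hc⟩ := head_G h2 (k := k) (i := d.2.2.1) (E := D' ++ [op k 9 0] ++ E)
      (by rw [← hm d hd]; rfl)
    have : op k 9 0 ∈ [c] := by rw [← e]; simp
    rw [← List.mem_singleton.1 this] at hc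
    simp [op] at hc
  · obtain ⟨h3, h4⟩ := hm d hd
    have hb : op k 7 n ∈ D' ++ [op k 7 n] ++ E := by simp
    rw [List.cons_append] at h2
    generalize D' ++ [op k 7 n] ++ E = T at h2 hb
    generalize e : d :: T = L at h2
    cases h2 with
    | st k' n' m' hm' hc hI =>
      obtain ⟨rfl, rfl⟩ := List.cons.inj e
      rcases List.mem_append.1 hb with hb | hb
      · have := (hm' _ hb).2
        simp [op] at this h4; omega
      · simp [op] at hb h4; omega
    | en k' w hw =>
      obtain ⟨rfl, rfl⟩ := List.cons.inj e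
      rcases List.mem_append.1 hb with hb | hb
      · have := hw _ hb
        simp [op] at this
      · simp [op] at hb
    | xy k' m' hm' =>
      obtain ⟨rfl, rfl⟩ := List.cons.inj e
      rcases List.mem_append.1 hb with hb | hb
      · have := hm' _ hb
        simp at this h3; omega
      · simp [op, yl] at hb
    | my a j b h =>
      obtain ⟨rfl, rfl⟩ := List.cons.inj e
      rw [← List.mem_singleton.1 hb] at h
      simp at h h3; omega
    | mx a j b h =>
      rw [(List.cons.inj e).2] at hb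
      cases b <;> simp [op, xl] at hb
    | yx j b b' =>
      rw [(List.cons.inj e).2] at hb
      cases b' <;> simp [op, xl] at hb
    | _ =>
      rw [(List.cons.inj e).2] at hb
      simp [op, mon] at hb
  · have h3 := hm d hd
    rcases Pre.head_min h2 (z := d) (E := D' ++ [yl k false] ++ E) rfl with h | ⟨j, b, -, e, -⟩
    · have := h (yl k false) (by simp)
      simp at this; omega
    · have : yl k false ∈ [xl j b] := by rw [← e]; simp
      cases b <;> simp [xl, yl, op] at this

theorem amb_start {L E : List Lt} {f g : List (List Lt)} (h1 : Rule mul δ L f)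
    (h2 : Rule mul δ (L ++ E) g) (hE : E ≠ []) : False := by
  obtain ⟨a, M, b, rfl⟩ := exists_long (Pre.two_le h1)
  obtain ⟨E', e, rfl⟩ := E.eq_nil_or_concat'.resolve_left hE
  have hb : b ∈ M ++ b :: E' := by simp
  rcases h2.long (a := a) (m := M ++ b :: E') (b := e) (by simp) (by simp) with
    ⟨k, rfl, rfl, hm, -⟩ | ⟨k, n, rfl, rfl, hm, -⟩ | ⟨k, rfl, rfl, hm, -⟩
  · have h3 := congrArg (·.2.1) (hm b hb)
    generalize e : op k 11 0 :: (M ++ [b]) = L at h1
    cases h1 with
    | en k' w hw => rw [(long_eq e).2.2] at h3; simp [op] at h3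
    | st k' n' m' hm' hc hI => simp [op] at e
    | xy k' m' hm' => simp [op, xl] at e
    | my a j b h => cases b <;> simp [op, yl] at e
    | yx j b b' => cases b <;> simp [op, yl] at e
    | mx a j b' h => rw [← (two_eq e.symm).2.2] at h3; cases b' <;> simp [op, xl] at h3
    | _ => rw [← (two_eq e.symm).2.2] at h3; simp [op, mon] at h3
  · obtain ⟨h3, h4⟩ := hm b hb
    generalize e : op k 6 n :: (M ++ [b]) = L at h1
    cases h1 with
    | st k' n' m' hm' hc hI =>
      obtain ⟨e1, -, rfl⟩ := long_eq e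
      simp [op] at e1 h4; omega
    | my a j b h => cases b <;> simp [op, yl] at e
    | yx j b b' => cases b <;> simp [op, yl] at e
    | mx a j b' h =>
      obtain ⟨rfl, -, rfl⟩ := two_eq e.symm
      simp at h h3; omega
    | op k' t i κ f κ' ht h => simp [op] at e; omega
    | _ => simp [op, mon, xl] at e
  · have h3 := hm b hb
    rcases Pre.last_min h1 (z := b) (C := xl k false :: M) rfl with h | ⟨j, b, -, e, -⟩
    · have := h (xl k false) (by simp)
      simp at this; omega
    · cases b <;> simp [xl, yl, op] at e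

theorem Rule.det {L : List Lt} {f g : List (List Lt)} (h1 : Rule mul δ L f)
    (h2 : Rule mul δ L g) : f = g := by
  obtain ⟨a, M, b, e⟩ := exists_long (Pre.two_le h1)
  have ha : a ∈ L := by simp [e]
  have hb : b ∈ L := by simp [e]
  rcases Pre.head_min h1 (z := a) e with m1 | ⟨j, c, hj, e1, rfl⟩
  swap
  · rcases Pre.head_min h2 (z := a) e with m2 | ⟨j', c', hj', e2, rfl⟩
    · have := m2 (xl j c) (by simp [e, e1])
      simp at this; omega
    · rw [e1] at e2
      obtain ⟨rfl, rfl⟩ : j = j' ∧ c = c' := by cases c <;> cases c' <;> simpa [xl, op] using e2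
      rfl
  rcases Pre.head_min h2 (z := a) e with m2 | ⟨j, c, hj, e1, rfl⟩
  swap
  · have := m1 (xl j c) (by simp [e, e1])
    simp at this; omega
  rcases Pre.last_min h1 (z := b) (C := a :: M) e with n1 | ⟨j, c, hj, e1, rfl⟩
  swap
  · rcases Pre.last_min h2 (z := b) (C := a :: M) e with n2 | ⟨j', c', hj', e2, rfl⟩
    · have := n2 (yl j c) (by rw [e, ← List.cons_append, e1]; simp)
      simp at this; omega
    · rw [e1] at e2
      obtain ⟨rfl, rfl⟩ : j = j' ∧ c = c' := by cases c <;> cases c' <;> simpa [yl, op] using e2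
      rfl
  rcases Pre.last_min h2 (z := b) (C := a :: M) e with n2 | ⟨j, c, hj, e1, rfl⟩
  swap
  · have := n1 (yl j c) (by rw [e, ← List.cons_append, e1]; simp)
    simp at this; omega
  generalize e2 : L = L2 at h2
  cases h1 with
  | mx a j b h => obtain ⟨rfl, -, rfl⟩ := two_eq e; simp at m1; omega
  | my a j b h => obtain ⟨rfl, -, rfl⟩ := two_eq e; simp at n1; omega
  | gam k g1 g2 =>
    cases h2 with
    | gam k' g3 g4 =>
      simp only [op, List.cons.injEq, Prod.mk.injEq, and_true, true_and] at e2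
      obtain ⟨⟨rfl, rfl⟩, -, rfl⟩ := e2; rfl
    | mx a j b h => cases b <;> simp [op, xl] at e2
    | my a j b h => cases b <;> simp [op, yl] at e2
    | yx k b b' => cases b <;> simp [op, yl] at e2
    | _ => simp [op, mon, xl] at e2
  | mon k κ1 κ2 h h' =>
    cases h2 with
    | mon k' κ3 κ4 h3 h4 =>
      simp only [mon, List.cons.injEq, Prod.mk.injEq, and_true, true_and] at e2
      obtain ⟨⟨rfl, rfl⟩, -, rfl⟩ := e2; rfl
    | mx a j b h => cases b <;> simp [op, mon, xl] at e2
    | my a j b h => cases b <;> simp [op, mon, yl] at e2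
    | yx k b b' => cases b <;> simp [op, mon, yl] at e2
    | op k t i κ f κ' ht h => simp [op, mon] at e2; omega
    | _ => simp [op, mon, xl] at e2
  | op k t i κ f κ' ht h =>
    cases h2 with
    | op k' t' i' κ2 f' κ2' ht' h' =>
      simp only [op, mon, List.cons.injEq, Prod.mk.injEq, and_true, true_and] at e2
      obtain ⟨⟨rfl, rfl, rfl⟩, -, rfl⟩ := e2
      rw [h] at h'
      obtain ⟨rfl, rfl⟩ := Prod.mk.inj (Option.some.inj h'); rfl
    | mx a j b h => cases b <;> simp [op, mon, xl] at e2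
    | my a j b h => cases b <;> simp [op, mon, yl] at e2 <;> omega
    | yx k b b' => cases b <;> simp [op, mon, yl] at e2 <;> omega
    | en k w hw => have := (two_eq e2).2.2; simp [op, mon] at this
    | st k n w hw => have := (two_eq e2).2.2; simp [op, mon] at this
    | xy k w hw => have := (two_eq e2).2.2; simp [op, mon, yl] at this
    | _ => simp [op, mon] at e2 <;> omega
  | en k w hw =>
    cases h2 with
    | en => rfl
    | mx a j b h => have := (two_eq e2.symm).2.2; cases b <;> simp [op, xl] at this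
    | my a j b h => cases b <;> simp [op, yl] at e2
    | yx k b b' => cases b <;> simp [op, yl] at e2
    | op k t i κ f κ' ht h => have := (two_eq e2.symm).2.2; simp [op, mon] at this
    | _ => simp [op, mon, xl] at e2
  | st k n m hm hc hI =>
    cases h2 with
    | st k' n' m' =>
      obtain ⟨e3, rfl, -⟩ := long_eq e2
      simp only [op, Prod.mk.injEq, and_true, true_and] at e3
      obtain ⟨rfl, rfl⟩ := e3; rfl
    | mx a j b h => have := (two_eq e2.symm).2.2; cases b <;> simp [op, xl] at this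
    | my a j b h => cases b <;> simp [op, yl] at e2
    | yx k b b' => cases b <;> simp [op, yl] at e2
    | op k t i κ f κ' ht h => simp [op] at e2; omega
    | _ => simp [op, mon, xl] at e2
  | yx k b0 b1 =>
    cases h2 with
    | yx k' b b' =>
      obtain ⟨rfl, rfl⟩ : b0 = b ∧ b1 = b' := by
        cases b0 <;> cases b1 <;> cases b <;> cases b' <;> simp [op, xl, yl] at e2 ⊢
      rfl
    | mx a j b h =>
      obtain ⟨rfl, e3⟩ := List.cons.inj e2
      cases b <;> cases b1 <;> simp [op, xl] at e3 <;> simp at h <;> omega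
    | my a j b h =>
      obtain ⟨e3, e4⟩ := List.cons.inj e2
      rw [← (List.cons.inj e4).1] at h
      cases b <;> cases b0 <;> simp [op, yl] at e3 <;> simp at h <;> omega
    | op k t i κ f κ' ht h => cases b0 <;> simp [op, yl] at e2 <;> omega
    | _ => cases b0 <;> simp [op, mon, xl, yl] at e2
  | xy k m hm =>
    cases h2 with
    | xy k' m' =>
      obtain ⟨e3, rfl, -⟩ := long_eq e2
      simp only [xl, op, Prod.mk.injEq, and_true] at e3
      subst e3; rfl
    | mx a j b h => have := (two_eq e2.symm).2.2; cases b <;> simp [op, xl, yl] at this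
    | my a j b h => cases b <;> simp [op, xl, yl] at e2
    | yx k b b' => cases b <;> simp [op, xl, yl] at e2
    | op k t i κ f κ' ht h => simp [op, xl] at e2; omega
    | _ => simp [op, mon, xl] at e2

theorem amb_in {C L E : List Lt} {f g : List (List Lt)} (h1 : Rule mul δ (C ++ L ++ E) f)
    (h2 : Rule mul δ L g) (hC : C ≠ []) (hE : E ≠ []) : RL (Rule mul δ) (f ++ ctx C E g) [] := by
  obtain ⟨E', e, rfl⟩ := E.eq_nil_or_concat'.resolve_left hE
  obtain ⟨c, C', rfl⟩ := List.exists_cons_of_ne_nil hC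
  have hL : L ≠ [] := by rintro rfl; simpa using Pre.two_le h2
  rcases h1.long (a := c) (m := C' ++ L ++ E') (b := e) (by simp) (by simp [hL]) with
    ⟨k, rfl, rfl, hm, -⟩ | ⟨k, n, rfl, rfl, hm, hI⟩ | ⟨k, rfl, rfl, hm, rfl⟩
  · obtain ⟨a, L', rfl⟩ := List.exists_cons_of_ne_nil hL
    obtain ⟨c, rfl, hc⟩ := head_G h2 (k := k) (i := a.2.2.1) (E := L')
      (by rw [← hm a (by simp)])
    rw [hm c (by simp)] at hc
    simp [op] at hc
  · exact (hI.irred _ _ _ _ h2 rfl).elim
  · exact amb_incl h2 hm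

theorem exists_ring (B : ℕ) (assoc : ∀ a b c, mul (mul a b) c = mul a (mul b c))
    (hδ : ∀ t i κ f κ', 8 ≤ t → δ t i κ = some (f, κ') →
      ∀ w ∈ f, wtW B w + wP κ' < wt B (op 0 t i) + wP κ)
    (heq : ∀ t i κ f κ' κ'', δ t i κ = some (f, κ') → δ t i (papp κ κ'') = some (f, papp κ' κ''))
    (hN : ∀ k w κ f κ', (∀ a ∈ w, a = op k 10 a.2.2.1) → δ 9 0 κ = some (f, κ') →
      RL (Rule mul δ) (ctx (op k 11 0 :: w) [] (f.map fun v => sh k v ++ monW k κ')) []) :
    ∃ (R : Type) (_ : Ring R) (π : FA Lt →+* R), Nontrivial R ∧ Function.Surjective π ∧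
      (∀ L f, Rule mul δ L f → π (mono L) = π (sm f)) ∧
      (∀ (A : Type) [Ring A] (ψ : FA Lt →+* A), (∀ L f, Rule mul δ L f → ψ (mono L) = ψ (sm f)) →
        ∀ a, π a = 0 → ψ a = 0) ∧
      ∀ r : R, ∃ s : Finset (List Lt), (∀ w ∈ s, Irred (Rule mul δ) w) ∧
        r = ∑ w ∈ s, π (mono w) := by
  refine diamond (wf_down B hδ) (fun L f h e => ?_) (fun L E f g h1 h2 => ?_)
    (fun C D E f g h1 h2 hC hD => ?_) (fun C L E f g h1 h2 hC hE => amb_in h1 h2 hC hE)
  · subst e; simpa using Pre.two_le h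
  · by_cases hE : E = []
    · subst hE
      rw [List.append_nil] at h2
      rw [ctx_nil_nil, h1.det h2]; exact RL.self _
    · exact (amb_start h1 h2 hE).elim
  · rcases D with _ | ⟨z, _ | ⟨z', D⟩⟩
    · exact (hD rfl).elim
    · exact amb_one assoc heq hN h1 h2
    · exact (amb_two h1 h2 hC (by simp)).elim

end Vale.Agent.P193
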