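import Vale.Agent.P193.Ring

/-! The concrete action of the operator letters on the stacks. -/

namespace Vale.Agent.P193

attribute [-simp] Prod.forall Prod.exists

/-- how much of the control stack is read -/
def ra (t : ℕ) : ℕ := if t = 8 then 0 else 1
/-- how much of the main stack is read -/
def rb (t : ℕ) : ℕ := if t = 9 then 0 else 1
/-- how much of the other stacks is read -/
def rc (t : ℕ) : ℕ := if t ≤ 9 then 0 else 1

/-- the part that is read -/
def hd (t : ℕ) (κ : PP) : PP :=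
  (κ.1.take (ra t), κ.2.1.take (rb t), κ.2.2.1.take (rc t), κ.2.2.2.1.take (rc t),
    κ.2.2.2.2.take (rc t))

/-- the part that is not read -/
def tl (t : ℕ) (κ : PP) : PP :=
  (κ.1.drop (ra t), κ.2.1.drop (rb t), κ.2.2.1.drop (rc t), κ.2.2.2.1.drop (rc t),
    κ.2.2.2.2.drop (rc t))

/-- the stacks are long enough -/
def need (t : ℕ) (κ : PP) : Prop :=
  ra t ≤ κ.1.length ∧ rb t ≤ κ.2.1.length ∧ rc t ≤ κ.2.2.1.length ∧ rc t ≤ κ.2.2.2.1.length ∧
    rc t ≤ κ.2.2.2.2.length

instance (t : ℕ) (κ : PP) : Decidable (need t κ) := by unfold need; infer_instance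

theorem papp_hd_tl (t : ℕ) (κ : PP) : papp (hd t κ) (tl t κ) = κ := by simp [papp, hd, tl]

theorem need.papp {t : ℕ} {κ : PP} (h : need t κ) (κ' : PP) : need t (papp κ κ') ∧
    hd t (papp κ κ') = hd t κ ∧ tl t (papp κ κ') = papp (tl t κ) κ' := by
  obtain ⟨h1, h2, h3, h4, h5⟩ := h
  refine ⟨by simp only [need, P193.papp, List.length_append]; omega, ?_, ?_⟩
  · simp [hd, P193.papp, List.take_append_of_le_length, *]
  · simp [tl, P193.papp, List.drop_append_of_le_length, *]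

theorem need.ne {t : ℕ} {κ : PP} (h : need t κ) : κ ≠ pnil := by
  rintro rfl
  simp only [need, pnil, ra, rb, List.length_nil] at h
  split_ifs at h <;> omega

theorem need.hd {t : ℕ} {κ : PP} (h : need t κ) : need t (hd t κ) ∧ hd t (hd t κ) = hd t κ ∧
    tl t (hd t κ) = pnil ∧ wP (hd t κ) = 4 * ra t + 2 * (rb t + 3 * rc t) := by
  obtain ⟨h1, h2, h3, h4, h5⟩ := h
  refine ⟨by simp only [need, P193.hd, List.length_take]; omega, ?_, ?_, ?_⟩
  · simp [P193.hd, List.take_take]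
  · simp [P193.hd, tl, pnil]
  · simp only [wP, P193.hd, List.length_take]; omega

/-- tables -/
abbrev Tb : Type := List (ℕ × PP)

/-- table lookup -/
def lk (T : Tb) (i : ℕ) (h : PP) : PP := (T.lookup (Encodable.encode (i, h))).getD pnil

/-- initial configuration -/
def cfg0 (p : ℕ) : PP := ([1], 3 :: 1 :: (List.replicate p 2 ++ [3, 1, 4]), [4], [4], [4])

/-- the three generators -/
def gen (j : ℕ) : Lt :=
  if j = 0 then op 0 8 0 else if j = 1 then mon 0 ([], [2], [], [], [])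
  else mon 0 ([], [3], [], [], [])

/-- weight bound -/
def bw (T : Tb) : ℕ := wP (cfg0 (Encodable.encode T))

/-- decoding a letter -/
def dlt (i : ℕ) : Lt := (Encodable.decode (Nat.unpair i).1).getD (op 0 8 0)

/-- emitted letters -/
def emit (t i : ℕ) : List Lt := if i / 3 + 11 = t then [gen (i % 3)] else []

/-- action on the part that is read -/
def d0 (T : Tb) (t i : ℕ) (h : PP) : List (List Lt) × PP :=
  if t = 8 then
    (if h.2.1.headD 0 = 2 then [[op 0 8 (i + 1)]]
      else if wt (bw T) (dlt i) ≤ i then [[dlt i]] else [], pnil)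
  else if t = 9 then
    if h.1.headD 0 = 0 then ([[]], cfg0 (Encodable.encode T))
    else ([[op 0 10 (h.1.headD 0 - 1), op 0 9 0]], pnil)
  else if t = 10 then
    if (lk T i h).1 ≠ [] ∧ wP (lk T i h) ≤ 14 then ([[]], lk T i h) else ([], pnil)
  else if t = 11 then
    if h.1.headD 0 = 0 ∧ i < 3 then ([[op 0 (12 + i) 0], [op 0 11 (i + 1)]], h) else ([], pnil)
  else if h.2.1.headD 0 = 2 then ([[op 0 t (i + 1)]], (h.1, [], h.2.2))
  else if h.2.1.headD 0 = 4 then ([[]], pnil)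
  else ([emit t i ++ [op 0 t 0]], (h.1, [], h.2.2))

/-- the action -/
def dl (T : Tb) (t i : ℕ) (κ : PP) : Option (List (List Lt) × PP) :=
  if need t κ then some ((d0 T t i (hd t κ)).1, papp (d0 T t i (hd t κ)).2 (tl t κ)) else none

theorem dl_eq {T : Tb} {t i : ℕ} {κ κ' : PP} {f : List (List Lt)} :
    dl T t i κ = some (f, κ') ↔ need t κ ∧ f = (d0 T t i (hd t κ)).1 ∧
      κ' = papp (d0 T t i (hd t κ)).2 (tl t κ) := by
  unfold dl
  split_ifs with h
  · simp [h, eq_comm]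
  · simp [h]

theorem dl_equiv (T : Tb) (t i : ℕ) (κ : PP) (f : List (List Lt)) (κ' κ'' : PP)
    (h : dl T t i κ = some (f, κ')) : dl T t i (papp κ κ'') = some (f, papp κ' κ'') := by
  obtain ⟨hn, rfl, rfl⟩ := dl_eq.1 h
  obtain ⟨h1, h2, h3⟩ := hn.papp κ''
  exact dl_eq.2 ⟨h1, by rw [h2], by rw [h2, h3, papp_assoc]⟩

theorem wt_gen (B j : ℕ) : wt B (gen j) ≤ 3 := by
  unfold gen; split_ifs <;> simp [wt, op, mon, wP]

theorem wt_big (B : ℕ) {t : ℕ} (ht : 12 ≤ t) (j : ℕ) : wt B (op 0 t j) = j + 1 := by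
  have e0 : t ≠ 0 := by omega
  have e1 : t ≠ 2 := by omega
  have e2 : t ≠ 9 := by omega
  have e3 : t ≠ 10 := by omega
  have e4 : t ≠ 11 := by omega
  have e5 : t ≠ 6 := by omega
  have e6 : 8 ≤ t := by omega
  simp [wt, op, *]

theorem dl_wt (T : Tb) (t i : ℕ) (κ : PP) (f : List (List Lt)) (κ' : PP) (ht : 8 ≤ t)
    (h : dl T t i κ = some (f, κ')) :
    ∀ w ∈ f, wtW (bw T) w + wP κ' < wt (bw T) (op 0 t i) + wP κ := by
  obtain ⟨hn, rfl, rfl⟩ := dl_eq.1 h
  clear h
  have e := congrArg wP (papp_hd_tl t κ)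
  obtain ⟨⟨-, h1, -⟩, -, -, h4⟩ := hn.hd
  rw [wP_papp] at e ⊢
  generalize hd t κ = h0 at *
  have w0 : wP pnil = 0 := rfl
  have w1 : t ≠ 9 → wP (h0.1, [], h0.2.2) + 2 ≤ wP h0 := fun h9 => by
    simp [wP, rb, h9] at h1 ⊢; omega
  intro w hw
  unfold d0 at hw ⊢
  split_ifs at hw ⊢ with h8 c1 c2 h9 c1 h10 c1 h11 c1 c1 c2 <;>
    simp only [List.mem_cons, List.not_mem_nil, or_false] at hw
  · subst h8 hw; simp [wt, op, ra, rb, rc, w0] at h4 ⊢; omega
  · subst h8 hw
    have : wt (bw T) (op 0 8 i) = i + 1 := by simp [wt, op]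
    simp [ra, rb, rc, w0, this] at h4 ⊢; omega
  · subst h9 hw
    have : wP (cfg0 (Encodable.encode T)) = bw T := rfl
    simp [wt, op, ra, rb, rc, this] at h4 ⊢; omega
  · subst h9 hw; simp [wt, op, ra, rb, rc, w0] at h4 ⊢; omega
  · subst h10 hw; simp [wt, op, ra, rb, rc] at h4 ⊢; omega
  · subst h11
    rcases hw with rfl | rfl
    · have : wt (bw T) (op 0 (12 + i) 0) = 1 := wt_big _ (by omega) 0
      simp only [wtW_cons, wtW_nil, this]
      simp [wt, op]; omega
    · simp [wt, op]; omega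
  all_goals
    subst hw
    have hw : ∀ j, wt (bw T) (op 0 t j) = j + 1 := wt_big _ (by omega)
    have := w1 h9
    simp only [wtW_cons, wtW_nil, wtW_append, hw, w0]
  · omega
  · omega
  · have := wt_gen (bw T) (i % 3)
    unfold emit
    split_ifs
    · simp only [wtW_cons, wtW_nil]; omega
    · simp only [wtW_nil]; omega

theorem d0_len (T : Tb) (t i : ℕ) (h : PP) : (d0 T t i h).1.length ≤ 2 := by
  unfold d0; split_ifs <;> simp

theorem Pre.len {mul : ℕ → ℕ → ℕ} {T : Tb} {I L f} (h : Pre mul (dl T) I L f) :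
    f.length ≤ 2 := by
  cases h with
  | op k t i κ f κ' ht h =>
    rw [List.length_map, (dl_eq.1 h).2.1]; exact d0_len ..
  | yx => split_ifs <;> simp
  | _ => simp

/-- all symbols are small -/
def Bd (b : ℕ) (κ : PP) : Prop :=
  (∀ s ∈ κ.1, s < b) ∧ (∀ s ∈ κ.2.1, s < b) ∧ (∀ s ∈ κ.2.2.1, s < b) ∧
    (∀ s ∈ κ.2.2.2.1, s < b) ∧ ∀ s ∈ κ.2.2.2.2, s < b

theorem Bd_papp {b : ℕ} {κ κ' : PP} : Bd b (papp κ κ') ↔ Bd b κ ∧ Bd b κ' := by
  simp only [Bd, papp, List.mem_append, or_imp, forall_and]; tauto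

theorem Bd_pnil (b : ℕ) : Bd b pnil := by simp [Bd, pnil]

theorem Bd.mono {b b' : ℕ} {κ : PP} (h : Bd b κ) (hb : b ≤ b') : Bd b' κ :=
  ⟨fun s hs => (h.1 s hs).trans_le hb, fun s hs => (h.2.1 s hs).trans_le hb,
    fun s hs => (h.2.2.1 s hs).trans_le hb, fun s hs => (h.2.2.2.1 s hs).trans_le hb,
    fun s hs => (h.2.2.2.2 s hs).trans_le hb⟩

theorem exists_Bd (κ : PP) : ∃ b, Bd b κ := by
  have : ∀ l : List ℕ, ∀ s ∈ l, s ≤ l.sum := fun l s hs =>
    List.single_le_sum (fun _ _ => Nat.zero_le _) _ hs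
  refine ⟨κ.1.sum + κ.2.1.sum + κ.2.2.1.sum + κ.2.2.2.1.sum + κ.2.2.2.2.sum + 1, ?_, ?_, ?_, ?_,
    ?_⟩ <;> intro s hs <;> have := this _ s hs <;> omega

theorem exists_Bd_table (T : Tb) : ∃ b, 15 ≤ b ∧ ∀ i h, Bd b (lk T i h) := by
  have : ∃ b, ∀ e ∈ T, Bd b e.2 := by
    induction T with
    | nil => exact ⟨0, by simp⟩
    | cons e T ih =>
      obtain ⟨b, hb⟩ := ih
      obtain ⟨b', hb'⟩ := exists_Bd e.2
      refine ⟨b + b', fun x hx => ?_⟩
      rcases List.mem_cons.1 hx with rfl | hx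
      · exact hb'.mono (by omega)
      · exact (hb x hx).mono (by omega)
  obtain ⟨b, hb⟩ := this
  refine ⟨b + 15, by omega, fun i h => ?_⟩
  unfold lk
  cases e : T.lookup (Encodable.encode (i, h)) with
  | none => exact Bd_pnil _
  | some κ =>
    obtain ⟨l1, l2, rfl, -⟩ := List.lookup_eq_some_iff.1 e
    exact (hb (Encodable.encode (i, h), κ) (by simp)).mono (by omega)

theorem Bd_main {b c : ℕ} (hb : 5 ≤ b) (hc : c < b) {l : List ℕ} (hl : ∀ s ∈ l, s < b) :
    Bd b ([c], l, [4], [4], [4]) :=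
  ⟨by simpa using hc, hl, by simp; omega, by simp; omega, by simp; omega⟩

theorem Bd_cfg0 {b : ℕ} (hb : 5 ≤ b) (p : ℕ) : Bd b (cfg0 p) := by
  refine Bd_main hb (by omega) fun s hs => ?_
  simp only [List.mem_cons, List.mem_append, List.mem_replicate, List.not_mem_nil,
    or_false] at hs
  omega

theorem Bd_d0 {T : Tb} {b : ℕ} (hb : 5 ≤ b) (hT : ∀ i h, Bd b (lk T i h)) (t i : ℕ) {h : PP}
    (hh : Bd b h) : Bd b (d0 T t i h).2 := by
  have : Bd b (h.1, [], h.2.2) := ⟨hh.1, by simp, hh.2.2⟩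
  unfold d0
  split_ifs <;> first | exact Bd_pnil _ | exact Bd_cfg0 hb _ | exact hT _ _ | assumption

/-- one machine step -/
def gstep (T : Tb) (i : ℕ) (κ : PP) : Option PP :=
  if need 10 κ ∧ (lk T i (hd 10 κ)).1 ≠ [] ∧ wP (lk T i (hd 10 κ)) ≤ 14 then
    some (papp (lk T i (hd 10 κ)) (tl 10 κ)) else none

theorem dl_gstep {T : Tb} {i : ℕ} {κ κ' : PP} (h : gstep T i κ = some κ') :
    dl T 10 i κ = some ([[]], κ') := by
  unfold gstep at h
  split_ifs at h with c
  obtain rfl := Option.some.inj h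
  exact dl_eq.2 ⟨c.1, by simp [d0, c.2], by simp [d0, c.2]⟩

theorem dl_gstep_none {T : Tb} {i : ℕ} {κ : PP} (h : gstep T i κ = none) (hn : need 10 κ) :
    ∃ κ', dl T 10 i κ = some ([], κ') := by
  unfold gstep at h
  split_ifs at h with c
  exact ⟨_, dl_eq.2 ⟨hn, by simp only [d0]; rw [if_neg (fun h => c ⟨hn, h⟩)]; simp, rfl⟩⟩

theorem Bd_gstep {T : Tb} {b : ℕ} (hT : ∀ i h, Bd b (lk T i h)) {i : ℕ} {κ κ' : PP}
    (h : gstep T i κ = some κ') (hκ : Bd b κ) : Bd b κ' := by
  unfold gstep at h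
  split_ifs at h with c
  obtain rfl := Option.some.inj h
  rw [← papp_hd_tl 10 κ, Bd_papp] at hκ
  exact Bd_papp.2 ⟨hT _ _, hκ.2⟩

/-- unary codes -/
def bits (cs : List ℕ) : List ℕ := cs.flatMap fun c => List.replicate c 2 ++ [3]

/-- halting configuration -/
def cfgH (l : List ℕ) : PP := ([0], l ++ [1, 4], [4], [4], [4])

/-- derivations using small letters only -/
inductive Der (T : Tb) (b : ℕ) : List (List Lt × PP) → List (List Lt × PP) → Prop
  | refl (l) : Der T b l l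
  | trans {l1 l2 l3} : Der T b l1 l2 → Der T b l2 l3 → Der T b l1 l3
  | app {l1 l2 l3 l4} : Der T b l1 l2 → Der T b l3 l4 → Der T b (l1 ++ l3) (l2 ++ l4)
  | step (u : List Lt) (t i : ℕ) (κ : PP) (f : List (List Lt)) (κ' : PP) (h8 : 8 ≤ t) (ht : t < b)
      (hi : i < b) (hκ : Bd b κ) (h : dl T t i κ = some (f, κ')) :
      Der T b [(u ++ [op 0 t i], κ)] (f.map fun w => (u ++ w, κ'))

theorem Der.step₁ {T : Tb} {b : ℕ} (u : List Lt) {t i : ℕ} {κ : PP} {w : List Lt} {κ' : PP}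
    (h8 : 8 ≤ t) (ht : t < b) (hi : i < b) (hκ : Bd b κ) (h : dl T t i κ = some ([w], κ')) :
    Der T b [(u ++ [op 0 t i], κ)] [(u ++ w, κ')] := .step u t i κ _ _ h8 ht hi hκ h

section out

variable {T : Tb} {b : ℕ} (hb : 15 ≤ b)
include hb

theorem bits_lt (cs : List ℕ) : ∀ s ∈ bits cs ++ [1, 4], s < b := fun s hs => by
  simp only [bits, List.mem_cons, List.mem_append, List.mem_replicate, List.not_mem_nil,
    List.mem_flatMap, or_false] at hs
  rcases hs with ⟨c, -, hs⟩ | hs <;> omega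

theorem der_count (u : List Lt) {t : ℕ} (h12 : 12 ≤ t) (ht : t < b) (c i : ℕ) (hc : i + c < b)
    (l : List ℕ) (hl : ∀ s ∈ l, s < b) :
    Der T b [(u ++ [op 0 t i], ([0], List.replicate c 2 ++ l, [4], [4], [4]))]
      [(u ++ [op 0 t (i + c)], ([0], l, [4], [4], [4]))] := by
  induction c generalizing i with
  | zero => exact .refl _
  | succ c ih =>
    refine .trans (.step₁ u (by omega) ht (by omega) ?_ ?_) (by
      simpa [add_assoc, add_comm 1] using ih (i + 1) (by omega))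
    · refine Bd_main (by omega) (by omega) fun s hs => ?_
      rcases List.mem_append.1 hs with hs | hs
      · rw [List.eq_of_mem_replicate hs]; omega
      · exact hl s hs
    · have e1 : t ≠ 8 := by omega
      have e2 : t ≠ 9 := by omega
      have e3 : t ≠ 10 := by omega
      have e4 : t ≠ 11 := by omega
      have e5 : ¬ t ≤ 9 := by omega
      simp [dl, need, hd, tl, ra, rb, rc, d0, papp, List.replicate_succ, *]

theorem der_emit {t : ℕ} (h12 : 12 ≤ t) (ht : t < b) (cs : List ℕ) (hcs : ∀ c ∈ cs, c < b)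
    (u : List Lt) :
    Der T b [(u ++ [op 0 t 0], cfgH (bits cs))] [(u ++ cs.flatMap (emit t), pnil)] := by
  have e1 : t ≠ 8 := by omega
  have e2 : t ≠ 9 := by omega
  have e3 : t ≠ 10 := by omega
  have e4 : t ≠ 11 := by omega
  have e5 : ¬ t ≤ 9 := by omega
  have hB := bits_lt hb
  induction cs generalizing u with
  | nil =>
    have e6 : emit t 0 = [] := by simp [emit]; omega
    refine .trans (l2 := [(u ++ [op 0 t 0], ([0], [4], [4], [4], [4]))])
      (.step₁ u (by omega) ht (by omega) ?_ ?_) (.step₁ u (by omega) ht (by omega) ?_ ?_)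
    · simp [Bd, cfgH, bits]; omega
    · simp [dl, need, hd, tl, ra, rb, rc, d0, papp, cfgH, bits, *]
    · simp [Bd]; omega
    · simp [dl, need, hd, tl, ra, rb, rc, d0, papp, pnil, *]
  | cons c cs ih =>
    have hc := hcs c List.mem_cons_self
    have h1 := der_count (T := T) hb u h12 ht c 0 (by omega) (3 :: (bits cs ++ [1, 4]))
      (fun s hs => (List.mem_cons.1 hs).elim (by omega) (hB cs s))
    have h2 := ih (fun c hc => hcs c (List.mem_cons_of_mem _ hc)) (u ++ emit t c)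
    refine .trans (by simpa [cfgH, bits] using h1) (.trans (l2 := [(u ++ (emit t c ++ [op 0 t 0]),
      cfgH (bits cs))]) (.step₁ u (by omega) ht (by omega) ?_ ?_) (by simpa using h2))
    · exact Bd_main (by omega) (by omega)
        fun s hs => (List.mem_cons.1 hs).elim (by omega) (hB cs s)
    · simp [dl, need, hd, tl, ra, rb, rc, d0, papp, cfgH, bits, *]

theorem der_out (cs : List ℕ) (hcs : ∀ c ∈ cs, c < b) :
    Der T b [([op 0 11 0], cfgH (bits cs))] [(cs.flatMap (emit 12), pnil),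
      (cs.flatMap (emit 13), pnil), (cs.flatMap (emit 14), pnil)] := by
  have hB : Bd b (cfgH (bits cs)) := Bd_main (by omega) (by omega) (bits_lt hb cs)
  have s : ∀ i < 3, Der T b [([op 0 11 i], cfgH (bits cs))]
      [([op 0 (12 + i) 0], cfgH (bits cs)), ([op 0 11 (i + 1)], cfgH (bits cs))] := fun i hi =>
    .step [] 11 i _ [[op 0 (12 + i) 0], [op 0 11 (i + 1)]] _ (by omega) (by omega) (by omega) hB
      (by
        have := papp_hd_tl 11 (cfgH (bits cs))
        refine dl_eq.2 ⟨by simp [need, cfgH, ra, rb, rc], ?_, ?_⟩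
        · simp [d0, hi, cfgH, hd, ra]
        · conv_lhs => rw [← this]
          simp [d0, hi, cfgH, hd, ra])
  have s3 : Der T b [([op 0 11 3], cfgH (bits cs))] [] :=
    .step [] 11 3 _ [] _ (by omega) (by omega) (by omega) hB
      (dl_eq.2 ⟨by simp [need, cfgH, ra, rb, rc], by simp [d0], rfl⟩)
  have e : ∀ t, 12 ≤ t → t < 15 → Der T b [([op 0 t 0], cfgH (bits cs))]
      [(cs.flatMap (emit t), pnil)] := fun t h1 h2 => der_emit hb h1 (by omega) cs hcs []
  exact (s 0 (by omega)).trans ((e 12 (by omega) (by omega)).app ((s 1 (by omega)).trans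
    ((e 13 (by omega) (by omega)).app ((s 2 (by omega)).trans
      ((e 14 (by omega) (by omega)).app s3)))))

end out

end Vale.Agent.P193
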