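import Vale.Agent.P193.StFP

/-! Bergman's diamond lemma in characteristic two. -/

namespace Vale.Agent.P193

variable {α : Type} (Rule : List α → List (List α) → Prop)

/-- put a list of words in a context -/
def ctx (C D : List α) (f : List (List α)) : List (List α) := f.map fun v => C ++ v ++ D

/-- one monomial produced by one reduction step -/
def Down (v w : List α) : Prop := ∃ C L D f, Rule L f ∧ w = C ++ L ++ D ∧ v ∈ ctx C D f

/-- sum of the values on a list of words -/
noncomputable def NL (N : List α → FA α) (l : List (List α)) : FA α := (l.map N).sum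

/-- all words reachable from `w` are compatible with all reduction steps -/
def Ok (N : List α → FA α) (w : List α) : Prop :=
  ∀ v, Relation.ReflTransGen (Down Rule) v w → ∀ C L D f, Rule L f → v = C ++ L ++ D →
    N v = NL N (ctx C D f)

/-- reduction of lists of words -/
def RL (l l' : List (List α)) : Prop :=
  (∀ v ∈ l', ∃ w ∈ l, Relation.ReflTransGen (Down Rule) v w) ∧
  ∀ N : List α → FA α, (∀ w ∈ l, Ok Rule N w) → NL N l = NL N l'

/-- irreducible words -/
def Irred (w : List α) : Prop := ∀ C L D f, Rule L f → w ≠ C ++ L ++ D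

variable {Rule}

@[simp] theorem ctx_nil (C D : List α) : ctx C D [] = [] := rfl
@[simp] theorem ctx_cons (C D v : List α) (f : List (List α)) :
    ctx C D (v :: f) = (C ++ v ++ D) :: ctx C D f := rfl
theorem ctx_append (C D : List α) (f g : List (List α)) :
    ctx C D (f ++ g) = ctx C D f ++ ctx C D g := List.map_append
theorem ctx_ctx (C D C' D' : List α) (f : List (List α)) :
    ctx C D (ctx C' D' f) = ctx (C ++ C') (D' ++ D) f := by
  simp [ctx, Function.comp_def]
@[simp] theorem ctx_nil_nil (f : List (List α)) : ctx [] [] f = f := by simp [ctx]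

@[simp] theorem NL_nil (N : List α → FA α) : NL N [] = 0 := rfl
@[simp] theorem NL_cons (N : List α → FA α) (w l) : NL N (w :: l) = N w + NL N l := by simp [NL]
theorem NL_append (N : List α → FA α) (l l') : NL N (l ++ l') = NL N l + NL N l' := by simp [NL]

theorem mem_ctx {C D v : List α} {f : List (List α)} (h : v ∈ f) : C ++ v ++ D ∈ ctx C D f :=
  List.mem_map_of_mem (f := fun v => C ++ v ++ D) h

theorem NL_ctx (N : List α → FA α) (C D : List α) (f : List (List α)) :
    NL N (ctx C D f) = NL (fun v => N (C ++ v ++ D)) f := by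
  simp [NL, ctx, Function.comp_def]

theorem Down.ctx {v w : List α} (h : Down Rule v w) (C D : List α) :
    Down Rule (C ++ v ++ D) (C ++ w ++ D) := by
  obtain ⟨C', L, D', f, hr, rfl, hv⟩ := h
  refine ⟨C ++ C', L, D' ++ D, f, hr, by simp, ?_⟩
  rw [← ctx_ctx]
  exact mem_ctx hv

theorem downs_ctx {v w : List α} (h : Relation.ReflTransGen (Down Rule) v w) (C D : List α) :
    Relation.ReflTransGen (Down Rule) (C ++ v ++ D) (C ++ w ++ D) := by
  induction h with
  | refl => exact .refl
  | tail _ h ih => exact ih.tail (h.ctx C D)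

theorem Ok.ctx {N : List α → FA α} {C w D : List α} (h : Ok Rule N (C ++ w ++ D)) :
    Ok Rule (fun v => N (C ++ v ++ D)) w := by
  intro v hv C' L D' f hr e
  beta_reduce
  rw [h _ (downs_ctx hv C D) (C ++ C') L (D' ++ D) f hr (by simp [e]), ← ctx_ctx, NL_ctx]

theorem Ok.downs {N : List α → FA α} {v w : List α} (h : Ok Rule N w)
    (hv : Relation.ReflTransGen (Down Rule) v w) : Ok Rule N v := fun u hu => h u (hu.trans hv)

namespace RL

theorem refl (l : List (List α)) : RL Rule l l := ⟨fun v hv => ⟨v, hv, .refl⟩, fun _ _ => rfl⟩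

theorem of_eq {l l' : List (List α)} (h : l = l') : RL Rule l l' := h ▸ refl l

theorem trans {a b c : List (List α)} (h : RL Rule a b) (h' : RL Rule b c) : RL Rule a c := by
  refine ⟨fun v hv => ?_, fun N ha => (h.2 N ha).trans (h'.2 N fun w hw => ?_)⟩
  · obtain ⟨w, hw, e⟩ := h'.1 v hv
    obtain ⟨u, hu, e'⟩ := h.1 w hw
    exact ⟨u, hu, e.trans e'⟩
  · obtain ⟨u, hu, e'⟩ := h.1 w hw
    exact (ha u hu).downs e'

theorem append {a b c d : List (List α)} (h : RL Rule a b) (h' : RL Rule c d) :
    RL Rule (a ++ c) (b ++ d) := by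
  refine ⟨fun v hv => ?_, fun N ha => ?_⟩
  · rcases List.mem_append.1 hv with hv | hv
    · obtain ⟨w, hw, e⟩ := h.1 v hv; exact ⟨w, List.mem_append_left _ hw, e⟩
    · obtain ⟨w, hw, e⟩ := h'.1 v hv; exact ⟨w, List.mem_append_right _ hw, e⟩
  · rw [NL_append, NL_append, h.2 N fun w hw => ha w (List.mem_append_left _ hw),
      h'.2 N fun w hw => ha w (List.mem_append_right _ hw)]

theorem cons {a : List α} {b c d : List (List α)} (h : RL Rule [a] b) (h' : RL Rule c d) :
    RL Rule (a :: c) (b ++ d) := h.append h'

theorem cons₁ {a b : List α} {c d : List (List α)} (h : RL Rule [a] [b]) (h' : RL Rule c d) :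
    RL Rule (a :: c) (b :: d) := h.append h'

theorem perm {a b : List (List α)} (h : a.Perm b) : RL Rule a b :=
  ⟨fun v hv => ⟨v, h.mem_iff.2 hv, .refl⟩, fun N _ => (h.map N).sum_eq⟩

theorem self (a : List (List α)) : RL Rule (a ++ a) [] :=
  ⟨by simp, fun N _ => by rw [NL_append, FA.add_self]; rfl⟩

theorem join {a b c : List (List α)} (h : RL Rule a c) (h' : RL Rule b c) :
    RL Rule (a ++ b) [] := (h.append h').trans (self c)

theorem ctx {a b : List (List α)} (h : RL Rule a b) (C D : List α) :
    RL Rule (ctx C D a) (ctx C D b) := by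
  refine ⟨fun v hv => ?_, fun N ha => ?_⟩
  · obtain ⟨v', hv', rfl⟩ := List.mem_map.1 hv
    obtain ⟨w, hw, e⟩ := h.1 v' hv'
    exact ⟨_, mem_ctx hw, downs_ctx e C D⟩
  · rw [NL_ctx, NL_ctx]
    exact h.2 _ fun w hw => (ha _ (mem_ctx hw)).ctx

theorem step {L : List α} {f : List (List α)} (h : Rule L f) (C D : List α) :
    RL Rule [C ++ L ++ D] (P193.ctx C D f) := by
  refine ⟨fun v hv => ⟨_, List.mem_cons_self, .single ⟨C, L, D, f, h, rfl, hv⟩⟩, fun N ha => ?_⟩
  rw [← ha _ List.mem_cons_self _ .refl C L D f h rfl]; simp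

theorem map {β : Type} {l : List β} {g g' : β → List α} (h : ∀ b ∈ l, RL Rule [g b] [g' b]) :
    RL Rule (l.map g) (l.map g') := by
  induction l with
  | nil => exact refl _
  | cons b l ih =>
    exact cons₁ (h b List.mem_cons_self) (ih fun c hc => h c (List.mem_cons_of_mem _ hc))

theorem map_nil {β : Type} {l : List β} {g : β → List α} (h : ∀ b ∈ l, RL Rule [g b] []) :
    RL Rule (l.map g) [] := by
  induction l with
  | nil => exact refl _
  | cons b l ih =>
    exact cons (b := []) (h b List.mem_cons_self) (ih fun c hc => h c (List.mem_cons_of_mem _ hc))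

end RL

theorem NL_comm (F : List α → List α → FA α) (f g : List (List α)) :
    NL (fun u => NL (fun v => F u v) g) f = NL (fun v => NL (fun u => F u v) f) g := by
  induction f with
  | nil => simp [NL]
  | cons a f ih => rw [NL_cons, ih]; simp [NL, List.sum_map_add]

theorem NL_congr {N N' : List α → FA α} {f : List (List α)} (h : ∀ v ∈ f, N v = N' v) :
    NL N f = NL N' f := by
  rw [NL, NL, List.map_congr_left h]

theorem exists_nf (wf : WellFounded (Down Rule))
    (h1 : ∀ L E f g, Rule L f → Rule (L ++ E) g → RL Rule (ctx [] E f ++ g) [])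
    (h2 : ∀ C D E f g, Rule (C ++ D) f → Rule (D ++ E) g → C ≠ [] → D ≠ [] →
      RL Rule (ctx [] E f ++ ctx C [] g) [])
    (h3 : ∀ C L E f g, Rule (C ++ L ++ E) f → Rule L g → C ≠ [] → E ≠ [] →
      RL Rule (f ++ ctx C E g) []) :
    ∃ N : List α → FA α, (∀ C L D f, Rule L f → N (C ++ L ++ D) = NL N (ctx C D f)) ∧
      ∀ w, Irred Rule w → N w = mono w := by
  classical
  have ex : ∀ w, ¬ Irred Rule w → ∃ t : List α × List α × List α × List (List α),
      Rule t.2.1 t.2.2.2 ∧ w = t.1 ++ t.2.1 ++ t.2.2.1 := by
    intro w hw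
    simp only [Irred, not_forall, not_not] at hw
    obtain ⟨C, L, D, f, h, e⟩ := hw
    exact ⟨(C, L, D, f), h, e⟩
  choose t ht using ex
  let N : List α → FA α := wf.fix fun w rec =>
    if h : Irred Rule w then mono w else
      ((ctx (t w h).1 (t w h).2.2.1 (t w h).2.2.2).attach.map fun v =>
        rec v.1 ⟨_, _, _, _, (ht w h).1, (ht w h).2, v.2⟩).sum
  have N1 : ∀ w, Irred Rule w → N w = mono w := fun w h => by
    simp only [N]; rw [wf.fix_eq, dif_pos h]
  have N2 : ∀ w h, N w = NL N (ctx (t w h).1 (t w h).2.2.1 (t w h).2.2.2) := fun w h => by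
    simp only [N]; rw [wf.fix_eq, dif_neg h, NL]
    congr 1
    exact List.attach_map_val
  have zero : ∀ {a b : List (List α)}, RL Rule (a ++ b) [] → (∀ w ∈ a, Ok Rule N w) →
      (∀ w ∈ b, Ok Rule N w) → NL N a = NL N b := by
    intro a b h ha hb
    have := h.2 N fun w hw => (List.mem_append.1 hw).elim (ha w) (hb w)
    rw [NL_append, NL_nil, ← FA.add_self (NL N b)] at this
    exact add_right_cancel this
  have ok : ∀ w, Ok Rule N w := by
    intro w
    induction w using wf.induction with
    | _ w ih =>
    have amb : ∀ C L D f C' L' D' f', Rule L f → Rule L' f' → w = C ++ L ++ D →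
        w = C' ++ L' ++ D' → C <+: C' → NL N (ctx C D f) = NL N (ctx C' D' f') := by
      intro C L D f C' L' D' f' hr hr' e e' ⟨M, hM⟩
      have o1 : ∀ v ∈ ctx C D f, Ok Rule N v := fun v hv => ih v ⟨_, _, _, _, hr, e, hv⟩
      have o2 : ∀ v ∈ ctx C' D' f', Ok Rule N v := fun v hv => ih v ⟨_, _, _, _, hr', e', hv⟩
      subst hM
      have e2 : L ++ D = M ++ (L' ++ D') := by
        have := e.symm.trans e'
        simpa only [List.append_assoc, List.append_cancel_left_eq] using this
      rcases List.append_eq_append_iff.1 e2 with ⟨M', rfl, rfl⟩ | ⟨K, rfl, e3⟩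
      · have a1 : NL N (ctx C (M' ++ (L' ++ D')) f) =
            NL (fun u => NL (fun v => N (C ++ u ++ M' ++ v ++ D')) f') f := by
          rw [NL_ctx]
          refine NL_congr fun u hu => ?_
          rw [o1 _ (mem_ctx hu) _ .refl (C ++ u ++ M') L' D' f' hr' (by simp), NL_ctx]
        have a2 : NL N (ctx (C ++ (L ++ M')) D' f') =
            NL (fun v => NL (fun u => N (C ++ u ++ M' ++ v ++ D')) f) f' := by
          rw [NL_ctx]
          refine NL_congr fun v hv => ?_
          rw [o2 _ (mem_ctx hv) _ .refl C L (M' ++ v ++ D') f hr (by simp), NL_ctx]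
          simp only [List.append_assoc]
        rw [a1, a2, NL_comm]
      · by_cases hK : K = []
        · subst hK
          simp only [List.nil_append, List.append_nil] at *
          subst e3
          have a1 : NL N (ctx C (L' ++ D') f) =
              NL (fun u => NL (fun v => N (C ++ u ++ v ++ D')) f') f := by
            rw [NL_ctx]
            refine NL_congr fun u hu => ?_
            rw [o1 _ (mem_ctx hu) _ .refl (C ++ u) L' D' f' hr' (by simp), NL_ctx]
          have a2 : NL N (ctx (C ++ M) D' f') =
              NL (fun v => NL (fun u => N (C ++ u ++ v ++ D')) f) f' := by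
            rw [NL_ctx]
            refine NL_congr fun v hv => ?_
            rw [o2 _ (mem_ctx hv) _ .refl C M (v ++ D') f hr (by simp), NL_ctx]
            simp only [List.append_assoc]
          rw [a1, a2, NL_comm]
        by_cases hM : M = []
        · subst hM
          simp only [List.nil_append, List.append_nil] at *
          rcases List.append_eq_append_iff.1 e3 with ⟨E, rfl, rfl⟩ | ⟨E, rfl, rfl⟩
          · have := (h1 _ _ _ _ hr' hr).ctx C D
            rw [ctx_append, ctx_ctx, List.append_nil] at this
            exact (zero this o2 o1).symm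
          · have := (h1 _ _ _ _ hr hr').ctx C D'
            rw [ctx_append, ctx_ctx, List.append_nil] at this
            exact zero this o1 o2
        rcases List.append_eq_append_iff.1 e3 with ⟨E, rfl, rfl⟩ | ⟨E, rfl, rfl⟩
        · by_cases hE : E = []
          · subst hE
            simp only [List.nil_append, List.append_nil] at *
            have := (h2 M L' [] _ _ hr (by simpa using hr') hM hK).ctx C D
            rw [ctx_append, ctx_ctx, ctx_ctx, List.append_nil, List.nil_append] at this
            exact zero this o1 o2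
          · have := (h3 M L' E _ _ (by simpa using hr) hr' hM hE).ctx C D
            rw [ctx_append, ctx_ctx] at this
            exact zero this o1 o2
        · have := (h2 M K E _ _ hr hr' hM hK).ctx C D'
          rw [ctx_append, ctx_ctx, ctx_ctx, List.append_nil, List.nil_append] at this
          exact zero this o1 o2
    intro v hv C L D f hr e
    rcases hv.cases_tail with rfl | ⟨u, hu, hu'⟩
    · have h : ¬ Irred Rule w := fun h => h C L D f hr e
      rw [N2 w h]
      rcases List.prefix_or_prefix_of_prefix (l₁ := C) (l₂ := (t w h).1) (l₃ := w)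
        ⟨L ++ D, by simp [e]⟩ ⟨(t w h).2.1 ++ (t w h).2.2.1, by
          rw [← List.append_assoc]; exact (ht w h).2.symm⟩ with hp | hp
      · exact (amb _ _ _ _ _ _ _ _ hr (ht w h).1 e (ht w h).2 hp).symm
      · exact amb _ _ _ _ _ _ _ _ (ht w h).1 hr (ht w h).2 e hp
    · exact ih u hu' v hu C L D f hr e
  exact ⟨N, fun C L D f hr => ok _ _ .refl C L D f hr rfl, N1⟩

/-- sum of monomials -/
noncomputable abbrev sm (l : List (List α)) : FA α := NL mono l

theorem sm_ctx (C D : List α) (f : List (List α)) :
    sm (ctx C D f) = mono C * sm f * mono D := by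
  induction f with
  | nil => simp
  | cons a f ih =>
    simp only [sm, ctx_cons, NL_cons] at ih ⊢
    rw [ih, mono_append, mono_append, mul_add, add_mul]

theorem FA.eq_sum (a : FA α) : a = ∑ m ∈ a.coeff.support, mono (FreeMonoid.toList m) := by
  conv_lhs => rw [← MonoidAlgebra.sum_coeff_single a]
  refine Finset.sum_congr rfl fun m hm => ?_
  have : ∀ r : ZMod 2, r ≠ 0 → r = 1 := by decide
  rw [this _ (Finsupp.mem_support_iff.1 hm)]; rfl

theorem diamond (wf : WellFounded (Down Rule)) (hne : ∀ L f, Rule L f → L ≠ [])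
    (h1 : ∀ L E f g, Rule L f → Rule (L ++ E) g → RL Rule (ctx [] E f ++ g) [])
    (h2 : ∀ C D E f g, Rule (C ++ D) f → Rule (D ++ E) g → C ≠ [] → D ≠ [] →
      RL Rule (ctx [] E f ++ ctx C [] g) [])
    (h3 : ∀ C L E f g, Rule (C ++ L ++ E) f → Rule L g → C ≠ [] → E ≠ [] →
      RL Rule (f ++ ctx C E g) []) :
    ∃ (R : Type) (_ : Ring R) (π : FA α →+* R), Nontrivial R ∧ Function.Surjective π ∧
      (∀ L f, Rule L f → π (mono L) = π (sm f)) ∧
      (∀ (A : Type) [Ring A] (ψ : FA α →+* A), (∀ L f, Rule L f → ψ (mono L) = ψ (sm f)) →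
        ∀ a, π a = 0 → ψ a = 0) ∧
      ∀ r : R, ∃ s : Finset (List α), (∀ w ∈ s, Irred Rule w) ∧ r = ∑ w ∈ s, π (mono w) := by
  classical
  obtain ⟨N, hN, hI⟩ := exists_nf wf h1 h2 h3
  obtain ⟨F, hFa, hFm⟩ := FA.exists_ext (H := Multiplicative (FA α))
    (fun w => Multiplicative.ofAdd (N w)) (fun _ _ => mul_comm _ _) (fun a => FA.add_self (N a))
  let Nl : FA α →+ FA α := AddMonoidHom.mk' (fun a => (F a).toAdd) (fun a b => by simp [hFa])
  have Nm : ∀ w, Nl (mono w) = N w := fun w => by simp [Nl, hFm]
  have Ns : ∀ l, Nl (sm l) = NL N l := fun l => by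
    induction l with
    | nil => simp
    | cons a l ih => rw [sm, NL_cons, map_add, Nm, ih, NL_cons]
  have univ : ∀ (A : Type) [AddCommGroup A] (ψ : FA α →+ A),
      (∀ C L D f, Rule L f → ψ (mono (C ++ L ++ D)) = ψ (sm (ctx C D f))) →
      ∀ a, ψ (Nl a) = ψ a := by
    intro A _ ψ hψ
    have : ∀ w, ψ (N w) = ψ (mono w) := by
      intro w
      induction w using wf.induction with
      | _ w ih =>
      by_cases h : Irred Rule w
      · rw [hI w h]
      simp only [Irred, not_forall, not_not] at h
      obtain ⟨C, L, D, f, h, e⟩ := h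
      have : ∀ l : List (List α), (∀ v ∈ l, ψ (N v) = ψ (mono v)) → ψ (NL N l) = ψ (sm l) := by
        intro l hl
        induction l with
        | nil => simp
        | cons a l ih' =>
          rw [sm, NL_cons, NL_cons, map_add, map_add, hl a List.mem_cons_self,
            ih' fun v hv => hl v (List.mem_cons_of_mem _ hv)]
      rw [e, hN C L D f h, hψ C L D f h]
      exact this _ fun v hv => ih v ⟨C, L, D, f, h, e, hv⟩
    intro a
    exact FA.ind (p := fun a => ψ (Nl a) = ψ a) (by simp) (fun w => by rw [Nm, this])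
      (fun a b ha hb => by rw [map_add, map_add, map_add, ha, hb]) a
  have ctxN : ∀ C D : List α, ∀ a, Nl a = 0 → Nl (mono C * a * mono D) = 0 := by
    intro C D a ha
    have := univ _ (Nl.comp ((AddMonoidHom.mulRight (mono D)).comp (AddMonoidHom.mulLeft (mono C))))
      (fun C' L D' f h => by
        simp only [AddMonoidHom.comp_apply, AddMonoidHom.coe_mulLeft, AddMonoidHom.coe_mulRight]
        rw [← sm_ctx, ← mono_append, ← mono_append, Nm, Ns, ctx_ctx, ← hN _ L _ f h]
        simp only [List.append_assoc]) a
    simp only [AddMonoidHom.comp_apply, AddMonoidHom.coe_mulLeft, AddMonoidHom.coe_mulRight,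
      ha, mul_zero, zero_mul, map_zero] at this
    exact this.symm
  let I : TwoSidedIdeal (FA α) := TwoSidedIdeal.mk' {a | Nl a = 0} (by simp)
    (fun {a b} ha hb => by
      simp only [Set.mem_setOf_eq] at *; rw [map_add, ha, hb, add_zero])
    (fun {a} ha => by simp only [Set.mem_setOf_eq] at *; rw [map_neg, ha, neg_zero])
    (fun {a b} hb => FA.ind (p := fun a => Nl (a * b) = 0) (by simp)
      (fun w => by simpa [mono_nil] using ctxN w [] b hb)
      (fun a a' h h' => by rw [add_mul, map_add, h, h', add_zero]) a)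
    (fun {a b} ha => FA.ind (p := fun b => Nl (a * b) = 0) (by simp)
      (fun w => by simpa [mono_nil] using ctxN [] w a ha)
      (fun b b' h h' => by rw [mul_add, map_add, h, h', add_zero]) b)
  have hπ : ∀ a b, I.ringCon.mk' a = I.ringCon.mk' b ↔ Nl a = Nl b := fun a b => by
    rw [RingCon.coe_mk', RingCon.eq, TwoSidedIdeal.rel_iff, TwoSidedIdeal.mem_mk',
      Set.mem_setOf_eq, map_sub, sub_eq_zero]
  have NN : ∀ a, Nl (Nl a) = Nl a := univ _ Nl fun C L D f h => by rw [Nm, Ns, hN C L D f h]
  refine ⟨I.ringCon.Quotient, inferInstance, I.ringCon.mk', ⟨1, 0, fun h => ?_⟩,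
    RingCon.mk'_surjective _, fun L f h => ?_, fun A _ ψ hψ a ha => ?_, fun r => ?_⟩
  · rw [← map_one I.ringCon.mk', ← map_zero I.ringCon.mk', hπ, ← mono_nil, Nm, map_zero,
      hI [] (fun C L D f h e => hne L f h (by
        have := congrArg List.length e
        simp at this
        exact List.eq_nil_of_length_eq_zero (by omega))), mono_nil] at h
    exact one_ne_zero h
  · rw [hπ, Nm, Ns]
    simpa using hN [] L [] f h
  · rw [← map_zero I.ringCon.mk', hπ, map_zero] at ha
    have := univ A ψ.toAddMonoidHom (fun C L D f h => by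
      change ψ _ = ψ _
      rw [sm_ctx, mono_append, mono_append, map_mul, map_mul, map_mul, map_mul, hψ L f h]) a
    rw [ha, map_zero] at this
    exact this.symm
  · obtain ⟨a, rfl⟩ := RingCon.mk'_surjective _ r
    let K : AddSubmonoid (FA α) :=
      { carrier := {a | ∀ m ∈ a.coeff.support, Irred Rule (FreeMonoid.toList m)}
        zero_mem' := by simp
        add_mem' := fun {a b} ha hb m hm => by
          rw [MonoidAlgebra.coeff_add] at hm
          rcases Finset.mem_union.1 (Finsupp.support_add hm) with h | h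
          exacts [ha m h, hb m h] }
    have hK : ∀ w, N w ∈ K := by
      intro w
      induction w using wf.induction with
      | _ w ih =>
      by_cases h : Irred Rule w
      · rw [hI w h]
        intro m hm
        have := Finsupp.support_single_subset hm
        rw [Finset.mem_singleton.1 this]; exact h
      simp only [Irred, not_forall, not_not] at h
      obtain ⟨C, L, D, f, h, e⟩ := h
      rw [e, hN C L D f h]
      refine K.list_sum_mem fun x hx => ?_
      obtain ⟨v, hv, rfl⟩ := List.mem_map.1 hx
      exact ih v ⟨C, L, D, f, h, e, hv⟩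
    have hK' : Nl a ∈ K := FA.ind (p := fun a => Nl a ∈ K) (by simp) (fun w => Nm w ▸ hK w)
      (fun a b ha hb => by rw [map_add]; exact K.add_mem ha hb) a
    refine ⟨(Nl a).coeff.support.map FreeMonoid.toList.toEmbedding, fun w hw => ?_, ?_⟩
    · obtain ⟨m, hm, rfl⟩ := Finset.mem_map.1 hw
      exact hK' m hm
    · rw [Finset.sum_map, ← map_sum, hπ]
      exact (NN a).symm.trans (congrArg Nl (FA.eq_sum _))

end Vale.Agent.P193
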