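import Vale.Agent.P193.St4

/-! Simplicity of the general linear group. -/

namespace Vale.Agent.P193

open Matrix

variable {ι : Type} {R : Type} [Ring R] [Fintype ι] [DecidableEq ι]

/-- cone property for ring elements -/
def ConeS (R : Type) [Ring R] : Prop :=
  ∀ s : Finset R, ∃ w : R, ∀ f ∈ s, f ≠ 0 → ∃ a : R, a * (f * w) = 1

theorem Flasque.orth (F : Flasque R) (m n : ℕ) :
    (F.y1 * F.y2 ^ m) * (F.x2 ^ n * F.x1) = if m = n then 1 else 0 := by
  induction m generalizing n with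
  | zero =>
    cases n with
    | zero => simp [F.h11]
    | succ n => simp [pow_succ', ← mul_assoc, F.h12]
  | succ m ih =>
    cases n with
    | zero => simp [pow_succ, mul_assoc, F.h21]
    | succ n =>
      have : (F.y1 * F.y2 ^ (m + 1)) * (F.x2 ^ (n + 1) * F.x1) =
          F.y1 * F.y2 ^ m * (F.y2 * F.x2) * (F.x2 ^ n * F.x1) := by
        rw [pow_succ, pow_succ']; noncomm_ring
      rw [this, F.h22, mul_one, ih]; simp

omit [DecidableEq ι] in
theorem cone_of_coneS (F : Flasque R) (h : ConeS R) : Cone ι R := by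
  classical
  intro s
  let e := Fintype.equivFin ι
  let Y : ι → R := fun i => F.y1 * F.y2 ^ (e i : ℕ)
  let X : ι → R := fun i => F.x2 ^ (e i : ℕ) * F.x1
  have YX : ∀ i j, Y i * X j = if i = j then 1 else 0 := fun i j => by
    simp only [Y, X, F.orth, Fin.val_inj, EmbeddingLike.apply_eq_iff_eq]
  obtain ⟨w, hw⟩ := h (s.image fun f => ∑ j, f j * Y j)
  refine ⟨fun j => Y j * w, fun f hf hf0 => ?_⟩
  obtain ⟨a, ha⟩ := hw _ (Finset.mem_image_of_mem _ hf) (fun h0 => hf0 (by
    funext k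
    have := congrArg (· * X k) h0
    simpa [Finset.sum_mul, mul_assoc, YX] using this))
  refine ⟨a, ?_⟩
  rw [← ha, Finset.sum_mul]
  simp only [dotProduct, mul_assoc]

theorem el_mulVec_ne {i j k : ι} (h : k ≠ i) (r : R) (u : ι → R) :
    (((el i j r : (Matrix ι ι R)ˣ) : Matrix ι ι R) *ᵥ u) k = u k := by
  by_cases hij : i = j
  · subst hij; simp [el_self]
  rw [el_val hij, add_mulVec, one_mulVec, single_mulVec]
  simp [h]

theorem all_el (N : Subgroup (Matrix ι ι R)ˣ) [hN : N.Normal]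
    (h3 : ∀ k o : ι, ∃ l, l ≠ k ∧ l ≠ o) {b c : ι} (hbc : b ≠ c)
    (h : ∀ q, el b c q ∈ N) (i j : ι) (q : R) : el i j q ∈ N := by
  have r1 : ∀ i j k, i ≠ j → k ≠ j → (∀ q, el i j q ∈ N) → ∀ q, el k j q ∈ N := by
    intro i j k hij hkj h q
    by_cases hki : k = i
    · subst hki; exact h q
    rw [← one_mul q, isSt_el.eq_comm_elt hki hij hkj]
    exact mul_mem (hN.conj_mem _ (h q) _) (inv_mem (h q))
  have r2 : ∀ i j k, i ≠ j → i ≠ k → (∀ q, el i j q ∈ N) → ∀ q, el i k q ∈ N := by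
    intro i j k hij hik h q
    by_cases hkj : j = k
    · subst hkj; exact h q
    rw [← mul_one q, isSt_el.eq_comm_elt hij hkj hik, mul_assoc, mul_assoc, ← mul_assoc (el j k 1)]
    exact mul_mem (h q) (hN.conj_mem _ (inv_mem (h q)) _)
  by_cases hij : i = j
  · subst hij; rw [el_self]; exact one_mem _
  by_cases hj : j = b
  · subst hj
    obtain ⟨m, hm1, hm2⟩ := h3 j c
    exact r1 m j i hm1 hij (r2 m c j hm2 hm1 (r1 j c m hbc hm2 h)) q
  · exact r1 b j i (Ne.symm hj) hij (r2 b c j hbc (Ne.symm hj) h) q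

theorem gl_simple [Nontrivial R] [Nonempty ι] (h2 : ∀ r : R, r + r = 0)
    (h4 : ∀ k o p : ι, ∃ l, l ≠ k ∧ l ≠ o ∧ l ≠ p) (hC : ConeS R)
    (hZ : ∀ d : R, (∀ r, r * d = d * r) → d = 0 ∨ d = 1)
    (hs : Function.Surjective (stπ : St ι R →* (Matrix ι ι R)ˣ)) :
    IsSimpleGroup (Matrix ι ι R)ˣ := by
  classical
  have h3 : ∀ k o : ι, ∃ l, l ≠ k ∧ l ≠ o := fun k o => by
    obtain ⟨l, h1, h2, -⟩ := h4 k o o; exact ⟨l, h1, h2⟩
  haveI : Nontrivial (Matrix ι ι R)ˣ := by
    obtain ⟨i⟩ := ‹Nonempty ι›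
    obtain ⟨j, hj, -⟩ := h3 i i
    refine ⟨el j i 1, 1, fun h => ?_⟩
    have := congrArg (fun g : (Matrix ι ι R)ˣ => (g : Matrix ι ι R) j i) h
    simp [el_val hj, hj] at this
  refine ⟨fun N hN => ?_⟩
  by_contra hcon
  push Not at hcon
  obtain ⟨hbot, htop⟩ := hcon
  have s1 : ∃ g ∈ N, ∃ i j, i ≠ j ∧ (g : Matrix ι ι R) i j ≠ 0 := by
    by_contra hd
    push Not at hd
    refine hbot (eq_bot_iff.2 fun g hg => ?_)
    have e : ∀ i j r, i ≠ j → r * (g : Matrix ι ι R) j j = (g : Matrix ι ι R) i i * r := by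
      intro i j r hij
      have := hd _ (hN.conj_mem g hg (el i j r)) i j hij
      rw [isSt_el.inv h2, Units.val_mul, Units.val_mul, el_val hij, add_mul, one_mul, mul_add,
        mul_one, add_mul] at this
      simp only [Matrix.add_apply, single_mul_apply_same, mul_single_apply_same,
        hd g hg i j hij, hd g hg j i hij.symm, zero_add, mul_zero, zero_mul, add_zero] at this
      have h' := h2 ((g : Matrix ι ι R) i i * r)
      rw [← h'] at this
      exact add_right_cancel this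
    rw [Subgroup.mem_bot]
    ext i j
    by_cases hij : i = j
    · subst hij
      obtain ⟨k, hk, -⟩ := h3 i i
      have e1 := e k i 1 hk
      rw [one_mul, mul_one] at e1
      rcases hZ ((g : Matrix ι ι R) i i) (fun r => by rw [e k i r hk, e1]) with h0 | h1
      · exfalso
        refine row_ne_zero g i (funext fun l => ?_)
        by_cases hl : i = l
        · subst hl; exact h0
        · exact hd g hg i l hl
      · simp [h1]
    · simp [hd g hg i j hij, hij]
  obtain ⟨g, hg, i, j, hij, hg0⟩ := s1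
  obtain ⟨t, ht⟩ := hC {1, (g : Matrix ι ι R) i j}
  obtain ⟨a, ha⟩ := ht 1 (by simp) one_ne_zero
  obtain ⟨a', ha'⟩ := ht _ (by simp) hg0
  rw [one_mul] at ha
  obtain ⟨o, hoi, hoj⟩ := h3 i j
  set k : (Matrix ι ι R)ˣ := el j o t * el o j a with hk
  have hkv : (k : Matrix ι ι R) *ᵥ Pi.single j t = Pi.single o 1 := by
    rw [hk, Units.val_mul, ← mulVec_mulVec, el_val hoj, el_val hoj.symm]
    simp only [add_mulVec, one_mulVec, single_mulVec]
    funext l
    by_cases h1 : l = j
    · subst h1; simp [hoj, hoj.symm, ha, h2]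
    by_cases h5 : l = o
    · subst h5; simp [hoj, ha]
    simp [h1, h5]
  have hkv' : ((k⁻¹ : (Matrix ι ι R)ˣ) : Matrix ι ι R) *ᵥ Pi.single o 1 = Pi.single j t := by
    rw [← hkv, mulVec_mulVec, Units.inv_mul, one_mulVec]
  set g1 := k * g * k⁻¹ with hg1
  have hu : a' * ((g1 : Matrix ι ι R) *ᵥ Pi.single o 1) i = 1 := by
    rw [hg1, Units.val_mul, Units.val_mul, ← mulVec_mulVec, ← mulVec_mulVec, hkv', hk,
      Units.val_mul, ← mulVec_mulVec, el_mulVec_ne hij, el_mulVec_ne hoi.symm, ← ha']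
    simp [mulVec, dotProduct_single]
  obtain ⟨b, hbo, hbi⟩ := h3 o i
  obtain ⟨h, hh, e⟩ := reach (T := {o}) (o := b) (c := i) hbo hoi.symm hbi hu
  have hho := ET_le_Fix _ hh o rfl
  set g2 := h⁻¹ * g1 * h⁻¹⁻¹ with hg2
  have m2 : g2 ∈ N := hN.conj_mem _ (hN.conj_mem _ hg k) _
  have e2 : (g2 : Matrix ι ι R) *ᵥ Pi.single o 1 = Pi.single b 1 := by
    rw [hg2, inv_inv, Units.val_mul, Units.val_mul, ← mulVec_mulVec, ← mulVec_mulVec, hho, ← e,
      mulVec_mulVec, Units.inv_mul, one_mulVec]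
  have e2' : ((g2⁻¹ : (Matrix ι ι R)ˣ) : Matrix ι ι R) *ᵥ Pi.single b 1 = Pi.single o 1 := by
    rw [← e2, mulVec_mulVec, Units.inv_mul, one_mulVec]
  obtain ⟨c, hco, hcb⟩ := h3 o b
  obtain ⟨d, hdo, hdb, hdc⟩ := h4 o b c
  set ρ : ι → R := fun l => ((g2⁻¹ : (Matrix ι ι R)ˣ) : Matrix ι ι R) c l with hρ
  have e3 : g2 * el o c 1 * g2⁻¹ = isSt_el.row b ρ := by
    ext1
    rw [row_val, Units.val_mul, Units.val_mul, el_val hco.symm, mul_add, add_mul, mul_one,
      Units.mul_inv]
    congr 1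
    have : (g2 : Matrix ι ι R) * single o c 1 = single b c 1 := by
      ext p q
      by_cases hq : q = c
      · subst hq
        have := congrFun e2 p
        rw [mulVec_single_one] at this
        rw [mul_single_apply_same, mul_one]
        change (g2 : Matrix ι ι R).col o p = _
        rw [this]
        by_cases hp : p = b
        · subst hp; simp
        · simp [hp, Ne.symm hp]
      · simp [hq, Ne.symm hq]
    rw [this]
    ext p q
    by_cases hp : p = b
    · subst hp
      rw [single_mul_apply_same, one_mul]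
      by_cases hq : q = p
      · subst hq
        have := congrFun e2' c
        rw [mulVec_single_one] at this
        change ((g2⁻¹ : (Matrix ι ι R)ˣ) : Matrix ι ι R).col q c = _
        rw [this]; simp [Rm, hco]
      · simp [Rm, hq, hρ]
    · simp [Rm, hp]
  have m3 : isSt_el.row b ρ * el o c 1 ∈ N := by
    rw [← e3, mul_assoc, mul_assoc, ← mul_assoc (el o c 1)]
    nth_rewrite 2 [← isSt_el.inv h2 o c 1]
    exact mul_mem m2 (hN.conj_mem _ (inv_mem m2) _)
  have m4 : ∀ q, el b o (ρ d * q) * el d c q ∈ N := by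
    intro q
    have c1 := isSt_el.conj_row h2 hdb (Ne.symm hbo) q ρ (l := o)
    have v : ρ ᵥ* ((el d o q : (Matrix ι ι R)ˣ) : Matrix ι ι R) = ρ + Pi.single o (ρ d * q) := by
      rw [el_val hdo, vecMul_add, vecMul_one]
      congr 1
      funext l
      by_cases hl : l = o
      · subst hl; simp [vecMul, dotProduct, single]
      · simp [vecMul, dotProduct, single, hl, Ne.symm hl]
    rw [v, IsSt.row_add, IsSt.row_single] at c1
    have c2 := isSt_el.conj_left (R := R) q 1 hdo hco.symm hdc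
    rw [mul_one] at c2
    have m := mul_mem (hN.conj_mem _ m3 (el d o q)) (inv_mem m3)
    have : el d o q * (isSt_el.row b ρ * el o c 1) * (el d o q)⁻¹ * (isSt_el.row b ρ * el o c 1)⁻¹
        = isSt_el.row b ρ * (el b o (ρ d * q) * el d c q) * (isSt_el.row b ρ)⁻¹ := by
      calc _ = (el d o q * isSt_el.row b ρ * (el d o q)⁻¹) * (el d o q * el o c 1 * (el d o q)⁻¹)
            * (isSt_el.row b ρ * el o c 1)⁻¹ := by group
        _ = _ := by rw [c1, c2]; group
    rw [this] at m
    have := hN.conj_mem _ m (isSt_el.row b ρ)⁻¹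
    simpa [mul_assoc] using this
  have m5 : ∀ q, el b c q ∈ N := by
    intro q
    have c1 := isSt_el.conj_comm (R := R) (i := b) (j := d) (k := b) (l := o) 1 (ρ d * q) hdb hbo
    have c2 := isSt_el.conj_left (R := R) 1 q hdb.symm hdc hcb.symm
    rw [one_mul] at c2
    have m := mul_mem (hN.conj_mem _ (m4 q) (el b d 1)) (inv_mem (m4 q))
    have : el b d 1 * (el b o (ρ d * q) * el d c q) * (el b d 1)⁻¹ *
        (el b o (ρ d * q) * el d c q)⁻¹ = el b o (ρ d * q) * el b c q * (el b o (ρ d * q))⁻¹ := by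
      calc _ = (el b d 1 * el b o (ρ d * q) * (el b d 1)⁻¹) * (el b d 1 * el d c q * (el b d 1)⁻¹)
            * (el b o (ρ d * q) * el d c q)⁻¹ := by group
        _ = _ := by rw [c1, c2]; group
    rw [this] at m
    have := hN.conj_mem _ m (el b o (ρ d * q))⁻¹
    simpa [mul_assoc] using this
  refine htop (eq_top_iff.2 fun x _ => ?_)
  obtain ⟨s, rfl⟩ := hs x
  exact St.mem_of_gens (N.comap stπ) (fun i j r => by
    change stπ (xs i j r) ∈ N
    rw [stπ_xs]; exact all_el N h3 hcb.symm m5 i j r) s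

end Vale.Agent.P193
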