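import Vale.Agent.P193.Confl
import Vale.Agent.P193.Simple

/-! Properties of the ring defined by the rewriting system. -/

namespace Vale.Agent.P193

attribute [-simp] Prod.forall Prod.exists

/-- substitution of words for letters -/
noncomputable def FA.sub {α β : Type} (σ : α → List β) : FA α →+* FA β :=
  MonoidAlgebra.mapDomainRingHom _ (FreeMonoid.lift fun a => FreeMonoid.ofList (σ a))

theorem FA.sub_mono {α β : Type} (σ : α → List β) (w : List α) :
    FA.sub σ (mono w) = mono (w.flatMap σ) := by
  have : (FreeMonoid.lift fun a => FreeMonoid.ofList (σ a)) (FreeMonoid.ofList w) =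
      FreeMonoid.ofList (w.flatMap σ) := by
    rw [FreeMonoid.lift_ofList, List.flatMap, FreeMonoid.ofList_flatten, List.map_map]; rfl
  rw [mono, mono, ← this]
  exact MonoidAlgebra.mapDomain_single

theorem map_sm {α β A : Type} [Ring A] (ψ : FA α →+* A) (χ : FA β →+* A) (g : List α → List β)
    (f : List (List α)) (h : ∀ v ∈ f, ψ (mono v) = χ (mono (g v))) :
    ψ (sm f) = χ (sm (f.map g)) := by
  induction f with
  | nil => simp
  | cons v f ih =>
    simp only [sm, List.map_cons, NL_cons, map_add] at ih ⊢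
    rw [h v List.mem_cons_self, ih fun w hw => h w (List.mem_cons_of_mem _ hw)]

theorem mono_cons {α : Type} (a : α) (w : List α) : mono (a :: w) = mono [a] * mono w :=
  mono_append [a] w

theorem mono_replicate {α : Type} (a : α) (n : ℕ) : mono (List.replicate n a) = mono [a] ^ n := by
  induction n with
  | zero => rfl
  | succ n ih => rw [List.replicate_succ, mono_cons, ih, pow_succ']

variable {mul : ℕ → ℕ → ℕ} {δ : ℕ → ℕ → PP → Option (List (List Lt) × PP)}

variable (mul δ) in
/-- the ring presented by the rules, with its normal forms -/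
structure Model {R : Type} [Ring R] (π : FA Lt →+* R) : Prop where
  nt : Nontrivial R
  surj : Function.Surjective π
  rule : ∀ L f, Rule mul δ L f → π (mono L) = π (sm f)
  univ : ∀ (A : Type) [Ring A] (ψ : FA Lt →+* A),
    (∀ L f, Rule mul δ L f → ψ (mono L) = ψ (sm f)) → ∀ a, π a = 0 → ψ a = 0
  nf : ∀ r : R, ∃ s : Finset (List Lt), (∀ w ∈ s, Irred (Rule mul δ) w) ∧
    r = ∑ w ∈ s, π (mono w)

namespace Model

variable {R : Type} [Ring R] {π : FA Lt →+* R} (M : Model mul δ π)
include M

theorem two (r : R) : r + r = 0 := by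
  obtain ⟨a, rfl⟩ := M.surj r
  rw [← map_add, FA.add_self, map_zero]

theorem yx (b b' : Bool) :
    π (mono [yl 0 b]) * π (mono [xl 0 b']) = if b = b' then 1 else 0 := by
  rw [← map_mul, ← mono_append, List.singleton_append, M.rule _ _ (Pre.yx 0 b b')]
  split_ifs <;> simp [mono_nil]

theorem exists_flasque : ∃ F : Flasque R, F.x1 = π (mono [xl 0 true]) ∧
    F.x2 = π (mono [xl 0 false]) := by
  have hu : ∀ w, FA.sub (fun a => [ua 1 a]) (mono w) = mono (sh 1 w) := fun w => by
    rw [FA.sub_mono, sh, List.map_eq_flatMap]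
  have hk : RingHom.ker π ≤ RingHom.ker (π.comp (FA.sub fun a => [ua 1 a])) := fun a ha => by
    refine M.univ R _ (fun L f h => ?_) a ha
    rw [RingHom.comp_apply, hu, M.rule _ _ h.up]
    exact (map_sm _ _ _ _ fun v _ => by rw [RingHom.comp_apply, hu]).symm
  let φ := π.liftOfSurjective M.surj ⟨_, hk⟩
  have hφ : ∀ w, φ (π (mono w)) = π (mono (sh 1 w)) := fun w => by
    rw [RingHom.liftOfSurjective_comp_apply]
    exact congrArg π (hu w)
  refine ⟨⟨π (mono [xl 0 true]), π (mono [xl 0 false]), π (mono [yl 0 true]),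
    π (mono [yl 0 false]), φ, by simp [M.yx], by simp [M.yx], by simp [M.yx], by simp [M.yx],
    fun r => ?_⟩, rfl, rfl⟩
  obtain ⟨a, rfl⟩ := M.surj r
  refine FA.ind (p := fun a => φ (π a) = π (mono [xl 0 true]) * π a * π (mono [yl 0 true]) +
    π (mono [xl 0 false]) * φ (π a) * π (mono [yl 0 false])) (by simp) (fun w => ?_)
    (fun a b ha hb => ?_) a
  · have := M.rule _ _ (Pre.xy 0 (sh 1 w) fun a ha => by
      obtain ⟨b, -, rfl⟩ := mem_sh.1 ha
      simp)
    simp only [dn_sh, sm, NL_cons, NL_nil, add_zero, map_add] at this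
    rw [mono_cons, mono_append, mono_cons (xl 0 true), mono_append] at this
    simp only [map_mul, ← mul_assoc] at this
    rw [hφ, this, add_left_comm, M.two, add_zero]
  · simp only [map_add, mul_add, add_mul]
    conv_lhs => rw [ha, hb]
    abel

open Classical in
theorem probe (F : Flasque R) (h1 : F.x1 = π (mono [xl 0 true]))
    (h2 : F.x2 = π (mono [xl 0 false])) (T : Finset (List Lt)) :
    ∃ A B : R, ∀ s ⊆ T, (∀ w ∈ s, Irred (Rule mul δ) w) → ∀ m,
      F.y1 * F.y2 ^ Encodable.encode m * (A * (∑ w ∈ s, π (mono w)) * B) =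
        if m ∈ s then 1 else 0 := by
  classical
  obtain ⟨n, hn⟩ : ∃ n, ∀ w ∈ T, Encodable.encode w < n ∧ ∀ a ∈ w, a.2.2.1 < n := by
    refine ⟨T.sup (fun w => Encodable.encode w + (w.map (·.2.2.1)).sum) + 1, fun w hw => ?_⟩
    have := Finset.le_sup (f := fun w : List Lt =>
      Encodable.encode w + (w.map (·.2.2.1)).sum) hw
    refine ⟨by omega, fun a ha => ?_⟩
    have := List.single_le_sum (l := w.map (·.2.2.1)) (fun _ _ => Nat.zero_le _) _
      (List.mem_map_of_mem ha)
    omega
  refine ⟨π (mono [op 0 6 n]), π (mono [op 0 7 n]), fun s hs hI m => ?_⟩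
  have : ∀ w ∈ s, F.y1 * F.y2 ^ Encodable.encode m *
      (π (mono [op 0 6 n]) * π (mono w) * π (mono [op 0 7 n])) = if m = w then 1 else 0 := by
    intro w hw
    have := M.rule _ _ (Pre.st 0 n w (fun a ha => ⟨Nat.zero_le _, (hn w (hs hw)).2 a ha⟩)
      (by rw [dn_zero]; exact (hn w (hs hw)).1) (irr_of_irred (hI w hw)))
    simp only [dn_zero, sm, NL_cons, NL_nil, add_zero, xi] at this
    rw [mono_cons, mono_append, mono_append, mono_replicate] at this
    simp only [map_mul, ← mul_assoc, map_pow] at this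
    rw [this, ← h1, ← h2, F.orth]
    simp
  rw [Finset.mul_sum, Finset.sum_mul, Finset.mul_sum, Finset.sum_congr rfl this]
  simp

theorem coneS : ConeS R := by
  classical
  obtain ⟨F, h1, h2⟩ := M.exists_flasque
  choose S hS using M.nf
  intro s
  obtain ⟨A, B, h⟩ := M.probe F h1 h2 (s.biUnion S)
  refine ⟨B, fun f hf h0 => ?_⟩
  obtain ⟨m, hm⟩ : (S f).Nonempty := by
    rw [Finset.nonempty_iff_ne_empty]
    intro e
    exact h0 (by rw [(hS f).2, e, Finset.sum_empty])
  have := h (S f) (Finset.subset_biUnion_of_mem S hf) (hS f).1 m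
  rw [if_pos hm, ← (hS f).2] at this
  exact ⟨F.y1 * F.y2 ^ Encodable.encode m * A, by rw [← this]; simp only [mul_assoc]⟩

omit M in
theorem irred_short {w : List Lt} (h : w.length ≤ 1) : Irred (Rule mul δ) w := by
  intro C L D f hr e
  have := Pre.two_le hr
  simp [e] at h; omega

theorem centre (d : R) (hd : ∀ r, r * d = d * r) : d = 0 ∨ d = 1 := by
  classical
  obtain ⟨F, h1, h2⟩ := M.exists_flasque
  obtain ⟨s, hs, e⟩ := M.nf d
  obtain ⟨A, B, h⟩ := M.probe F h1 h2 (insert [] s)
  have e1 := h s (Finset.subset_insert _ _) hs []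
  have e2 := h {[]} (by simp) (by simpa using irred_short (by simp)) []
  rw [← e, hd A, mul_assoc d, ← mul_assoc, hd, mul_assoc] at e1
  simp only [Finset.sum_singleton, mono_nil, map_one, mul_one, Finset.mem_singleton,
    if_true] at e2
  rw [e2, mul_one] at e1
  split_ifs at e1 <;> simp [e1]

theorem exists_emb {G : Type*} [Group G] (c : G → ℕ) (hc : Function.Injective c)
    (hm : ∀ g h, mul (c g) (c h) = c (g * h)) : ∃ f : G →* R, Function.Injective f := by
  classical
  have := M.nt
  let u : G → R := fun g => π (mono [op 0 5 (c g)])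
  have hu : ∀ g h, u g * u h = u (g * h) := fun g h => by
    have := M.rule _ _ (Pre.gam 0 (c g) (c h))
    simp only [sm, NL_cons, NL_nil, add_zero, hm] at this
    rw [mono_cons, map_mul] at this
    exact this
  refine ⟨⟨⟨fun g => u g + 1 + u 1, ?_⟩, fun g h => ?_⟩, fun g h e => ?_⟩
  · rw [add_right_comm, M.two, zero_add]
  · simp only [add_mul, mul_add, hu, mul_one, one_mul]
    calc _ = (u (g * h) + 1 + u 1) + (u g + u g) + (u h + u h) + (u 1 + u 1) := by simp [M.two]
      _ = _ := by abel
  · have e1 : u g = u h := add_right_cancel (add_right_cancel e)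
    obtain ⟨F, h1, h2⟩ := M.exists_flasque
    obtain ⟨A, B, hp⟩ := M.probe F h1 h2 {[op 0 5 (c g)], [op 0 5 (c h)]}
    have e2 := hp {[op 0 5 (c g)]} (by simp) (by simpa using irred_short (by simp))
      [op 0 5 (c g)]
    have e3 := hp {[op 0 5 (c h)]} (by simp) (by simpa using irred_short (by simp))
      [op 0 5 (c g)]
    simp only [Finset.sum_singleton, Finset.mem_singleton, if_true] at e2 e3
    have e4 := e2.symm.trans ((congrArg (fun x => _ * (A * x * B)) e1).trans e3)
    split_ifs at e4 with h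
    · exact hc (by simpa [op] using h)
    · exact absurd e4 one_ne_zero

theorem final (hR : RingFP R) {G : Type*} [Group G] (c : G → ℕ) (hc : Function.Injective c)
    (hm : ∀ g h, mul (c g) (c h) = c (g * h)) :
    ∃ (H : Type) (_ : Group H), Group.IsFinitelyPresented H ∧ IsSimpleGroup H ∧
      ∃ f : G →* H, Function.Injective f := by
  have := M.nt
  obtain ⟨F, -⟩ := M.exists_flasque
  have hC : Cone (Fin 5) R := cone_of_coneS F M.coneS
  have hs := stπ_surjective (ι := Fin 5) M.two (by decide) F hC (o := 0) (c := 1) (by decide)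
  have hi := stπ_injective (ι := Fin 5) M.two (by decide) F hC (o := 0) (a := 1) (b := 2) (c := 3)
    (by decide) (by decide) (by decide) (by decide) (by decide) (by decide)
  have := st_fp (ι := Fin 5) M.two (by decide) hR
  obtain ⟨f, hf⟩ := M.exists_emb c hc hm
  refine ⟨(Matrix (Fin 5) (Fin 5) R)ˣ, inferInstance,
    Group.IsFinitelyPresented.equiv (MulEquiv.ofBijective _ ⟨hi, hs⟩),
    gl_simple M.two (by decide) M.coneS M.centre hs,
    (((Matrix.scalar (Fin 5)).toMonoidHom).comp f).toHomUnits, fun g h e => hf ?_⟩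
  exact Matrix.scalar_inj.1 (congrArg Units.val e)

end Model

end Vale.Agent.P193
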