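import Vale.Agent.P193.Diamond

/-! The rewriting system. -/

namespace Vale.Agent.P193

attribute [-simp] Prod.forall Prod.exists

/-- contents of five stacks -/
abbrev PP : Type := List ℕ × List ℕ × List ℕ × List ℕ × List ℕ

/-- empty stacks -/
def pnil : PP := ([], [], [], [], [])

/-- concatenation of stack contents -/
def papp (a b : PP) : PP :=
  (a.1 ++ b.1, a.2.1 ++ b.2.1, a.2.2.1 ++ b.2.2.1, a.2.2.2.1 ++ b.2.2.2.1, a.2.2.2.2 ++ b.2.2.2.2)

theorem papp_assoc (a b c : PP) : papp (papp a b) c = papp a (papp b c) := by simp [papp]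
@[simp] theorem papp_pnil (a : PP) : papp a pnil = a := by simp [papp, pnil]
@[simp] theorem pnil_papp (a : PP) : papp pnil a = a := by simp [papp, pnil]

theorem papp_eq_pnil {a b : PP} : papp a b = pnil ↔ a = pnil ∧ b = pnil := by
  obtain ⟨a1, a2, a3, a4, a5⟩ := a
  obtain ⟨b1, b2, b3, b4, b5⟩ := b
  simp only [papp, pnil, Prod.mk.injEq, List.append_eq_nil_iff]
  tauto

/-- weight of stack contents -/
def wP (a : PP) : ℕ :=
  4 * a.1.length + 2 * (a.2.1.length + a.2.2.1.length + a.2.2.2.1.length + a.2.2.2.2.length)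

theorem wP_papp (a b : PP) : wP (papp a b) = wP a + wP b := by simp [wP, papp]; ring

/-- letters: level, tag, index, stack contents -/
abbrev Lt : Type := ℕ × ℕ × ℕ × PP

/-- a letter pushing on the stacks -/
def mon (k : ℕ) (κ : PP) : Lt := (k, 0, 0, κ)
/-- the other letters -/
def op (k t i : ℕ) : Lt := (k, t, i, pnil)
/-- isometries -/
def xl (k : ℕ) (b : Bool) : Lt := op k (bif b then 1 else 2) 0
/-- coisometries -/
def yl (k : ℕ) (b : Bool) : Lt := op k (bif b then 3 else 4) 0
/-- level drop -/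
def eps (b : Bool) : ℕ := bif b then 1 else 0
/-- raise the level -/
def ua (k : ℕ) (a : Lt) : Lt := (a.1 + k, a.2)
/-- lower the level -/
def da (k : ℕ) (a : Lt) : Lt := (a.1 - k, a.2)
/-- raise levels -/
def sh (k : ℕ) (w : List Lt) : List Lt := w.map (ua k)
/-- lower levels -/
def dn (k : ℕ) (w : List Lt) : List Lt := w.map (da k)
/-- a possibly empty push -/
def monW (k : ℕ) (κ : PP) : List Lt := if κ = pnil then [] else [mon k κ]
/-- the isometry number `n` -/
def xi (k n : ℕ) : List Lt := List.replicate n (xl k false) ++ [xl k true]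

@[simp] theorem ua_fst (k : ℕ) (a : Lt) : (ua k a).1 = a.1 + k := rfl
@[simp] theorem ua_snd (k : ℕ) (a : Lt) : (ua k a).2 = a.2 := rfl
@[simp] theorem da_fst (k : ℕ) (a : Lt) : (da k a).1 = a.1 - k := rfl
@[simp] theorem da_snd (k : ℕ) (a : Lt) : (da k a).2 = a.2 := rfl
@[simp] theorem ua_op (k j t i : ℕ) : ua k (op j t i) = op (j + k) t i := rfl
@[simp] theorem da_op (k j t i : ℕ) : da k (op j t i) = op (j - k) t i := rfl
@[simp] theorem ua_mon (k j : ℕ) (κ : PP) : ua k (mon j κ) = mon (j + k) κ := rfl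
@[simp] theorem da_mon (k j : ℕ) (κ : PP) : da k (mon j κ) = mon (j - k) κ := rfl
@[simp] theorem ua_xl (k j : ℕ) (b : Bool) : ua k (xl j b) = xl (j + k) b := rfl
@[simp] theorem da_xl (k j : ℕ) (b : Bool) : da k (xl j b) = xl (j - k) b := rfl
@[simp] theorem ua_yl (k j : ℕ) (b : Bool) : ua k (yl j b) = yl (j + k) b := rfl
@[simp] theorem da_yl (k j : ℕ) (b : Bool) : da k (yl j b) = yl (j - k) b := rfl
@[simp] theorem op_fst (j t i : ℕ) : (op j t i).1 = j := rfl
@[simp] theorem mon_fst (j : ℕ) (κ : PP) : (mon j κ).1 = j := rfl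
@[simp] theorem xl_fst (j : ℕ) (b : Bool) : (xl j b).1 = j := rfl
@[simp] theorem yl_fst (j : ℕ) (b : Bool) : (yl j b).1 = j := rfl
@[simp] theorem da_zero (a : Lt) : da 0 a = a := rfl
@[simp] theorem ua_zero (a : Lt) : ua 0 a = a := rfl
theorem da_da (k l : ℕ) (a : Lt) : da k (da l a) = da (l + k) a := by simp [da, Nat.sub_sub]

@[simp] theorem sh_nil (k : ℕ) : sh k [] = [] := rfl
@[simp] theorem sh_cons (k : ℕ) (a : Lt) (w : List Lt) :
    sh k (a :: w) = ua k a :: sh k w := rfl
@[simp] theorem sh_append (k : ℕ) (v w : List Lt) : sh k (v ++ w) = sh k v ++ sh k w :=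
  List.map_append
@[simp] theorem dn_nil (k : ℕ) : dn k [] = [] := rfl
@[simp] theorem dn_cons (k : ℕ) (a : Lt) (w : List Lt) :
    dn k (a :: w) = da k a :: dn k w := rfl
@[simp] theorem dn_append (k : ℕ) (v w : List Lt) : dn k (v ++ w) = dn k v ++ dn k w :=
  List.map_append
@[simp] theorem dn_zero (w : List Lt) : dn 0 w = w := by simp [dn, funext da_zero]
@[simp] theorem sh_zero (w : List Lt) : sh 0 w = w := by simp [sh, funext ua_zero]
theorem sh_sh (k l : ℕ) (w : List Lt) : sh k (sh l w) = sh (l + k) w := by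
  simp [sh, ua, add_assoc]
theorem dn_dn (k l : ℕ) (w : List Lt) : dn k (dn l w) = dn (l + k) w := by
  simp [dn, da, Nat.sub_sub]
@[simp] theorem dn_sh (k : ℕ) (w : List Lt) : dn k (sh k w) = w := by
  simp [dn, sh, da, ua, Function.comp_def]
theorem sh_dn {k : ℕ} {w : List Lt} (h : ∀ a ∈ w, k ≤ a.1) : sh k (dn k w) = w := by
  simp only [sh, dn, List.map_map]
  conv_rhs => rw [← List.map_id w]
  refine List.map_congr_left fun a ha => ?_
  simp [ua, Nat.sub_add_cancel (h a ha)]
theorem mem_sh {k : ℕ} {w : List Lt} {a : Lt} : a ∈ sh k w ↔ ∃ b ∈ w, ua k b = a :=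
  List.mem_map
theorem mem_dn {k : ℕ} {w : List Lt} {a : Lt} : a ∈ dn k w ↔ ∃ b ∈ w, da k b = a :=
  List.mem_map

theorem sh_monW (k l : ℕ) (κ : PP) : sh l (monW k κ) = monW (k + l) κ := by
  unfold monW; split_ifs <;> rfl
theorem dn_monW (k l : ℕ) (κ : PP) : dn l (monW k κ) = monW (k - l) κ := by
  unfold monW; split_ifs <;> rfl
theorem sh_xi (k l n : ℕ) : sh l (xi k n) = xi (k + l) n := by simp [xi, sh]
theorem dn_xi (k l n : ℕ) : dn l (xi k n) = xi (k - l) n := by simp [xi, dn]
theorem lev_monW {k : ℕ} {κ : PP} {a : Lt} (h : a ∈ monW k κ) : a.1 = k := by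
  unfold monW at h; split_ifs at h <;> simp_all [mon]
theorem lev_xi {k n : ℕ} {a : Lt} (h : a ∈ xi k n) : a.1 = k := by
  simp only [xi, List.mem_append, List.mem_replicate, List.mem_singleton] at h
  rcases h with ⟨-, rfl⟩ | rfl <;> rfl

variable (mul : ℕ → ℕ → ℕ) (δ : ℕ → ℕ → PP → Option (List (List Lt) × PP))

/-- the rules, relative to a side condition -/
inductive Pre (I : List Lt → Prop) : List Lt → List (List Lt) → Prop
  | gam (k g g' : ℕ) : Pre I [op k 5 g, op k 5 g'] [[op k 5 (mul g g')]]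
  | mon (k : ℕ) (κ κ' : PP) (h : κ ≠ pnil) (h' : κ' ≠ pnil) :
      Pre I [mon k κ, mon k κ'] [[mon k (papp κ κ')]]
  | op (k t i : ℕ) (κ : PP) (f : List (List Lt)) (κ' : PP) (ht : 8 ≤ t)
      (h : δ t i κ = some (f, κ')) :
      Pre I [op k t i, mon k κ] (f.map fun w => sh k w ++ monW k κ')
  | en (k : ℕ) (w : List Lt) (hw : ∀ a ∈ w, a = op k 10 a.2.2.1) :
      Pre I (op k 11 0 :: (w ++ [op k 9 0])) []
  | st (k n : ℕ) (m : List Lt) (hm : ∀ a ∈ m, k ≤ a.1 ∧ a.2.2.1 < n)
      (hc : Encodable.encode (dn k m) < n) (hI : I m) :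
      Pre I (op k 6 n :: (m ++ [op k 7 n])) [xi k (Encodable.encode (dn k m))]
  | mx (a : Lt) (j : ℕ) (b : Bool) (h : j < a.1) :
      Pre I [a, xl j b] [[xl j b, da (eps b) a]]
  | my (a : Lt) (j : ℕ) (b : Bool) (h : j < a.1) :
      Pre I [yl j b, a] [[da (eps b) a, yl j b]]
  | yx (k : ℕ) (b b' : Bool) : Pre I [yl k b, xl k b'] (if b = b' then [[]] else [])
  | xy (k : ℕ) (m : List Lt) (hm : ∀ a ∈ m, k < a.1) :
      Pre I (xl k false :: (m ++ [yl k false])) [m, xl k true :: (dn 1 m ++ [yl k true])]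

/-- irreducible words -/
def Irr (m : List Lt) : Prop := Irred (Pre mul δ fun _ => True) m

/-- the rules -/
def Rule : List Lt → List (List Lt) → Prop := Pre mul δ (Irr mul δ)

variable {mul δ}

theorem Pre.mono {I I' : List Lt → Prop} (h : ∀ m, I m → I' m) {L f} (hr : Pre mul δ I L f) :
    Pre mul δ I' L f := by
  cases hr with
  | gam => exact .gam ..
  | mon k κ κ' h h' => exact .mon k κ κ' h h'
  | op k t i κ f κ' ht h => exact .op k t i κ f κ' ht h
  | en k w hw => exact .en k w hw
  | st k n m hm hc hI => exact .st k n m hm hc (h m hI)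
  | mx a j b h => exact .mx a j b h
  | my a j b h => exact .my a j b h
  | yx => exact .yx ..
  | xy k m hm => exact .xy k m hm

theorem Pre.two_le {I : List Lt → Prop} {L f} (hr : Pre mul δ I L f) : 2 ≤ L.length := by
  cases hr <;> simp

theorem irr_of_irred {m : List Lt} (h : Irred (Rule mul δ) m) : Irr mul δ m := by
  induction hn : m.length using Nat.strong_induction_on generalizing m with
  | _ n ih =>
  intro C L D f hr e
  have : Rule mul δ L f := by
    cases hr with
    | gam => exact .gam ..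
    | mon k κ κ' h h' => exact .mon k κ κ' h h'
    | op k t i κ f κ' ht h => exact .op k t i κ f κ' ht h
    | en k w hw => exact .en k w hw
    | st k n' m' hm hc hI =>
      refine .st k n' m' hm hc (ih m'.length (by subst e; subst hn; simp; omega) ?_ rfl)
      intro C' L' D' f' hr' e'
      exact h (C ++ op k 6 n' :: C') L' (D' ++ op k 7 n' :: D) f' hr' (by simp [e, e'])
    | mx a j b h => exact .mx a j b h
    | my a j b h => exact .my a j b h
    | yx => exact .yx ..
    | xy k m hm => exact .xy k m hm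
  exact h C L D f this e

theorem Irr.irred {m : List Lt} (h : Irr mul δ m) : Irred (Rule mul δ) m :=
  fun C L D f hr => h C L D f (hr.mono fun _ _ => trivial)

theorem eps_le (b : Bool) : eps b ≤ 1 := by cases b <;> simp [eps]

theorem Pre.up {I I' : List Lt → Prop} (h : ∀ m, I m → I' (sh 1 m)) {L f}
    (hr : Pre mul δ I L f) : Pre mul δ I' (sh 1 L) (f.map (sh 1)) := by
  cases hr with
  | gam k => exact .gam (k + 1) ..
  | mon k κ κ' h h' => exact .mon (k + 1) κ κ' h h'
  | op k t i κ f κ' ht h =>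
    have := Pre.op (mul := mul) (I := I') (k + 1) t i κ f κ' ht h
    simpa [Function.comp_def, sh_sh, sh_monW] using this
  | en k w hw =>
    have := Pre.en (mul := mul) (δ := δ) (I := I') (k + 1) (sh 1 w) (fun a ha => by
      obtain ⟨b, hb, rfl⟩ := mem_sh.1 ha
      rw [hw b hb]; rfl)
    simpa using this
  | st k n m hm hc hI =>
    have e : dn (k + 1) (sh 1 m) = dn k m := by rw [add_comm, ← dn_dn, dn_sh]
    have := Pre.st (mul := mul) (δ := δ) (I := I') (k + 1) n (sh 1 m) (fun a ha => by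
      obtain ⟨b, hb, rfl⟩ := mem_sh.1 ha
      exact ⟨Nat.succ_le_succ (hm b hb).1, (hm b hb).2⟩) (by rwa [e]) (h m hI)
    rw [e] at this
    simpa [sh_xi] using this
  | mx a j b h =>
    have := Pre.mx (mul := mul) (δ := δ) (I := I') (ua 1 a) (j + 1) b (by simpa using h)
    have e : da (eps b) (ua 1 a) = ua 1 (da (eps b) a) := by
      have := eps_le b
      simp only [da, ua, Prod.mk.injEq, and_true]; omega
    simpa [e] using this
  | my a j b h =>
    have := Pre.my (mul := mul) (δ := δ) (I := I') (ua 1 a) (j + 1) b (by simpa using h)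
    have e : da (eps b) (ua 1 a) = ua 1 (da (eps b) a) := by
      have := eps_le b
      simp only [da, ua, Prod.mk.injEq, and_true]; omega
    simpa [e] using this
  | yx k b b' =>
    have := Pre.yx (mul := mul) (δ := δ) (I := I') (k + 1) b b'
    split_ifs at this ⊢ <;> exact this
  | xy k m hm =>
    have := Pre.xy (mul := mul) (δ := δ) (I := I') (k + 1) (sh 1 m) (fun a ha => by
      obtain ⟨b, hb, rfl⟩ := mem_sh.1 ha
      exact Nat.succ_lt_succ (hm b hb))
    have e : sh 1 (dn 1 m) = m := sh_dn fun a ha => by have := hm a ha; omega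
    simpa [e] using this

theorem Pre.down {I I' : List Lt → Prop} (h : ∀ m, (∀ a ∈ m, 1 ≤ a.1) → I m → I' (dn 1 m)) {L f}
    (hr : Pre mul δ I L f) (hL : ∀ a ∈ L, 1 ≤ a.1) :
    Pre mul δ I' (dn 1 L) (f.map (dn 1)) := by
  cases hr with
  | gam k => exact .gam (k - 1) ..
  | mon k κ κ' h h' => exact .mon (k - 1) κ κ' h h'
  | op k t i κ f κ' ht h =>
    have hk : 1 ≤ k := hL _ List.mem_cons_self
    have := Pre.op (mul := mul) (I := I') (k - 1) t i κ f κ' ht h
    have e : ∀ w, dn 1 (sh k w) = sh (k - 1) w := fun w => by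
      conv_lhs => rw [← Nat.sub_add_cancel hk, ← sh_sh, dn_sh]
    simpa [Function.comp_def, e, dn_monW] using this
  | en k w hw =>
    have := Pre.en (mul := mul) (δ := δ) (I := I') (k - 1) (dn 1 w) (fun a ha => by
      obtain ⟨b, hb, rfl⟩ := mem_dn.1 ha
      rw [hw b hb]; rfl)
    simpa using this
  | st k n m hm hc hI =>
    have hk : 1 ≤ k := hL _ List.mem_cons_self
    have e : dn (k - 1) (dn 1 m) = dn k m := by rw [dn_dn]; congr 1; omega
    have := Pre.st (mul := mul) (δ := δ) (I := I') (k - 1) n (dn 1 m) (fun a ha => by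
      obtain ⟨b, hb, rfl⟩ := mem_dn.1 ha
      exact ⟨Nat.sub_le_sub_right (hm b hb).1 1, (hm b hb).2⟩) (by rwa [e])
      (h m (fun a ha => hk.trans (hm a ha).1) hI)
    rw [e] at this
    simpa [dn_xi] using this
  | mx a j b h =>
    have hk : 1 ≤ j := hL (xl j b) (by simp)
    have := Pre.mx (mul := mul) (δ := δ) (I := I') (da 1 a) (j - 1) b (by simp; omega)
    have e : da (eps b) (da 1 a) = da 1 (da (eps b) a) := by rw [da_da, da_da, add_comm]
    simpa [e] using this
  | my a j b h =>
    have hk : 1 ≤ j := hL (yl j b) (by simp)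
    have := Pre.my (mul := mul) (δ := δ) (I := I') (da 1 a) (j - 1) b (by simp; omega)
    have e : da (eps b) (da 1 a) = da 1 (da (eps b) a) := by rw [da_da, da_da, add_comm]
    simpa [e] using this
  | yx k b b' =>
    have := Pre.yx (mul := mul) (δ := δ) (I := I') (k - 1) b b'
    split_ifs at this ⊢ <;> exact this
  | xy k m hm =>
    have hk : 1 ≤ k := hL _ List.mem_cons_self
    have := Pre.xy (mul := mul) (δ := δ) (I := I') (k - 1) (dn 1 m) (fun a ha => by
      obtain ⟨b, hb, rfl⟩ := mem_dn.1 ha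
      have := hm b hb
      simp only [da_fst]; omega)
    simpa using this

theorem Irr.up {m : List Lt} (h : Irr mul δ m) : Irr mul δ (sh 1 m) := by
  intro C L D f hr e
  have hl : ∀ a ∈ L, 1 ≤ a.1 := fun a ha => by
    have : a ∈ sh 1 m := by simp [e, ha]
    obtain ⟨b, -, rfl⟩ := mem_sh.1 this
    simp
  exact h (dn 1 C) _ (dn 1 D) _ (hr.down (fun _ _ _ => trivial) hl)
    (by rw [← dn_append, ← dn_append, ← e, dn_sh])

theorem Irr.down {m : List Lt} (hm : ∀ a ∈ m, 1 ≤ a.1) (h : Irr mul δ m) :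
    Irr mul δ (dn 1 m) := by
  intro C L D f hr e
  exact h (sh 1 C) _ (sh 1 D) _ (hr.up fun _ _ => trivial)
    (by rw [← sh_append, ← sh_append, ← e, sh_dn hm])

theorem Rule.up {L f} (hr : Rule mul δ L f) : Rule mul δ (sh 1 L) (f.map (sh 1)) :=
  Pre.up (fun _ => Irr.up) hr

theorem Rule.down {L f} (hr : Rule mul δ L f) (b : Bool) (hL : ∀ a ∈ L, 1 ≤ a.1) :
    Rule mul δ (dn (eps b) L) (f.map (dn (eps b))) := by
  cases b
  · simpa [eps, funext dn_zero] using hr
  · exact Pre.down (fun _ => Irr.down) hr hL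

theorem Rule.shift {L f} (hr : Rule mul δ L f) (k : ℕ) :
    Rule mul δ (sh k L) (f.map (sh k)) := by
  induction k with
  | zero => simpa [funext sh_zero] using hr
  | succ k ih => simpa [Function.comp_def, sh_sh] using ih.up

theorem Pre.lev {I : List Lt → Prop} {L f} (hr : Pre mul δ I L f) {j : ℕ}
    (hL : ∀ a ∈ L, j < a.1) : ∀ v ∈ f, ∀ a ∈ v, j < a.1 := by
  cases hr with
  | gam k => simpa using hL
  | mon k κ κ' h h' => simpa using hL
  | op k t i κ f κ' ht h =>
    have hk : j < k := hL _ List.mem_cons_self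
    intro v hv a ha
    obtain ⟨w, -, rfl⟩ := List.mem_map.1 hv
    rcases List.mem_append.1 ha with ha | ha
    · obtain ⟨b, -, rfl⟩ := mem_sh.1 ha
      simp only [ua_fst]; omega
    · rw [lev_monW ha]; exact hk
  | en k w hw => simp
  | st k n m hm hc hI =>
    have hk : j < k := hL _ List.mem_cons_self
    intro v hv a ha
    rw [List.mem_singleton.1 hv] at ha
    rw [lev_xi ha]; exact hk
  | mx a j' b h =>
    have hk : j < j' := hL (xl j' b) (by simp)
    have := eps_le b
    simp; omega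
  | my a j' b h =>
    have hk : j < j' := hL (yl j' b) (by simp)
    have := eps_le b
    simp; omega
  | yx k b b' => split_ifs <;> simp
  | xy k m hm =>
    have hk : j < k := hL _ List.mem_cons_self
    intro v hv a ha
    simp only [List.mem_cons, List.not_mem_nil, or_false] at hv
    rcases hv with rfl | rfl
    · exact hk.trans (hm a ha)
    · simp only [List.mem_cons, List.mem_append, List.not_mem_nil, or_false] at ha
      rcases ha with rfl | ha | rfl
      · exact hk
      · obtain ⟨b, hb, rfl⟩ := mem_dn.1 ha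
        have := hm b hb
        simp only [da_fst]; omega
      · exact hk

/-- weight of a letter -/
def wt (B : ℕ) (a : Lt) : ℕ :=
  if a.2.1 = 0 then wP a.2.2.2 + 1 else if a.2.1 = 2 then 2 else if a.2.1 = 6 then 2 * a.2.2.1 + 1
  else if a.2.1 = 9 then B + 1 else if a.2.1 = 10 then 3 else if a.2.1 = 11 then 4 - a.2.2.1 + 1
  else if 8 ≤ a.2.1 then a.2.2.1 + 1 else 1

/-- weight of a word -/
def wtW (B : ℕ) (w : List Lt) : ℕ := (w.map (wt B)).sum

@[simp] theorem wtW_nil (B : ℕ) : wtW B [] = 0 := rfl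
@[simp] theorem wtW_cons (B : ℕ) (a : Lt) (w : List Lt) : wtW B (a :: w) = wt B a + wtW B w := by
  simp [wtW]
@[simp] theorem wtW_append (B : ℕ) (v w : List Lt) : wtW B (v ++ w) = wtW B v + wtW B w := by
  simp [wtW]
@[simp] theorem wtW_sh (B k : ℕ) (w : List Lt) : wtW B (sh k w) = wtW B w := by
  rw [wtW, sh, List.map_map]; rfl
@[simp] theorem wtW_dn (B k : ℕ) (w : List Lt) : wtW B (dn k w) = wtW B w := by
  rw [wtW, dn, List.map_map]; rfl
theorem wtW_monW (B k : ℕ) (κ : PP) : wtW B (monW k κ) ≤ wP κ + 1 := by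
  unfold monW; split_ifs <;> simp [wt, mon]
theorem wtW_xi (B k n : ℕ) : wtW B (xi k n) = 2 * n + 1 := by
  simp [xi, wtW, wt, xl, op]; ring

/-- sum of the levels -/
def lvW (w : List Lt) : ℕ := (w.map Prod.fst).sum

/-- pairs in the wrong order -/
def bad (a b : Lt) : Bool := (b.2.1 == 2 && decide (b.1 < a.1)) || (a.2.1 == 4 && decide (a.1 < b.1))

/-- number of pairs in the wrong order -/
def invW : List Lt → ℕ
  | [] => 0
  | a :: w => invW w + w.countP (bad a)

theorem invW_swap (C D : List Lt) {a b : Lt} (h1 : bad a b = true) (h2 : bad b a = false) :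
    invW (C ++ [b, a] ++ D) < invW (C ++ [a, b] ++ D) := by
  induction C with
  | nil => simp [invW, h1, h2]; omega
  | cons c C ih =>
    have : (C ++ [b, a] ++ D).countP (bad c) = (C ++ [a, b] ++ D).countP (bad c) :=
      List.Perm.countP_eq _ (((List.Perm.swap a b []).append_left C).append_right D)
    simp only [List.cons_append, invW, this]
    omega

theorem wf_down (B : ℕ) (hδ : ∀ t i κ f κ', 8 ≤ t → δ t i κ = some (f, κ') →
    ∀ w ∈ f, wtW B w + wP κ' < wt B (op 0 t i) + wP κ) : WellFounded (Down (Rule mul δ)) := by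
  have wf : WellFounded (InvImage (Prod.Lex (· < ·) (Prod.Lex (· < ·) (· < ·)))
      fun w : List Lt => (wtW B w, lvW w, invW w)) :=
    InvImage.wf _ (WellFounded.prod_lex wellFounded_lt
      (WellFounded.prod_lex wellFounded_lt wellFounded_lt))
  refine Subrelation.wf ?_ wf
  rintro v _ ⟨C, L, D, f, hr, rfl, hv⟩
  obtain ⟨u, hu, rfl⟩ := List.mem_map.1 hv
  have w1 : wtW B u < wtW B L → InvImage (Prod.Lex (· < ·) (Prod.Lex (· < ·) (· < ·)))
      (fun w : List Lt => (wtW B w, lvW w, invW w)) (C ++ u ++ D) (C ++ L ++ D) := fun h =>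
    Prod.Lex.left _ _ (by simp; omega)
  have w2 : wtW B u = wtW B L → lvW u < lvW L →
      InvImage (Prod.Lex (· < ·) (Prod.Lex (· < ·) (· < ·)))
      (fun w : List Lt => (wtW B w, lvW w, invW w)) (C ++ u ++ D) (C ++ L ++ D) := fun h h' => by
    refine Prod.lex_def.2 (Or.inr ⟨by simp [h], Prod.Lex.left _ _ ?_⟩)
    simp only [lvW, List.map_append, List.sum_append] at h' ⊢; omega
  have w3 : ∀ a b, L = [a, b] → u = [b, a] → bad a b = true → bad b a = false →
      InvImage (Prod.Lex (· < ·) (Prod.Lex (· < ·) (· < ·)))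
      (fun w : List Lt => (wtW B w, lvW w, invW w)) (C ++ u ++ D) (C ++ L ++ D) := by
    rintro a b rfl rfl h h'
    refine Prod.lex_def.2 (Or.inr ⟨by simp; omega, Prod.lex_def.2 (Or.inr ⟨?_, ?_⟩)⟩)
    · simp [lvW]; omega
    · exact invW_swap C D h h'
  cases hr with
  | gam k g g' => obtain rfl := List.mem_singleton.1 hu; exact w1 (by simp [wt, op])
  | mon k κ κ' h h' =>
    obtain rfl := List.mem_singleton.1 hu; exact w1 (by simp [wt, mon, wP_papp]; omega)
  | op k t i κ f κ' ht h =>
    obtain ⟨w, hw, rfl⟩ := List.mem_map.1 hu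
    have h1 := hδ t i κ f κ' ht h w hw
    have h2 := wtW_monW B k κ'
    have h3 : wt B (op k t i) = wt B (op 0 t i) := rfl
    have h4 : wt B (mon k κ) = wP κ + 1 := rfl
    exact w1 (by simp [h3, h4]; omega)
  | en k w hw => simp at hu
  | st k n m hm hc hI =>
    obtain rfl := List.mem_singleton.1 hu
    exact w1 (by simp [wt, op, wtW_xi]; omega)
  | mx a j b h =>
    obtain rfl := List.mem_singleton.1 hu
    cases b
    · exact w3 _ _ rfl rfl (by simp [bad, xl, op, h]) (by simp [bad, xl, op, Nat.lt_asymm h])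
    · exact w2 (by simp only [wtW_cons, wtW_nil, add_zero]; exact add_comm _ _) (by simp [lvW, eps, xl, op]; omega)
  | my a j b h =>
    obtain rfl := List.mem_singleton.1 hu
    cases b
    · exact w3 _ _ rfl rfl (by simp [bad, yl, op, h]) (by simp [bad, yl, op, Nat.lt_asymm h])
    · exact w2 (by simp only [wtW_cons, wtW_nil, add_zero]; exact add_comm _ _) (by simp [lvW, eps, yl, op]; omega)
  | yx k b b' =>
    split_ifs at hu
    · obtain rfl := List.mem_singleton.1 hu
      exact w1 (by cases b <;> simp [wt, yl, op])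
    · simp at hu
  | xy k m hm =>
    simp only [List.mem_cons, List.not_mem_nil, or_false] at hu
    rcases hu with rfl | rfl <;> exact w1 (by simp [wt, xl, yl, op]; try omega)

end Vale.Agent.P193
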