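import Vale.Agent.P193.Delta

/-! The last ambiguity resolves when the machine prints true relations only. -/

namespace Vale.Agent.P193

attribute [-simp] Prod.forall Prod.exists

/-- the number attached to a letter -/
def nl (T : Tb) (a : Lt) : ℕ := Nat.pair (Encodable.encode a) (wt (bw T) a)

/-- a letter in terms of the indices of the generators -/
def tn (T : Tb) (a : Lt) : List ℕ := 0 :: (List.replicate (nl T a) 1 ++ [2])

/-- a letter in terms of the generators -/
def tau (T : Tb) (a : Lt) : List Lt := (tn T a).map gen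

/-- a word equal to zero -/
def zw : List Lt := [yl 0 true, xl 0 false]

/-- code of a relation with three terms -/
def codes (T : Tb) (u v w : List Lt) : List ℕ :=
  (u.flatMap (tn T)).map (3 + ·) ++ ((v.flatMap (tn T)).map (6 + ·) ++ (w.flatMap (tn T)).map (9 + ·))

theorem tn_lt {T : Tb} {w : List Lt} : ∀ c ∈ w.flatMap (tn T), c < 3 := fun c hc => by
  simp only [tn, List.mem_flatMap, List.mem_cons, List.mem_append, List.mem_replicate,
    List.not_mem_nil, or_false] at hc
  obtain ⟨a, -, hc⟩ := hc
  omega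

theorem codes_lt {T : Tb} {u v w : List Lt} : ∀ c ∈ codes T u v w, c < 12 := fun c hc => by
  simp only [codes, List.mem_append, List.mem_map] at hc
  rcases hc with ⟨d, hd, rfl⟩ | ⟨d, hd, rfl⟩ | ⟨d, hd, rfl⟩ <;> have := tn_lt d hd <;> omega

theorem emit_map (t j : ℕ) (l : List ℕ) (hl : ∀ c ∈ l, c < 3) :
    (l.map (3 * j + ·)).flatMap (emit t) = if j + 11 = t then l.map gen else [] := by
  induction l with
  | nil => simp
  | cons c l ih =>
    have hc := hl c List.mem_cons_self
    have e1 : (3 * j + c) / 3 = j := by omega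
    have e2 : (3 * j + c) % 3 = c := by omega
    rw [List.map_cons, List.flatMap_cons, ih fun d hd => hl d (List.mem_cons_of_mem _ hd), emit,
      e1, e2]
    split_ifs <;> rfl

theorem emit_codes (T : Tb) (u v w : List Lt) :
    (codes T u v w).flatMap (emit 12) = u.flatMap (tau T) ∧
    (codes T u v w).flatMap (emit 13) = v.flatMap (tau T) ∧
    (codes T u v w).flatMap (emit 14) = w.flatMap (tau T) := by
  have e : ∀ w : List Lt, (w.flatMap (tn T)).map gen = w.flatMap (tau T) := fun w => by
    rw [List.map_flatMap]; rfl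
  have h1 := fun t => emit_map t 1 _ (tn_lt (T := T) (w := u))
  have h2 := fun t => emit_map t 2 _ (tn_lt (T := T) (w := v))
  have h3 := fun t => emit_map t 3 _ (tn_lt (T := T) (w := w))
  simp only [Nat.reduceMul, Nat.reduceAdd, e] at h1 h2 h3
  simp [codes, List.flatMap_append, h1, h2, h3]

variable {mul : ℕ → ℕ → ℕ} {T : Tb}

theorem rl_op {t i : ℕ} {κ κ' : PP} {f : List (List Lt)} (ht : 8 ≤ t)
    (h : dl T t i κ = some (f, κ')) (C : List Lt) (k : ℕ) (κx : PP) :
    RL (Rule mul (dl T)) [C ++ [op k t i] ++ monW k (papp κ κx)]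
      (f.map fun w => C ++ sh k w ++ monW k (papp κ' κx)) := by
  have : papp κ κx ≠ pnil := fun e => (dl_eq.1 h).1.ne (papp_eq_pnil.1 e).1
  exact RL.step' (Pre.op k t i _ f _ ht (dl_equiv T t i κ f κ' κx h)) C []
    (by simp [monW, this]) (by simp [ctx, Function.comp_def])

theorem Der.rl {b : ℕ} {l l' : List (List Lt × PP)} (h : Der T b l l') (k : ℕ) (κx : PP) :
    RL (Rule mul (dl T)) (l.map fun x => sh k x.1 ++ monW k (papp x.2 κx))
      (l'.map fun x => sh k x.1 ++ monW k (papp x.2 κx)) := by
  induction h with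
  | refl => exact RL.refl _
  | trans _ _ h1 h2 => exact h1.trans h2
  | app _ _ h1 h2 => simpa using h1.append h2
  | step u t i κ f κ' h8 ht hi hκ h =>
    simpa [Function.comp_def] using rl_op (mul := mul) h8 h (sh k u) k κx

theorem rl_tau (k : ℕ) (a : Lt) : RL (Rule mul (dl T)) [sh k (tau T a)] [[ua k a]] := by
  have h1 : ∀ n i, RL (Rule mul (dl T))
      [op k 8 i :: (List.replicate n (mon k ([], [2], [], [], [])) ++ [mon k ([], [3], [], [], [])])]
      [[op k 8 (i + n), mon k ([], [3], [], [], [])]] := by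
    intro n
    induction n with
    | zero => exact fun i => RL.refl _
    | succ n ih =>
      intro i
      refine RL.trans ?_ (by simpa [add_assoc, add_comm 1] using ih (i + 1))
      exact RL.step' (Pre.op k 8 i ([], [2], [], [], []) [[op 0 8 (i + 1)]] pnil le_rfl
        (by simp [dl, need, hd, tl, ra, rb, rc, d0, papp, pnil])) []
        (List.replicate n (mon k ([], [2], [], [], [])) ++ [mon k ([], [3], [], [], [])])
        (by simp [List.replicate_succ]) (by simp [monW])
  have e1 : dlt (nl T a) = a := by simp only [dlt, nl, Nat.unpair_pair, Encodable.encodek]; rfl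
  have e2 : wt (bw T) a ≤ nl T a := Nat.right_le_pair _ _
  have e3 : sh k (tau T a) = op k 8 0 :: (List.replicate (nl T a) (mon k ([], [2], [], [], [])) ++
      [mon k ([], [3], [], [], [])]) := by
    simp [tau, tn, gen, sh]
  rw [e3]
  refine (h1 _ 0).trans ?_
  exact RL.step' (Pre.op k 8 (nl T a) ([], [3], [], [], []) [[a]] pnil le_rfl
    (by simp [dl, need, hd, tl, ra, rb, rc, d0, papp, pnil, e1, e2])) [] []
    (by simp) (by simp [monW])

theorem rl_tauW (k : ℕ) (w : List Lt) :
    RL (Rule mul (dl T)) [sh k (w.flatMap (tau T))] [sh k w] := by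
  induction w with
  | nil => exact RL.refl _
  | cons a w ih =>
    refine ((rl_tau k a).ctx₁ [] (sh k (w.flatMap (tau T))) (by simp) rfl).trans ?_
    exact ih.ctx₁ [ua k a] [] (by simp) (by simp)

theorem rl_three {L : List Lt} {f : List (List Lt)} (h : Rule mul (dl T) L f ∨ f = [L]) (k : ℕ) :
    RL (Rule mul (dl T)) [sh k L, sh k (f.getD 0 zw), sh k (f.getD 1 zw)] [] := by
  have hz : RL (Rule mul (dl T)) [sh k zw] [] :=
    RL.step' (Pre.yx k true false) [] [] (by simp [zw]) (by simp)
  have h1 : RL (Rule mul (dl T)) [sh k L] (f.map (sh k)) := by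
    rcases h with h | rfl
    · exact RL.step' (h.shift k) [] [] (by simp) (by simp)
    · exact RL.refl _
  have h2 : f.length ≤ 2 := h.elim Pre.len (by rintro rfl; simp)
  refine RL.join (a := [_]) h1 ?_
  rcases f with _ | ⟨u, _ | ⟨v, _ | _⟩⟩
  · exact hz.cons hz
  · exact (RL.refl _).cons₁ hz
  · exact RL.refl _
  · simp at h2

theorem sound {Good : PP → Prop} (h0 : Good (cfg0 (Encodable.encode T)))
    (h1 : ∀ κ, Good κ → need 10 κ) (h2 : ∀ κ i κ', Good κ → gstep T i κ = some κ' → Good κ')
    (h3 : ∀ κ, Good κ → κ.1.headD 0 = 0 → ∃ L f, (Rule mul (dl T) L f ∨ f = [L]) ∧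
      κ = cfgH (bits (codes T L (f.getD 0 zw) (f.getD 1 zw))))
    (k : ℕ) (w : List Lt) (κ : PP) (f : List (List Lt)) (κ' : PP)
    (hw : ∀ a ∈ w, a = op k 10 a.2.2.1) (h : dl T 9 0 κ = some (f, κ')) :
    RL (Rule mul (dl T)) (ctx (op k 11 0 :: w) [] (f.map fun v => sh k v ++ monW k κ')) [] := by
  have main : ∀ κx κ, Good κ →
      RL (Rule mul (dl T)) [op k 11 0 :: (w ++ monW k (papp κ κx))] [] := by
    intro κx
    induction w using List.reverseRecOn with
    | nil =>
      intro κ hκ
      by_cases c : κ.1.headD 0 = 0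
      · obtain ⟨L, f, hr, rfl⟩ := h3 κ hκ c
        have := (der_out (T := T) le_rfl (codes T L (f.getD 0 zw) (f.getD 1 zw))
          (fun c hc => (codes_lt c hc).trans (by omega))).rl (mul := mul) k κx
        obtain ⟨e1, e2, e3⟩ := emit_codes T L (f.getD 0 zw) (f.getD 1 zw)
        rw [e1, e2, e3] at this
        refine RL.trans (by simpa using this) ?_
        have h4 := (((rl_tauW k _).cons₁ ((rl_tauW k _).cons₁ (rl_tauW k _))).trans
          (rl_three hr k)).ctx [] (monW k κx)
        simpa using h4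
      · have hn : need 11 κ := h1 κ hκ
        have : dl T 11 0 κ = some ([], _) := dl_eq.2 ⟨hn, by
          have : (hd 11 κ).1.headD 0 ≠ 0 := by
            rcases κ with ⟨_ | _, _⟩ <;> simpa [hd, ra] using c
          simp [d0, this, -List.headD_eq_head?_getD], rfl⟩
        simpa using rl_op (mul := mul) (by omega) this [] k κx
    | append_singleton w a ih =>
      intro κ hκ
      rw [hw a (by simp)]
      cases e : gstep T a.2.2.1 κ with
      | none =>
        obtain ⟨κ', h⟩ := dl_gstep_none e (h1 κ hκ)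
        simpa using rl_op (mul := mul) (by omega) h (op k 11 0 :: w) k κx
      | some κ' =>
        refine RL.trans ?_ (ih (fun a ha => hw a (by simp [ha])) κ' (h2 _ _ _ hκ e))
        simpa using rl_op (mul := mul) (by omega) (dl_gstep e) (op k 11 0 :: w) k κx
  obtain ⟨-, rfl, rfl⟩ := dl_eq.1 h
  by_cases c : (hd 9 κ).1.headD 0 = 0
  · have e : d0 T 9 0 (hd 9 κ) = ([[]], cfg0 (Encodable.encode T)) := by
      simp [d0, c, -List.headD_eq_head?_getD]
    rw [e]
    simpa using main _ _ h0
  · have e : d0 T 9 0 (hd 9 κ) = ([[op 0 10 ((hd 9 κ).1.headD 0 - 1), op 0 9 0]], pnil) := by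
      simp [d0, c, -List.headD_eq_head?_getD]
    rw [e]
    refine RL.step' (Pre.en k (w ++ [op k 10 ((hd 9 κ).1.headD 0 - 1)]) fun a ha => ?_) []
      (monW k (papp pnil (tl 9 κ))) (by simp) rfl
    rcases List.mem_append.1 ha with ha | ha
    · exact hw a ha
    · rw [List.mem_singleton.1 ha]; rfl

end Vale.Agent.P193
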