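import Mathlib

/-! Steinberg systems and the Steinberg group of a ring of characteristic two. -/

namespace Vale.Agent.P193

open Matrix

variable {ι : Type} {R : Type} [Ring R] {H : Type} [Group H]

/-- A Steinberg system in a group. -/
structure IsSt (x : ι → ι → R → H) : Prop where
  diag : ∀ i r, x i i r = 1
  add : ∀ i j r s, x i j (r + s) = x i j r * x i j s
  comm : ∀ i j k l r s, j ≠ k → i ≠ l → x i j r * x k l s = x k l s * x i j r
  mul : ∀ i j k r s, i ≠ j → j ≠ k → i ≠ k →
    x i j r * x j k s = x i k (r * s) * x j k s * x i j r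

namespace IsSt

variable {x : ι → ι → R → H} (hx : IsSt x)
include hx

theorem zero (i j : ι) : x i j 0 = 1 := by
  have := hx.add i j 0 0
  rw [add_zero] at this
  exact mul_left_cancel (a := x i j 0) (by rw [← this, mul_one])

theorem sq (h2 : ∀ r : R, r + r = 0) (i j : ι) (r : R) : x i j r * x i j r = 1 := by
  rw [← hx.add, h2, hx.zero]

theorem inv (h2 : ∀ r : R, r + r = 0) (i j : ι) (r : R) : (x i j r)⁻¹ = x i j r :=
  inv_eq_of_mul_eq_one_right (hx.sq h2 i j r)

theorem conj_comm {i j k l : ι} (r s : R) (h1 : j ≠ k) (h2 : i ≠ l) :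
    x i j r * x k l s * (x i j r)⁻¹ = x k l s := by
  rw [hx.comm i j k l r s h1 h2, mul_inv_cancel_right]

theorem conj_left {i j k : ι} (r s : R) (h1 : i ≠ j) (h2 : j ≠ k) (h3 : i ≠ k) :
    x i j r * x j k s * (x i j r)⁻¹ = x i k (r * s) * x j k s := by
  rw [hx.mul i j k r s h1 h2 h3, mul_inv_cancel_right]

theorem conj_right (h2 : ∀ r : R, r + r = 0) {i j k : ι} (r s : R) (h1 : i ≠ j) (h4 : j ≠ k)
    (h3 : i ≠ k) : x j k s * x i j r * (x j k s)⁻¹ = x i j r * x i k (r * s) := by
  have e := hx.mul i j k r s h1 h4 h3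
  have c1 := hx.comm i k j k (r * s) s h4.symm h3
  have c2 := hx.comm i k i j (r * s) r h3.symm h1
  have q := hx.sq h2 i k (r * s)
  have : x j k s * x i j r = x i k (r * s) * (x i j r * x j k s) := by
    rw [e, ← mul_assoc, ← mul_assoc, q, one_mul]
  rw [this, ← c2]; group

/-- conjugation of a pair of entries in one column -/
theorem cp₁ {a b k : ι} (hab : a ≠ b) (ha : a ≠ k) (hb : b ≠ k) (c r s : R) :
    x a b c * (x a k r * x b k s) * (x a b c)⁻¹ = x a k (r + c * s) * x b k s := by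
  have e1 := hx.conj_comm (i := a) (j := b) (k := a) (l := k) c r hab.symm ha
  have e2 := hx.conj_left c s hab hb ha
  calc _ = (x a b c * x a k r * (x a b c)⁻¹) * (x a b c * x b k s * (x a b c)⁻¹) := by group
    _ = _ := by rw [e1, e2, hx.add, mul_assoc]

theorem cp₂ {a b k : ι} (hab : a ≠ b) (ha : a ≠ k) (hb : b ≠ k) (c r s : R) :
    x b a c * (x a k r * x b k s) * (x b a c)⁻¹ = x a k r * x b k (s + c * r) := by
  rw [hx.comm a k b k r s hb.symm ha, hx.cp₁ hab.symm hb ha,
    hx.comm b k a k _ _ ha.symm hb]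

/-- conjugation of a pair of entries in one row -/
theorem rp₁ (h2 : ∀ r : R, r + r = 0) {a b k : ι} (hab : a ≠ b) (ha : k ≠ a) (hb : k ≠ b)
    (c r s : R) :
    x a b c * (x k a r * x k b s) * (x a b c)⁻¹ = x k a r * x k b (s + r * c) := by
  have e1 := hx.conj_right h2 r c ha hab hb
  have e2 := hx.conj_comm (i := a) (j := b) (k := k) (l := b) c s hb.symm hab
  calc _ = (x a b c * x k a r * (x a b c)⁻¹) * (x a b c * x k b s * (x a b c)⁻¹) := by group
    _ = _ := by rw [e1, e2, add_comm s, hx.add, mul_assoc]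

theorem rp₂ (h2 : ∀ r : R, r + r = 0) {a b k : ι} (hab : a ≠ b) (ha : k ≠ a) (hb : k ≠ b)
    (c r s : R) :
    x b a c * (x k a r * x k b s) * (x b a c)⁻¹ = x k a (r + s * c) * x k b s := by
  rw [hx.comm k a k b r s ha.symm hb, hx.rp₁ h2 hab.symm hb ha,
    hx.comm k b k a _ _ hb.symm ha]

end IsSt

/-- the element `x a b u * x b a v * x a b u` -/
def tw (x : ι → ι → R → H) (a b : ι) (u v : R) : H := x a b u * x b a v * x a b u

namespace IsSt

variable {x : ι → ι → R → H} (hx : IsSt x)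
include hx

theorem tw_cp {a b k : ι} (hab : a ≠ b) (ha : a ≠ k) (hb : b ≠ k) (u v r s : R) :
    tw x a b u v * (x a k r * x b k s) * (tw x a b u v)⁻¹ =
      x a k ((r + u * s) + u * (s + v * (r + u * s))) * x b k (s + v * (r + u * s)) := by
  rw [← hx.cp₁ hab ha hb, ← hx.cp₂ hab ha hb, ← hx.cp₁ hab ha hb, tw]; group

theorem tw_rp (h2 : ∀ r : R, r + r = 0) {a b k : ι} (hab : a ≠ b) (ha : k ≠ a) (hb : k ≠ b)
    (u v r s : R) :
    tw x a b u v * (x k a r * x k b s) * (tw x a b u v)⁻¹ =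
      x k a (r + (s + r * u) * v) * x k b ((s + r * u) + (r + (s + r * u) * v) * u) := by
  rw [← hx.rp₁ h2 hab ha hb, ← hx.rp₂ h2 hab ha hb, ← hx.rp₁ h2 hab ha hb, tw]; group

theorem tw_comm {a b k l : ι} (h1 : a ≠ k) (h2 : b ≠ k) (h3 : a ≠ l) (h4 : b ≠ l) (u v r : R) :
    tw x a b u v * x k l r * (tw x a b u v)⁻¹ = x k l r := by
  have e1 := hx.comm a b k l u r h2 h3
  have e2 := hx.comm b a k l v r h1 h4
  have : tw x a b u v * x k l r = x k l r * tw x a b u v := by
    rw [tw, mul_assoc, e1, ← mul_assoc, mul_assoc (x a b u), e2, ← mul_assoc, e1]; group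
  rw [this, mul_inv_cancel_right]

theorem w_c₁ (h2 : ∀ r : R, r + r = 0) {a b k : ι} (hab : a ≠ b) (ha : a ≠ k) (hb : b ≠ k)
    (r : R) : tw x a b 1 1 * x a k r * (tw x a b 1 1)⁻¹ = x b k r := by
  have := hx.tw_cp hab ha hb 1 1 r 0
  simpa [hx.zero, h2] using this

theorem w_c₂ (h2 : ∀ r : R, r + r = 0) {a b k : ι} (hab : a ≠ b) (ha : a ≠ k) (hb : b ≠ k)
    (r : R) : tw x a b 1 1 * x b k r * (tw x a b 1 1)⁻¹ = x a k r := by
  have := hx.tw_cp hab ha hb 1 1 0 r
  simpa [hx.zero, h2] using this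

theorem w_r₁ (h2 : ∀ r : R, r + r = 0) {a b k : ι} (hab : a ≠ b) (ha : k ≠ a) (hb : k ≠ b)
    (r : R) : tw x a b 1 1 * x k a r * (tw x a b 1 1)⁻¹ = x k b r := by
  have := hx.tw_rp h2 hab ha hb 1 1 r 0
  simpa [hx.zero, h2] using this

theorem w_r₂ (h2 : ∀ r : R, r + r = 0) {a b k : ι} (hab : a ≠ b) (ha : k ≠ a) (hb : k ≠ b)
    (r : R) : tw x a b 1 1 * x k b r * (tw x a b 1 1)⁻¹ = x k a r := by
  have := hx.tw_rp h2 hab ha hb 1 1 0 r
  simpa [hx.zero, h2] using this

theorem tw_inv (h2 : ∀ r : R, r + r = 0) (a b : ι) (u v : R) :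
    (tw x a b u v)⁻¹ = tw x a b u v := by
  simp only [tw, _root_.mul_inv_rev, hx.inv h2, mul_assoc]

end IsSt

/-- relators of the Steinberg group -/
def stRels (ι R : Type) [Ring R] : Set (FreeGroup (ι × ι × R)) :=
  {w | (∃ i r, w = .of (i, i, r)) ∨
    (∃ i j r s, w = (FreeGroup.of (i, j, r + s))⁻¹ * (.of (i, j, r) * .of (i, j, s))) ∨
    (∃ i j k l r s, j ≠ k ∧ i ≠ l ∧
      w = (FreeGroup.of (i, j, r) * .of (k, l, s))⁻¹ * (.of (k, l, s) * .of (i, j, r))) ∨
    (∃ i j k r s, i ≠ j ∧ j ≠ k ∧ i ≠ k ∧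
      w = (FreeGroup.of (i, j, r) * .of (j, k, s))⁻¹ *
        (.of (i, k, r * s) * .of (j, k, s) * .of (i, j, r)))}

/-- the Steinberg group -/
def St (ι R : Type) [Ring R] : Type := PresentedGroup (stRels ι R)

instance : Group (St ι R) := inferInstanceAs (Group (PresentedGroup (stRels ι R)))

/-- the generators of the Steinberg group -/
def xs (i j : ι) (r : R) : St ι R := PresentedGroup.of (rels := stRels ι R) (i, j, r)

theorem isSt_xs : IsSt (xs : ι → ι → R → St ι R) where
  diag i r := PresentedGroup.one_of_mem (rels := stRels ι R) (Or.inl ⟨i, r, rfl⟩)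
  add i j r s := PresentedGroup.mk_eq_mk_of_inv_mul_mem (rels := stRels ι R)
    (Or.inr (Or.inl ⟨i, j, r, s, rfl⟩))
  comm i j k l r s h1 h2 := PresentedGroup.mk_eq_mk_of_inv_mul_mem (rels := stRels ι R)
    (Or.inr (Or.inr (Or.inl ⟨i, j, k, l, r, s, h1, h2, rfl⟩)))
  mul i j k r s h1 h2 h3 := PresentedGroup.mk_eq_mk_of_inv_mul_mem (rels := stRels ι R)
    (Or.inr (Or.inr (Or.inr ⟨i, j, k, r, s, h1, h2, h3, rfl⟩)))

/-- universal property of the Steinberg group -/
def IsSt.lift {x : ι → ι → R → H} (hx : IsSt x) : St ι R →* H :=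
  PresentedGroup.toGroup (rels := stRels ι R) (f := fun p => x p.1 p.2.1 p.2.2) (by
    rintro w (⟨i, r, rfl⟩ | ⟨i, j, r, s, rfl⟩ | ⟨i, j, k, l, r, s, h1, h2, rfl⟩ |
      ⟨i, j, k, r, s, h1, h2, h3, rfl⟩)
    · simp [hx.diag]
    · simp [hx.add]
    · simp only [map_mul, map_inv, FreeGroup.lift_apply_of]
      rw [hx.comm i j k l r s h1 h2, inv_mul_cancel]
    · simp only [map_mul, map_inv, FreeGroup.lift_apply_of]
      rw [hx.mul i j k r s h1 h2 h3, inv_mul_cancel])

@[simp] theorem IsSt.lift_xs {x : ι → ι → R → H} (hx : IsSt x) (i j : ι) (r : R) :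
    hx.lift (xs i j r) = x i j r :=
  PresentedGroup.toGroup.of _

theorem St.mem_of_gens (K : Subgroup (St ι R)) (h : ∀ i j r, xs i j r ∈ K) (g : St ι R) :
    g ∈ K :=
  PresentedGroup.generated_by (stRels ι R) K (fun p => h p.1 p.2.1 p.2.2) g

theorem St.hom_ext {f g : St ι R →* H} (h : ∀ i j r, f (xs i j r) = g (xs i j r)) : f = g :=
  PresentedGroup.ext (rels := stRels ι R) fun p => h p.1 p.2.1 p.2.2

theorem IsSt.comp {S : Type} [Ring S] {x : ι → ι → R → H} (hx : IsSt x) (β : S →ₙ+* R) :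
    IsSt (fun i j s => x i j (β s)) where
  diag i r := hx.diag i _
  add i j r s := by simp only [map_add, hx.add]
  comm i j k l r s h1 h2 := hx.comm i j k l _ _ h1 h2
  mul i j k r s h1 h2 h3 := by simp only [map_mul]; exact hx.mul i j k _ _ h1 h2 h3

theorem IsSt.map {H' : Type} [Group H'] {x : ι → ι → R → H} (hx : IsSt x) (f : H →* H') :
    IsSt (fun i j s => f (x i j s)) where
  diag i r := by simp [hx.diag]
  add i j r s := by simp only [map_mul, hx.add]
  comm i j k l r s h1 h2 := by simp only [← map_mul, hx.comm i j k l _ _ h1 h2]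
  mul i j k r s h1 h2 h3 := by simp only [← map_mul, hx.mul i j k _ _ h1 h2 h3]

/-- functoriality of the Steinberg group for nonunital ring maps -/
def St.map (β : R →ₙ+* R) : St ι R →* St ι R := (isSt_xs.comp β).lift

@[simp] theorem St.map_xs (β : R →ₙ+* R) (i j : ι) (r : R) :
    St.map β (xs i j r) = xs i j (β r) := IsSt.lift_xs _ _ _ _

variable [Fintype ι] [DecidableEq ι]

/-- elementary matrices -/
def el (i j : ι) (r : R) : (Matrix ι ι R)ˣ :=
  if h : i = j then 1 else
    ⟨1 + single i j r, 1 - single i j r, by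
      rw [add_mul, mul_sub, mul_sub, single_mul_single_of_ne (h := Ne.symm h)]; simp, by
      rw [sub_mul, mul_add, mul_add, single_mul_single_of_ne (h := Ne.symm h)]; simp⟩

theorem el_val {i j : ι} (h : i ≠ j) (r : R) :
    ((el i j r : (Matrix ι ι R)ˣ) : Matrix ι ι R) = 1 + single i j r := by
  simp [el, h]

theorem sing_ne {i j k l : ι} (h : j ≠ k) (r s : R) :
    single i j r * single k l s = (0 : Matrix ι ι R) :=
  single_mul_single_of_ne (h := h) ..

theorem el_self (i : ι) (r : R) : (el i i r : (Matrix ι ι R)ˣ) = 1 := by simp [el]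

theorem isSt_el : IsSt (el : ι → ι → R → (Matrix ι ι R)ˣ) where
  diag := el_self
  add i j r s := by
    by_cases h : i = j
    · subst h; simp [el_self]
    · ext1
      rw [Units.val_mul, el_val h, el_val h, el_val h, add_mul, mul_add, mul_add,
        single_mul_single_of_ne (h := Ne.symm h), single_add]
      simp only [one_mul, mul_one, add_zero]; abel
  comm i j k l r s h1 h2 := by
    by_cases h : i = j
    · subst h; simp [el_self]
    by_cases h' : k = l
    · subst h'; simp [el_self]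
    ext1
    simp only [Units.val_mul, el_val h, el_val h', add_mul, mul_add,
        sing_ne h1, sing_ne h2.symm, one_mul, mul_one, add_zero]
    abel
  mul i j k r s h1 h2 h3 := by
    ext1
    simp only [Units.val_mul, el_val h1, el_val h2, el_val h3, add_mul, mul_add,
        sing_ne h2.symm, sing_ne h3.symm,
        single_mul_single_same, one_mul, mul_one, add_zero]
    abel

/-- the canonical map from the Steinberg group to the general linear group -/
def stπ : St ι R →* (Matrix ι ι R)ˣ := isSt_el.lift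

@[simp] theorem stπ_xs (i j : ι) (r : R) : stπ (xs i j r) = el i j r := IsSt.lift_xs _ _ _ _

end Vale.Agent.P193
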