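import Vale.Agent.P193.St1

/-! Columns, rows, and the swindle killing the kernel coming from a smaller Steinberg group. -/

namespace Vale.Agent.P193

open Matrix

variable {ι : Type} {R : Type} [Ring R] {H : Type} [Group H] [Fintype ι] [DecidableEq ι]

namespace IsSt

variable {x : ι → ι → R → H} (hx : IsSt x)
include hx

/-- root subgroup -/
def hom (i j : ι) : Multiplicative R →* H where
  toFun r := x i j r.toAdd
  map_one' := hx.zero i j
  map_mul' _ _ := hx.add i j _ _

omit [Fintype ι] in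
theorem col_comm (o i i' : ι) (r s : R) : x i o r * x i' o s = x i' o s * x i o r := by
  by_cases h : i = o
  · subst h; simp [hx.diag]
  by_cases h' : i' = o
  · subst h'; simp [hx.diag]
  exact hx.comm _ _ _ _ _ _ (Ne.symm h') h

omit [Fintype ι] in
theorem row_comm (o i i' : ι) (r s : R) : x o i r * x o i' s = x o i' s * x o i r := by
  by_cases h : i = o
  · subst h; simp [hx.diag]
  by_cases h' : i' = o
  · subst h'; simp [hx.diag]
  exact hx.comm _ _ _ _ _ _ h (Ne.symm h')

omit [Fintype ι] in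
theorem col_pw (o : ι) : Pairwise fun i j =>
    ∀ (r s : Multiplicative R), Commute (hx.hom i o r) (hx.hom j o s) :=
  fun i i' _ _ _ => hx.col_comm o i i' _ _

omit [Fintype ι] in
theorem row_pw (o : ι) : Pairwise fun i j =>
    ∀ (r s : Multiplicative R), Commute (hx.hom o i r) (hx.hom o j s) :=
  fun i i' _ _ _ => hx.row_comm o i i' _ _

/-- product of the generators along a column -/
def col (o : ι) (u : ι → R) : H :=
  MonoidHom.noncommPiCoprod (fun i => hx.hom i o) (hx.col_pw o)
    (fun i => Multiplicative.ofAdd (u i))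

/-- product of the generators along a row -/
def row (o : ι) (u : ι → R) : H :=
  MonoidHom.noncommPiCoprod (fun i => hx.hom o i) (hx.row_pw o)
    (fun i => Multiplicative.ofAdd (u i))

theorem col_zero (o : ι) : hx.col o 0 = 1 := map_one (MonoidHom.noncommPiCoprod _ _)
theorem row_zero (o : ι) : hx.row o 0 = 1 := map_one (MonoidHom.noncommPiCoprod _ _)

theorem col_add (o : ι) (u v : ι → R) : hx.col o (u + v) = hx.col o u * hx.col o v :=
  map_mul (MonoidHom.noncommPiCoprod _ _) (fun i => Multiplicative.ofAdd (u i))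
    (fun i => Multiplicative.ofAdd (v i))

theorem row_add (o : ι) (u v : ι → R) : hx.row o (u + v) = hx.row o u * hx.row o v :=
  map_mul (MonoidHom.noncommPiCoprod _ _) (fun i => Multiplicative.ofAdd (u i))
    (fun i => Multiplicative.ofAdd (v i))

omit hx [Fintype ι] in
theorem ofAdd_single (i : ι) (r : R) :
    (fun j => Multiplicative.ofAdd ((Pi.single i r : ι → R) j)) =
      Pi.mulSingle (M := fun _ => Multiplicative R) i (Multiplicative.ofAdd r) := by
  funext j
  by_cases h : j = i
  · subst h; simp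
  · simp [h]

theorem col_single (o i : ι) (r : R) : hx.col o (Pi.single i r) = x i o r := by
  rw [col, ofAdd_single, MonoidHom.noncommPiCoprod_mulSingle]; rfl

theorem row_single (o i : ι) (r : R) : hx.row o (Pi.single i r) = x o i r := by
  rw [row, ofAdd_single, MonoidHom.noncommPiCoprod_mulSingle]; rfl

theorem col_mem (o : ι) (K : Subgroup H) (u : ι → R) (h : ∀ i, x i o (u i) ∈ K) :
    hx.col o u ∈ K := by
  rw [col, MonoidHom.noncommPiCoprod_apply]
  exact Subgroup.noncommProd_mem _ _ fun i _ => h i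

theorem row_mem (o : ι) (K : Subgroup H) (u : ι → R) (h : ∀ i, x o i (u i) ∈ K) :
    hx.row o u ∈ K := by
  rw [row, MonoidHom.noncommPiCoprod_apply]
  exact Subgroup.noncommProd_mem _ _ fun i _ => h i

theorem conj_col {o k l : ι} (hk : k ≠ o) (hl : l ≠ o) (a : R) (u : ι → R) :
    x k l a * hx.col o u * (x k l a)⁻¹ =
      hx.col o (((el k l a : (Matrix ι ι R)ˣ) : Matrix ι ι R) *ᵥ u) := by
  by_cases hkl : k = l
  · subst hkl; simp [hx.diag, el_self]
  induction u using Pi.single_induction with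
  | zero => simp [hx.col_zero]
  | add u v hu hv => rw [mulVec_add, hx.col_add, hx.col_add, ← hu, ← hv]; group
  | single i r =>
    have e : ((el k l a : (Matrix ι ι R)ˣ) : Matrix ι ι R) *ᵥ (Pi.single i r) =
        Pi.single k (a * (Pi.single i r : ι → R) l) + Pi.single i r := by
      rw [el_val hkl, add_mulVec, one_mulVec, single_mulVec, add_comm]; rfl
    rw [e, hx.col_add, hx.col_single, hx.col_single]
    by_cases hi : i = l
    · subst hi
      rw [Pi.single_eq_same, hx.conj_left a r hkl hl hk]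
    · rw [Pi.single_eq_of_ne' hi, mul_zero, hx.zero, one_mul, hx.conj_comm a r (Ne.symm hi) hk]

theorem conj_row (h2 : ∀ r : R, r + r = 0) {o k l : ι} (hk : k ≠ o) (hl : l ≠ o) (a : R)
    (u : ι → R) :
    x k l a * hx.row o u * (x k l a)⁻¹ =
      hx.row o (u ᵥ* ((el k l a : (Matrix ι ι R)ˣ) : Matrix ι ι R)) := by
  by_cases hkl : k = l
  · subst hkl; simp [hx.diag, el_self]
  induction u using Pi.single_induction with
  | zero => simp [hx.row_zero]
  | add u v hu hv => rw [add_vecMul, hx.row_add, hx.row_add, ← hu, ← hv]; group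
  | single i r =>
    have e : (Pi.single i r) ᵥ* ((el k l a : (Matrix ι ι R)ˣ) : Matrix ι ι R) =
        Pi.single i r + Pi.single l ((Pi.single i r : ι → R) k * a) := by
      rw [el_val hkl, vecMul_add, vecMul_one]
      congr 1
      funext j
      by_cases hj : j = l
      · subst hj; simp [vecMul, dotProduct, single]
      · simp [vecMul, dotProduct, single, hj, Ne.symm hj]
    rw [e, hx.row_add, hx.row_single, hx.row_single]
    by_cases hi : i = k
    · subst hi
      rw [Pi.single_eq_same, hx.conj_right h2 r a hk.symm hkl hl.symm]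
    · rw [Pi.single_eq_of_ne' hi, zero_mul, hx.zero, mul_one, hx.conj_comm a r hl (Ne.symm hi)]

omit [Fintype ι] in
theorem comm0 {i j k : ι} (h : i ≠ k) {a b : R} (hab : a * b = 0) :
    x i j a * x j k b = x j k b * x i j a := by
  by_cases h1 : i = j
  · subst h1; simp [hx.diag]
  by_cases h2 : j = k
  · subst h2; simp [hx.diag]
  rw [hx.mul i j k a b h1 h2 h, hab, hx.zero, one_mul]

omit [Fintype ι] [DecidableEq ι] in
theorem eq_comm_elt {i j k : ι} (h1 : i ≠ j) (h2 : j ≠ k) (h3 : i ≠ k) (a b : R) :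
    x i k (a * b) = x i j a * x j k b * (x i j a)⁻¹ * (x j k b)⁻¹ := by
  rw [hx.mul i j k a b h1 h2 h3]; group

end IsSt

/-- the conjugating element of the swindle at one index -/
def th (x : ι → ι → R → H) (o : ι) (x0 y0 : R) (i : ι) : H := tw x i o x0 y0 * tw x i o 1 1

namespace IsSt

variable {x : ι → ι → R → H} (hx : IsSt x) (h2 : ∀ r : R, r + r = 0)
include hx h2

omit [Fintype ι] in
theorem th_conj {o i k l : ι} {x0 y0 : R} (hyx : y0 * x0 = 1) (hi : i ≠ o) (hk : k ≠ o)
    (hl : l ≠ o) (hkl : k ≠ l) (r : R) :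
    th x o x0 y0 i * x k l r * (th x o x0 y0 i)⁻¹ =
      x k l ((if k = i then x0 else 1) * r * (if l = i then y0 else 1)) := by
  have e : ∀ g, th x o x0 y0 i * g * (th x o x0 y0 i)⁻¹ =
      tw x i o x0 y0 * (tw x i o 1 1 * g * (tw x i o 1 1)⁻¹) * (tw x i o x0 y0)⁻¹ := by
    intro g; rw [th]; group
  rw [e]
  by_cases h1 : k = i
  · subst h1
    rw [hx.w_c₁ h2 hi hkl hl.symm]
    have := hx.tw_cp hi hkl hl.symm x0 y0 0 r
    simp only [hx.zero, one_mul, zero_add, ← mul_assoc, hyx, h2, mul_zero, add_zero,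
      mul_one] at this
    simpa [Ne.symm hkl] using this
  by_cases h3 : l = i
  · subst h3
    rw [hx.w_r₁ h2 hi hkl hk]
    have := hx.tw_rp h2 hi hkl hk x0 y0 0 r
    simp only [hx.zero, one_mul, zero_add, zero_mul, add_zero, mul_assoc, hyx, h2,
      mul_one] at this
    simpa [hkl, mul_assoc] using this
  rw [hx.tw_comm (Ne.symm h1) hk.symm (Ne.symm h3) hl.symm,
    hx.tw_comm (Ne.symm h1) hk.symm (Ne.symm h3) hl.symm]
  simp [h1, h3]

omit [Fintype ι] in
theorem thL_conj {o k l : ι} {x0 y0 : R} (hyx : y0 * x0 = 1) (hk : k ≠ o)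
    (hl : l ≠ o) (hkl : k ≠ l) (L : List ι) (hL : L.Nodup) (ho : o ∉ L) (r : R) :
    (L.map (th x o x0 y0)).prod * x k l r * ((L.map (th x o x0 y0)).prod)⁻¹ =
      x k l ((if k ∈ L then x0 else 1) * r * (if l ∈ L then y0 else 1)) := by
  induction L with
  | nil => simp
  | cons i L ih =>
    rw [List.nodup_cons] at hL
    have hi : i ≠ o := fun h => ho (h ▸ List.mem_cons_self)
    have e : ((i :: L).map (th x o x0 y0)).prod * x k l r * (((i :: L).map (th x o x0 y0)).prod)⁻¹
        = th x o x0 y0 i * ((L.map (th x o x0 y0)).prod * x k l r *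
          ((L.map (th x o x0 y0)).prod)⁻¹) * (th x o x0 y0 i)⁻¹ := by
      rw [List.map_cons, List.prod_cons]; group
    rw [e, ih hL.2 (fun h => ho (List.mem_cons_of_mem _ h)), hx.th_conj h2 hyx hi hk hl hkl]
    congr 1
    by_cases h1 : k = i
    · subst h1
      simp [hL.1, Ne.symm hkl, mul_assoc]
    by_cases h3 : l = i
    · subst h3
      simp [hL.1, hkl]
    simp [h1, h3]

end IsSt

/-- the corner map -/
def corner (x0 y0 : R) (hyx : y0 * x0 = 1) : R →ₙ+* R where
  toFun r := x0 * r * y0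
  map_mul' r s := by
    calc x0 * (r * s) * y0 = x0 * r * (y0 * x0) * s * y0 := by rw [hyx]; noncomm_ring
      _ = _ := by noncomm_ring
  map_zero' := by simp
  map_add' r s := by noncomm_ring

@[simp] theorem corner_apply (x0 y0 : R) (hyx : y0 * x0 = 1) (r : R) :
    corner x0 y0 hyx r = x0 * r * y0 := rfl

/-- the map on matrices induced by a nonunital ring map -/
def hatM (β : R →ₙ+* R) : Matrix ι ι R →* Matrix ι ι R where
  toFun M := 1 + (M - 1).map β
  map_one' := by simp [Matrix.map_zero _ (map_zero β)]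
  map_mul' M N := by
    have e : M * N - 1 = (M - 1) + (N - 1) + (M - 1) * (N - 1) := by noncomm_ring
    rw [e, Matrix.map_add _ (map_add β), Matrix.map_add _ (map_add β), Matrix.map_mul]
    noncomm_ring

/-- the map on invertible matrices induced by a nonunital ring map -/
def hat (β : R →ₙ+* R) : (Matrix ι ι R)ˣ →* (Matrix ι ι R)ˣ := Units.map (hatM β)

theorem hat_val (β : R →ₙ+* R) (g : (Matrix ι ι R)ˣ) :
    ((hat β g : (Matrix ι ι R)ˣ) : Matrix ι ι R) = 1 + ((g : Matrix ι ι R) - 1).map β := rfl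

theorem hat_el (β : R →ₙ+* R) (i j : ι) (r : R) :
    hat β (el i j r : (Matrix ι ι R)ˣ) = el i j (β r) := by
  by_cases h : i = j
  · subst h; simp [el_self]
  ext1
  rw [hat_val, el_val h, el_val h, add_sub_cancel_left]
  congr 1
  ext a b
  simp only [map_apply, single, of_apply]
  split_ifs <;> simp

theorem stπ_map (β : R →ₙ+* R) (g : St ι R) : stπ (St.map β g) = hat β (stπ g) := by
  have : (stπ : St ι R →* _).comp (St.map β) = (hat β).comp stπ :=
    St.hom_ext fun i j r => by simp [hat_el]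
  exact DFunLike.congr_fun this g

/-- the subgroup generated by the generators avoiding the index `o` -/
def Ho (o : ι) : Subgroup (St ι R) :=
  Subgroup.closure {g | ∃ i j r, i ≠ o ∧ j ≠ o ∧ g = xs i j r}

section
variable (h2 : ∀ r : R, r + r = 0)
include h2

omit [Fintype ι] [DecidableEq ι] in
theorem Ho_ind {o : ι} {p : St ι R → Prop} (h1 : p 1)
    (hg : ∀ i j r, i ≠ o → j ≠ o → p (xs i j r)) (hm : ∀ a b, p a → p b → p (a * b))
    {g : St ι R} (hg' : g ∈ Ho o) : p g := by
  induction hg' using Subgroup.closure_induction'' with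
  | mem a ha => obtain ⟨i, j, r, hi, hj, rfl⟩ := ha; exact hg i j r hi hj
  | inv_mem a ha =>
    obtain ⟨i, j, r, hi, hj, rfl⟩ := ha
    rw [isSt_xs.inv h2]; exact hg i j r hi hj
  | one => exact h1
  | mul a b _ _ ha hb => exact hm a b ha hb

theorem Ho_col {o : ι} {g : St ι R} (hg : g ∈ Ho o) (u : ι → R) :
    g * isSt_xs.col o u * g⁻¹ =
      isSt_xs.col o (((stπ g : (Matrix ι ι R)ˣ) : Matrix ι ι R) *ᵥ u) := by
  revert u
  refine Ho_ind h2 (p := fun g => ∀ u, g * isSt_xs.col o u * g⁻¹ =
      isSt_xs.col o (((stπ g : (Matrix ι ι R)ˣ) : Matrix ι ι R) *ᵥ u)) ?_ ?_ ?_ hg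
  · simp
  · intro i j r hi hj u
    rw [stπ_xs, isSt_xs.conj_col hi hj]
  · intro a b ha hb u
    rw [map_mul, Units.val_mul, ← mulVec_mulVec, ← ha, ← hb]; group

theorem Ho_row {o : ι} {g : St ι R} (hg : g ∈ Ho o) (u : ι → R) :
    g * isSt_xs.row o u * g⁻¹ =
      isSt_xs.row o (u ᵥ* (((stπ g)⁻¹ : (Matrix ι ι R)ˣ) : Matrix ι ι R)) := by
  revert u
  refine Ho_ind h2 (p := fun g => ∀ u, g * isSt_xs.row o u * g⁻¹ =
      isSt_xs.row o (u ᵥ* (((stπ g)⁻¹ : (Matrix ι ι R)ˣ) : Matrix ι ι R))) ?_ ?_ ?_ hg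
  · simp
  · intro i j r hi hj u
    rw [stπ_xs, isSt_el.inv h2, isSt_xs.conj_row h2 hi hj]
  · intro a b ha hb u
    rw [map_mul, _root_.mul_inv_rev (stπ a), Units.val_mul, ← vecMul_vecMul, ← ha, ← hb]; group

theorem Ho_central {o : ι} {z : St ι R} (hz : z ∈ Ho o) (hz1 : stπ z = 1) (g : St ι R) :
    z * g = g * z := by
  have hc : ∀ i r, xs i o r ∈ Subgroup.centralizer ({z} : Set (St ι R)) := by
    intro i r
    rw [Subgroup.mem_centralizer_singleton_iff]
    have := Ho_col h2 hz (Pi.single i r)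
    rw [hz1, Units.val_one, one_mulVec, isSt_xs.col_single] at this
    exact (mul_inv_eq_iff_eq_mul.1 this).symm
  have hr : ∀ i r, xs o i r ∈ Subgroup.centralizer ({z} : Set (St ι R)) := by
    intro i r
    rw [Subgroup.mem_centralizer_singleton_iff]
    have := Ho_row h2 hz (Pi.single i r)
    rw [hz1, inv_one, Units.val_one, vecMul_one, isSt_xs.row_single] at this
    exact (mul_inv_eq_iff_eq_mul.1 this).symm
  have := St.mem_of_gens (Subgroup.centralizer ({z} : Set (St ι R))) (fun i j r => by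
    by_cases h1 : i = o
    · subst h1; exact hr _ _
    by_cases h3 : j = o
    · subst h3; exact hc _ _
    by_cases h4 : i = j
    · subst h4; rw [isSt_xs.diag]; exact one_mem _
    rw [← mul_one r, isSt_xs.eq_comm_elt h1 (Ne.symm h3) h4]
    exact mul_mem (mul_mem (mul_mem (hc _ _) (hr _ _)) (inv_mem (hc _ _))) (inv_mem (hr _ _))) g
  rw [Subgroup.mem_centralizer_singleton_iff] at this
  exact this.symm

omit [Fintype ι] [DecidableEq ι] in
theorem Ho_map {o : ι} (β : R →ₙ+* R) {g : St ι R} (hg : g ∈ Ho o) : St.map β g ∈ Ho o := by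
  refine Ho_ind h2 (p := fun g => St.map β g ∈ Ho o) ?_ ?_ ?_ hg
  · simp
  · intro i j r hi hj
    rw [St.map_xs]
    exact Subgroup.subset_closure ⟨i, j, _, hi, hj, rfl⟩
  · intro a b ha hb
    rw [map_mul]; exact mul_mem ha hb

theorem Ho_corner {o : ι} {x0 y0 : R} (hyx : y0 * x0 = 1) {z : St ι R} (hz : z ∈ Ho o)
    (hz1 : stπ z = 1) : St.map (corner x0 y0 hyx) z = z := by
  set L := (Finset.univ.erase o).toList with hL
  set Θ := (L.map (th xs o x0 y0)).prod with hΘ
  have key : ∀ g ∈ (Ho o : Subgroup (St ι R)), Θ * g * Θ⁻¹ = St.map (corner x0 y0 hyx) g := by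
    intro g hg
    refine Ho_ind h2 (p := fun g => Θ * g * Θ⁻¹ = St.map (corner x0 y0 hyx) g) ?_ ?_ ?_ hg
    · simp
    · intro i j r hi hj
      by_cases hij : i = j
      · subst hij; simp [isSt_xs.diag]
      rw [hΘ, isSt_xs.thL_conj h2 hyx hi hj hij L (Finset.nodup_toList _) (by simp [hL])]
      simp [hL, hi, hj]
    · intro a b ha hb
      rw [map_mul, ← ha, ← hb]; group
  rw [← key z hz, ← Ho_central h2 hz hz1 Θ, mul_inv_cancel_right]

end

/-- the data making a ring an infinite sum ring -/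
structure Flasque (R : Type) [Ring R] where
  x1 : R
  x2 : R
  y1 : R
  y2 : R
  φ : R →+* R
  h11 : y1 * x1 = 1
  h22 : y2 * x2 = 1
  h12 : y1 * x2 = 0
  h21 : y2 * x1 = 0
  hφ : ∀ r, φ r = x1 * r * y1 + x2 * φ r * y2

theorem Ho_ker (h2 : ∀ r : R, r + r = 0) (F : Flasque R) {o : ι} {z : St ι R} (hz : z ∈ Ho o)
    (hz1 : stπ z = 1) : z = 1 := by
  set α1 := corner F.x1 F.y1 F.h11
  set α2 := corner F.x2 F.y2 F.h22
  set φ : R →ₙ+* R := (F.φ : R →ₙ+* R)
  have m12 : ∀ r s, α1 r * α2 s = 0 := fun r s => by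
    simp only [α1, α2, corner_apply, mul_assoc]
    rw [← mul_assoc F.y1, F.h12]; simp
  have m21 : ∀ r s, α2 r * α1 s = 0 := fun r s => by
    simp only [α1, α2, corner_apply, mul_assoc]
    rw [← mul_assoc F.y2, F.h21]; simp
  have gen : ∀ (i j k l : ι) (r s : R), i ≠ o → j ≠ o → k ≠ o → l ≠ o →
      xs i j (α1 r) * xs k l (α2 s) = xs k l (α2 s) * (xs i j (α1 r) : St ι R) := by
    intro i j k l r s hi hj hk hl
    by_cases h1 : j = k
    · subst h1
      by_cases h3 : i = l
      · subst h3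
        by_cases h4 : i = j
        · subst h4; simp [isSt_xs.diag]
        have c1 : Commute (xs i o (α1 r) : St ι R) (xs j i (α2 s)) :=
          (isSt_xs.comm0 hj (m21 s r)).symm
        have c2 : Commute (xs o j (α1 1) : St ι R) (xs j i (α2 s)) :=
          isSt_xs.comm0 hi.symm (m12 1 s)
        rw [← mul_one r, map_mul, isSt_xs.eq_comm_elt hi hj.symm h4]
        exact ((c1.mul_left c2).mul_left c1.inv_left).mul_left c2.inv_left
      · exact isSt_xs.comm0 h3 (m12 r s)
    · by_cases h3 : i = l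
      · subst h3
        exact (isSt_xs.comm0 (Ne.symm h1) (m21 s r)).symm
      · exact isSt_xs.comm _ _ _ _ _ _ h1 h3
  have cm : ∀ g ∈ (Ho o : Subgroup (St ι R)), ∀ g' ∈ (Ho o : Subgroup (St ι R)),
      Commute (St.map α1 g) (St.map α2 g') := by
    intro g hg g' hg'
    refine Ho_ind h2 (p := fun g => Commute (St.map α1 g) (St.map α2 g')) ?_ ?_ ?_ hg
    · simp
    · intro i j r hi hj
      refine Ho_ind h2 (p := fun g' => Commute (St.map α1 (xs i j r)) (St.map α2 g')) ?_ ?_ ?_ hg'
      · simp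
      · intro k l s hk hl
        rw [St.map_xs, St.map_xs]; exact gen i j k l r s hi hj hk hl
      · intro a b ha hb
        rw [map_mul]; exact ha.mul_right hb
    · intro a b ha hb
      rw [map_mul]; exact ha.mul_left hb
  have sw : ∀ g ∈ (Ho o : Subgroup (St ι R)),
      St.map φ g = St.map α1 g * St.map α2 (St.map φ g) := by
    intro g hg
    refine (Ho_ind h2 (p := fun g => g ∈ (Ho o : Subgroup (St ι R)) ∧
      St.map φ g = St.map α1 g * St.map α2 (St.map φ g)) ?_ ?_ ?_ hg).2
    · simp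
    · intro i j r hi hj
      refine ⟨Subgroup.subset_closure ⟨i, j, _, hi, hj, rfl⟩, ?_⟩
      simp only [St.map_xs]
      rw [← isSt_xs.add]
      exact congrArg _ (F.hφ r)
    · rintro a b ⟨ha, ha'⟩ ⟨hb, hb'⟩
      refine ⟨mul_mem ha hb, ?_⟩
      have c := (cm b hb _ (Ho_map h2 φ ha)).eq
      calc St.map φ (a * b) = St.map α1 a * (St.map α2 (St.map φ a) * St.map α1 b) *
            St.map α2 (St.map φ b) := by
            rw [map_mul]
            conv_lhs => rw [ha', hb']
            simp only [mul_assoc]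
        _ = _ := by rw [← c]; simp only [map_mul, mul_assoc]
  have e := sw z hz
  rw [Ho_corner h2 F.h11 hz hz1, Ho_corner h2 F.h22 (Ho_map h2 φ hz)
    (by rw [stπ_map, hz1, map_one])] at e
  exact mul_right_cancel (b := St.map φ z) (by rw [← e, one_mul])

end Vale.Agent.P193
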