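import Vale.Agent.P193.St2

/-! Every invertible matrix fixing some basis vectors is a product of elementary matrices. -/

namespace Vale.Agent.P193

open Matrix

variable {ι : Type} {R : Type} [Ring R] [Fintype ι] [DecidableEq ι]

/-- cone property for rows -/
def Cone (ι R : Type) [Ring R] [Fintype ι] : Prop :=
  ∀ s : Finset (ι → R), ∃ w : ι → R, ∀ f ∈ s, f ≠ 0 → ∃ a : R, a * (f ⬝ᵥ w) = 1

/-- a matrix supported on one column -/
def Cm (o : ι) (u : ι → R) : Matrix ι ι R := of fun i j => if j = o ∧ i ≠ o then u i else 0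

/-- a matrix supported on one row -/
def Rm (o : ι) (u : ι → R) : Matrix ι ι R := of fun i j => if i = o ∧ j ≠ o then u j else 0

theorem col_val (o : ι) (u : ι → R) :
    ((isSt_el.col o u : (Matrix ι ι R)ˣ) : Matrix ι ι R) = 1 + Cm o u := by
  induction u using Pi.single_induction with
  | zero => rw [IsSt.col_zero]; ext i j; simp [Cm]
  | add u v hu hv =>
    have e : Cm o u * Cm o v = 0 := by
      ext i j
      simp only [Cm, mul_apply, of_apply, Matrix.zero_apply]
      refine Finset.sum_eq_zero fun k _ => ?_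
      by_cases h : k = o <;> simp [h]
    have e' : Cm o (u + v) = Cm o u + Cm o v := by
      ext i j; simp only [Cm, of_apply, Matrix.add_apply, Pi.add_apply]; split_ifs <;> simp
    rw [IsSt.col_add, Units.val_mul, hu, hv, e', add_mul, mul_add, mul_add, e]
    simp only [one_mul, mul_one, add_zero]; abel
  | single i r =>
    rw [IsSt.col_single]
    by_cases h : i = o
    · subst h
      rw [el_self]; ext a b
      by_cases h' : a = i <;> simp [Cm, h']
    · rw [el_val h]; congr 1; ext a b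
      by_cases h' : a = i
      · subst h'; by_cases h'' : b = o
        · subst h''; simp [Cm, h]
        · simp [Cm, h'', Ne.symm h'']
      · simp [Cm, h', Ne.symm h']

theorem row_val (o : ι) (u : ι → R) :
    ((isSt_el.row o u : (Matrix ι ι R)ˣ) : Matrix ι ι R) = 1 + Rm o u := by
  induction u using Pi.single_induction with
  | zero => rw [IsSt.row_zero]; ext i j; simp [Rm]
  | add u v hu hv =>
    have e : Rm o u * Rm o v = 0 := by
      ext i j
      simp only [Rm, mul_apply, of_apply, Matrix.zero_apply]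
      refine Finset.sum_eq_zero fun k _ => ?_
      by_cases h : k = o <;> simp [h]
    have e' : Rm o (u + v) = Rm o u + Rm o v := by
      ext i j; simp only [Rm, of_apply, Matrix.add_apply, Pi.add_apply]; split_ifs <;> simp
    rw [IsSt.row_add, Units.val_mul, hu, hv, e', add_mul, mul_add, mul_add, e]
    simp only [one_mul, mul_one, add_zero]; abel
  | single i r =>
    rw [IsSt.row_single]
    by_cases h : i = o
    · subst h
      rw [el_self]; ext a b
      by_cases h' : b = i <;> simp [Rm, h']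
    · rw [el_val (Ne.symm h)]; congr 1; ext a b
      by_cases h' : b = i
      · subst h'; by_cases h'' : a = o
        · subst h''; simp [Rm, h]
        · simp [Rm, h'', Ne.symm h'']
      · simp [Rm, h', Ne.symm h']

/-- generated by the generators whose column avoids `T` -/
def QT (T : Set ι) : Subgroup (St ι R) :=
  Subgroup.closure {g | ∃ i j r, j ∉ T ∧ g = xs i j r}

/-- the image in the general linear group -/
def ET (T : Set ι) : Subgroup (Matrix ι ι R)ˣ := (QT T).map stπ

omit [Fintype ι] [DecidableEq ι] in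
theorem xs_mem_QT {T : Set ι} (i : ι) {j : ι} (hj : j ∉ T) (r : R) :
    (xs i j r : St ι R) ∈ QT T :=
  Subgroup.subset_closure ⟨i, j, r, hj, rfl⟩

theorem el_mem_ET {T : Set ι} (i : ι) {j : ι} (hj : j ∉ T) (r : R) :
    (el i j r : (Matrix ι ι R)ˣ) ∈ ET T :=
  ⟨xs i j r, xs_mem_QT i hj r, stπ_xs i j r⟩

/-- the stabiliser of the basis vectors indexed by `T` -/
def Fix (T : Set ι) : Subgroup (Matrix ι ι R)ˣ where
  carrier := {g | ∀ t ∈ T, (g : Matrix ι ι R) *ᵥ Pi.single t 1 = Pi.single t 1}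
  one_mem' := by intro t _; simp only [Units.val_one, one_mulVec]
  mul_mem' := by
    intro a b ha hb t ht
    rw [Units.val_mul, ← mulVec_mulVec, hb t ht, ha t ht]
  inv_mem' := by
    intro a ha t ht
    conv_lhs => rw [← ha t ht]
    rw [mulVec_mulVec, Units.inv_mul, one_mulVec]

theorem mem_Fix {T : Set ι} {g : (Matrix ι ι R)ˣ} :
    g ∈ Fix T ↔ ∀ t ∈ T, ∀ i, (g : Matrix ι ι R) i t = (1 : Matrix ι ι R) i t := by
  refine forall₂_congr fun t _ => ?_
  rw [mulVec_single_one, funext_iff]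
  refine forall_congr' fun i => ?_
  simp [Pi.single_apply, one_apply]

theorem ET_le_Fix (T : Set ι) : (ET T : Subgroup (Matrix ι ι R)ˣ) ≤ Fix T := by
  rw [ET, Subgroup.map_le_iff_le_comap, QT, Subgroup.closure_le]
  rintro _ ⟨i, j, r, hj, rfl⟩
  change stπ (xs i j r) ∈ Fix T
  rw [stπ_xs, mem_Fix]
  intro t ht k
  by_cases h : i = j
  · subst h; simp [el_self]
  have : j ≠ t := fun h => hj (h ▸ ht)
  simp [el_val h, this]

theorem reach {T : Set ι} {o c : ι} (ho : o ∉ T) (hc : c ∉ T) (hoc : o ≠ c) {w : ι → R} {a : R}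
    (ha : a * w c = 1) :
    ∃ h ∈ (ET T : Subgroup (Matrix ι ι R)ˣ), (h : Matrix ι ι R) *ᵥ Pi.single o 1 = w := by
  set e : (Matrix ι ι R)ˣ := el o c ((1 - w o) * a) with he
  set w' := (e : Matrix ι ι R) *ᵥ w with hw'
  have h1 : w' o = 1 := by
    rw [hw', he, el_val hoc, add_mulVec, one_mulVec, single_mulVec]
    simp [mul_assoc, ha]
  have h2 : ((isSt_el.col o w' : (Matrix ι ι R)ˣ) : Matrix ι ι R) *ᵥ Pi.single o 1 = w' := by
    rw [col_val, mulVec_single_one]
    funext i
    by_cases h : i = o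
    · subst h; simp [Cm, h1]
    · simp [Cm, h]
  refine ⟨e⁻¹ * isSt_el.col o w', mul_mem (inv_mem (el_mem_ET _ hc _))
    (isSt_el.col_mem o _ _ fun i => el_mem_ET _ ho _), ?_⟩
  rw [Units.val_mul, ← mulVec_mulVec, h2, hw', mulVec_mulVec, Units.inv_mul, one_mulVec]

theorem clear_rows (h2 : ∀ r : R, r + r = 0) {T S : Set ι} (hTS : T ⊆ S) {g : (Matrix ι ι R)ˣ}
    (hg : g ∈ Fix S) (U : Finset ι) (hU : ∀ t ∈ U, t ∈ S) :
    ∃ h ∈ (ET T : Subgroup (Matrix ι ι R)ˣ), g * h ∈ Fix S ∧
      ∀ t ∈ U, ∀ j, ((g * h : (Matrix ι ι R)ˣ) : Matrix ι ι R) t j = (1 : Matrix ι ι R) t j := by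
  induction U using Finset.induction_on with
  | empty => exact ⟨1, one_mem _, by simpa using hg, by simp⟩
  | insert t U ht ih =>
    obtain ⟨h, hh, hf, hr⟩ := ih fun s hs => hU s (Finset.mem_insert_of_mem hs)
    have htS := hU t (Finset.mem_insert_self _ _)
    set g' := g * h with hg'
    have hf' := mem_Fix.1 hf
    set ρ : ι → R := fun j => (g' : Matrix ι ι R) t j with hρ
    have e : ∀ i j, ((g' * isSt_el.row t ρ : (Matrix ι ι R)ˣ) : Matrix ι ι R) i j =
        (g' : Matrix ι ι R) i j + if i = t ∧ j ≠ t then ρ j else 0 := by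
      intro i j
      rw [Units.val_mul, row_val, mul_add, mul_one, Matrix.add_apply, mul_apply, Finset.sum_eq_single t]
      · rw [hf' t htS]
        by_cases hi : i = t <;> simp [Rm, hi, one_apply]
      · intro k _ hk; simp [Rm, hk]
      · simp
    refine ⟨h * isSt_el.row t ρ, mul_mem hh (isSt_el.row_mem t _ _ fun j => ?_), ?_, ?_⟩
    · by_cases hj : j ∈ T
      · by_cases hjt : t = j
        · subst hjt; rw [el_self]; exact one_mem _
        · have : ρ j = 0 := by simp [hρ, hf' j (hTS hj), one_apply, hjt]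
          rw [this, isSt_el.zero]; exact one_mem _
      · exact el_mem_ET _ hj _
    · rw [← mul_assoc, ← hg', mem_Fix]
      intro s hs i
      rw [e, hf' s hs]
      split_ifs with hc
      · simp [hρ, hf' s hs, one_apply, hc.2.symm]
      · simp
    · intro s hs j
      rw [← mul_assoc, ← hg', e]
      rcases Finset.mem_insert.1 hs with rfl | hs
      · by_cases hj : j = s
        · subst hj; simp [hf' j htS]
        · simp [hρ, hj, h2, one_apply, Ne.symm hj]
      · have : s ≠ t := fun h => ht (h ▸ hs)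
        simp [this, hr s hs]

/-- supported away from `S` -/
def Sup (S : Set ι) (M : Matrix ι ι R) : Prop := ∀ i j, i ∈ S ∨ j ∈ S → M i j = 0

theorem Sup.inv {S : Set ι} {g : (Matrix ι ι R)ˣ} (h : Sup S ((g : Matrix ι ι R) - 1)) :
    Sup S (((g⁻¹ : (Matrix ι ι R)ˣ) : Matrix ι ι R) - 1) := by
  rintro i j (hi | hj)
  · have : ((g⁻¹ : (Matrix ι ι R)ˣ) : Matrix ι ι R) - 1 =
        -(((g : Matrix ι ι R) - 1) * (g⁻¹ : (Matrix ι ι R)ˣ)) := by
      rw [sub_mul, Units.mul_inv, one_mul, neg_sub]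
    rw [this, Matrix.neg_apply, mul_apply, Finset.sum_eq_zero, neg_zero]
    intro k _; rw [h i k (Or.inl hi), zero_mul]
  · have : ((g⁻¹ : (Matrix ι ι R)ˣ) : Matrix ι ι R) - 1 =
        -(((g⁻¹ : (Matrix ι ι R)ˣ) : Matrix ι ι R) * ((g : Matrix ι ι R) - 1)) := by
      rw [mul_sub, Units.inv_mul, mul_one, neg_sub]
    rw [this, Matrix.neg_apply, mul_apply, Finset.sum_eq_zero, neg_zero]
    intro k _; rw [h k j (Or.inr hj), mul_zero]

theorem Sup.hat {S : Set ι} (β : R →ₙ+* R) {g : (Matrix ι ι R)ˣ}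
    (h : Sup S ((g : Matrix ι ι R) - 1)) :
    Sup S (((hat β g : (Matrix ι ι R)ˣ) : Matrix ι ι R) - 1) := by
  intro i j hij
  rw [hat_val, add_sub_cancel_left, map_apply, h i j hij, map_zero]

omit [Fintype ι] [DecidableEq ι] in
theorem thL_mem {H : Type} [Group H] {x : ι → ι → R → H} (K : Subgroup H) (o : ι) (x0 y0 : R)
    (L : List ι) (h : ∀ i ∈ L, ∀ r, x i o r ∈ K ∧ x o i r ∈ K) :
    (L.map (th x o x0 y0)).prod ∈ K := by
  refine Subgroup.list_prod_mem _ fun g hg => ?_
  obtain ⟨i, hi, rfl⟩ := List.mem_map.1 hg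
  have h1 := fun r => (h i hi r).1
  have h2 := fun r => (h i hi r).2
  exact mul_mem (mul_mem (mul_mem (h1 _) (h2 _)) (h1 _)) (mul_mem (mul_mem (h1 _) (h2 _)) (h1 _))

theorem thL_hat (h2 : ∀ r : R, r + r = 0) (h3 : ∀ k o : ι, ∃ l, l ≠ k ∧ l ≠ o) {S : Set ι}
    {o : ι} (ho : o ∈ S) {x0 y0 : R} (hyx : y0 * x0 = 1) (L : List ι) (hL : L.Nodup)
    (hLS : ∀ i, i ∈ L ↔ i ∉ S) {g : (Matrix ι ι R)ˣ} (hg : Sup S ((g : Matrix ι ι R) - 1)) :
    (L.map (th el o x0 y0)).prod * g * ((L.map (th el o x0 y0)).prod)⁻¹ =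
      hat (corner x0 y0 hyx) g := by
  set Θ : (Matrix ι ι R)ˣ := (L.map (th el o x0 y0)).prod with hΘ
  have hoL : o ∉ L := fun h => (hLS o).1 h ho
  have off : ∀ k l r, k ≠ o → l ≠ o → k ≠ l →
      (Θ : Matrix ι ι R) * single k l r * (Θ⁻¹ : (Matrix ι ι R)ˣ) =
        single k l ((if k ∈ L then x0 else 1) * r * (if l ∈ L then y0 else 1)) := by
    intro k l r hk hl hkl
    have := congrArg Units.val (isSt_el.thL_conj h2 hyx hk hl hkl L hL hoL r)
    rw [← hΘ, Units.val_mul, Units.val_mul, el_val hkl, el_val hkl, mul_add, add_mul, mul_one,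
      Units.mul_inv] at this
    exact add_left_cancel this
  have all : ∀ k l r, k ∉ S → l ∉ S →
      (Θ : Matrix ι ι R) * single k l r * (Θ⁻¹ : (Matrix ι ι R)ˣ) = single k l (x0 * r * y0) := by
    intro k l r hk hl
    have hko : k ≠ o := fun h => hk (h ▸ ho)
    have hlo : l ≠ o := fun h => hl (h ▸ ho)
    by_cases hkl : k = l
    · subst hkl
      obtain ⟨m, hmk, hmo⟩ := h3 k o
      have e : (Θ : Matrix ι ι R) * single k k r * (Θ⁻¹ : (Matrix ι ι R)ˣ) =
          ((Θ : Matrix ι ι R) * single k m r * (Θ⁻¹ : (Matrix ι ι R)ˣ)) *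
          ((Θ : Matrix ι ι R) * single m k (1 : R) *
            ((Θ⁻¹ : (Matrix ι ι R)ˣ) : Matrix ι ι R)) := by
        simp only [mul_assoc, Units.inv_mul_cancel_left]
        rw [← mul_assoc (single k m r), single_mul_single_same, mul_one]
      rw [e, off k m r hko hmo hmk.symm, off m k 1 hmo hko hmk, single_mul_single_same]
      congr 1
      rw [if_pos ((hLS k).2 hk), if_pos ((hLS k).2 hk)]
      split_ifs
      · calc _ = x0 * r * (y0 * x0) * y0 := by noncomm_ring
          _ = _ := by rw [hyx, mul_one]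
      · simp
    · rw [off k l r hko hlo hkl, if_pos ((hLS k).2 hk), if_pos ((hLS l).2 hl)]
  ext1
  have e : (g : Matrix ι ι R) = 1 + ((g : Matrix ι ι R) - 1) := by abel
  rw [hat_val, Units.val_mul, Units.val_mul]
  conv_lhs => rw [e]
  rw [mul_add, add_mul, mul_one, Units.mul_inv]
  congr 1
  set M := (g : Matrix ι ι R) - 1
  rw [matrix_eq_sum_single (M.map _)]
  conv_lhs => rw [matrix_eq_sum_single M]
  simp only [Finset.mul_sum, Finset.sum_mul]
  refine Finset.sum_congr rfl fun k _ => Finset.sum_congr rfl fun l _ => ?_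
  by_cases hkl : k ∈ S ∨ l ∈ S
  · simp [hg k l hkl]
  · push Not at hkl
    rw [all k l _ hkl.1 hkl.2]; rfl

theorem sup_mem_ET (h2 : ∀ r : R, r + r = 0) (h3 : ∀ k o : ι, ∃ l, l ≠ k ∧ l ≠ o)
    (F : Flasque R) {T : Set ι} {o : ι} (ho : o ∉ T) {g : (Matrix ι ι R)ˣ}
    (hg : Sup (insert o T) ((g : Matrix ι ι R) - 1)) : g ∈ ET T := by
  classical
  set S := insert o T
  have hoS : o ∈ S := Set.mem_insert _ _
  set L := (Finset.univ.filter fun i => i ∉ S).toList
  have hL : L.Nodup := Finset.nodup_toList _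
  have hLS : ∀ i, i ∈ L ↔ i ∉ S := by simp [L]
  set φ : R →ₙ+* R := (F.φ : R →ₙ+* R)
  set h := hat φ g with hh
  have hs : Sup S ((h : Matrix ι ι R) - 1) := hg.hat φ
  have hs' := hs.inv
  set Θ1 : (Matrix ι ι R)ˣ := (L.map (th el o F.x1 F.y1)).prod
  set Θ2 : (Matrix ι ι R)ˣ := (L.map (th el o F.x2 F.y2)).prod
  have e1 : Θ1 * g * Θ1⁻¹ = _ := thL_hat h2 h3 hoS F.h11 L hL hLS hg
  have e2 : Θ2 * h * Θ2⁻¹ = _ := thL_hat h2 h3 hoS F.h22 L hL hLS hs
  have e3 : h = hat (corner F.x1 F.y1 F.h11) g * hat (corner F.x2 F.y2 F.h22) h := by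
    ext1
    rw [Units.val_mul, hat_val, hat_val (corner _ _ _), hat_val (corner _ _ _), hh, hat_val,
      add_sub_cancel_left]
    have z : ((g : Matrix ι ι R) - 1).map (corner F.x1 F.y1 F.h11) *
        (((g : Matrix ι ι R) - 1).map φ).map (corner F.x2 F.y2 F.h22) = 0 := by
      ext i j
      rw [mul_apply, Matrix.zero_apply]
      refine Finset.sum_eq_zero fun k _ => ?_
      simp only [map_apply, corner_apply, mul_assoc]
      rw [← mul_assoc F.y1, F.h12]; simp
    rw [add_mul, mul_add, mul_add, z]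
    simp only [one_mul, mul_one, add_zero, add_assoc]
    congr 1
    ext i j
    rw [add_comm]
    exact F.hφ _
  have hmem : ∀ i ∈ L, ∀ r : R, (el i o r : (Matrix ι ι R)ˣ) ∈ ET T ∧
      (el o i r : (Matrix ι ι R)ˣ) ∈ ET T := fun i hi r =>
    ⟨el_mem_ET _ ho _, el_mem_ET _ (fun h => (hLS i).1 hi (Set.mem_insert_of_mem _ h)) _⟩
  have m1 : Θ1 ∈ ET T := thL_mem _ _ _ _ _ hmem
  have m2 : Θ2 ∈ ET T := thL_mem _ _ _ _ _ hmem
  have en : ∀ (k : (Matrix ι ι R)ˣ), Sup S ((k : Matrix ι ι R) - 1) → ∀ i j, i ∈ S ∨ j ∈ S →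
      (k : Matrix ι ι R) i j = (1 : Matrix ι ι R) i j := fun k hk i j hij => by
    have := hk i j hij
    rwa [Matrix.sub_apply, sub_eq_zero] at this
  have m3 : Θ2 ∈ (ET T).comap (MulAut.conj h).toMonoidHom := by
    refine thL_mem _ _ _ _ _ fun i hi r => ?_
    have hiS := (hLS i).1 hi
    have hio : i ≠ o := fun h => hiS (h ▸ hoS)
    constructor
    · have : h * el i o r * h⁻¹ = isSt_el.col o ((h : Matrix ι ι R) *ᵥ Pi.single i r) := by
        ext1
        rw [col_val, Units.val_mul, Units.val_mul, el_val hio, mul_add, add_mul, mul_one,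
          Units.mul_inv, mul_assoc]
        congr 1
        have : single i o r * ((h⁻¹ : (Matrix ι ι R)ˣ) : Matrix ι ι R) = single i o r := by
          ext a b
          by_cases ha : a = i
          · subst ha
            rw [single_mul_apply_same, en _ hs' o b (Or.inl hoS)]
            by_cases hb : o = b <;> simp [hb, one_apply]
          · simp [ha, Ne.symm ha]
        rw [this]
        ext a b
        by_cases hb : b = o
        · subst hb
          rw [mul_single_apply_same]
          by_cases ha : a = b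
          · subst ha; simp [Cm, en _ hs a i (Or.inl hoS), one_apply, hio.symm]
          · simp [Cm, ha, mulVec, dotProduct_single]
        · simp [Cm, hb]
      change h * el i o r * h⁻¹ ∈ ET T
      rw [this]
      exact isSt_el.col_mem o _ _ fun j => el_mem_ET _ ho _
    · have : h * el o i r * h⁻¹ =
          isSt_el.row o (Pi.single i r ᵥ* ((h⁻¹ : (Matrix ι ι R)ˣ) : Matrix ι ι R)) := by
        ext1
        rw [row_val, Units.val_mul, Units.val_mul, el_val hio.symm, mul_add, add_mul, mul_one,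
          Units.mul_inv]
        congr 1
        have : (h : Matrix ι ι R) * single o i r = single o i r := by
          ext a b
          by_cases hb : b = i
          · subst hb
            rw [mul_single_apply_same, en _ hs a o (Or.inr hoS)]
            by_cases ha : a = o
            · rw [ha]; simp
            · simp [ha, Ne.symm ha]
          · simp [hb, Ne.symm hb]
        rw [this]
        ext a b
        by_cases ha : a = o
        · subst ha
          rw [single_mul_apply_same]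
          by_cases hb : b = a
          · subst hb; simp [Rm, en _ hs' i b (Or.inr hoS), one_apply, hio]
          · simp [Rm, hb, vecMul, single_dotProduct]
        · simp [Rm, ha]
      change h * el o i r * h⁻¹ ∈ ET T
      rw [this]
      refine isSt_el.row_mem o _ _ fun j => ?_
      by_cases hj : j ∈ T
      · have hjS : j ∈ S := Set.mem_insert_of_mem _ hj
        have hij : i ≠ j := fun h => hiS (h ▸ hjS)
        have : (Pi.single i r ᵥ* ((h⁻¹ : (Matrix ι ι R)ˣ) : Matrix ι ι R)) j = 0 := by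
          simp [vecMul, single_dotProduct, en _ hs' i j (Or.inr hjS), one_apply, hij]
        rw [this, isSt_el.zero]; exact one_mem _
      · exact el_mem_ET _ hj _
  have m3' : h * Θ2 * h⁻¹ ∈ ET T := m3
  rw [← e1, ← e2] at e3
  have : g = Θ1⁻¹ * (h * Θ2 * h⁻¹ * Θ2⁻¹) * Θ1 := by
    conv_rhs => enter [1, 2, 1, 1, 1]; rw [e3]
    group
  rw [this]
  exact mul_mem (mul_mem (inv_mem m1) (mul_mem m3' (inv_mem m2))) m1

theorem row_ne_zero [Nontrivial R] (g : (Matrix ι ι R)ˣ) (c : ι) :
    (fun j => (g : Matrix ι ι R) c j) ≠ 0 := by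
  intro h
  have := congrFun (congrFun g.mul_inv c) c
  rw [mul_apply, one_apply_eq, Finset.sum_eq_zero] at this
  · exact zero_ne_one this
  · intro k _; rw [congrFun h k]; simp

theorem Fix_le_ET [Nontrivial R] (h2 : ∀ r : R, r + r = 0)
    (h3 : ∀ k o : ι, ∃ l, l ≠ k ∧ l ≠ o) (F : Flasque R) (hC : Cone ι R) {T : Set ι} {o c : ι}
    (ho : o ∉ T) (hc : c ∉ T) (hoc : o ≠ c) {g : (Matrix ι ι R)ˣ} (hg : g ∈ Fix T) :
    g ∈ ET T := by
  classical
  obtain ⟨w, hw⟩ := hC {fun j => ((1 : (Matrix ι ι R)ˣ) : Matrix ι ι R) c j,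
    fun j => ((g⁻¹ : (Matrix ι ι R)ˣ) : Matrix ι ι R) c j}
  obtain ⟨a, ha⟩ := hw _ (Finset.mem_insert_self _ _) (row_ne_zero 1 c)
  obtain ⟨b, hb⟩ := hw _ (Finset.mem_insert_of_mem (Finset.mem_singleton_self _))
    (row_ne_zero g⁻¹ c)
  have ha' : a * (((1 : (Matrix ι ι R)ˣ) : Matrix ι ι R) *ᵥ w) c = 1 := ha
  rw [Units.val_one, one_mulVec] at ha'
  have hb' : b * (((g⁻¹ : (Matrix ι ι R)ˣ) : Matrix ι ι R) *ᵥ w) c = 1 := hb
  obtain ⟨h', hh', e'⟩ := reach ho hc hoc ha'
  obtain ⟨h, hh, e⟩ := reach ho hc hoc hb'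
  have f1 : h'⁻¹ * g * h ∈ Fix (insert o T) := by
    rintro t (rfl | ht)
    · rw [Units.val_mul, Units.val_mul, ← mulVec_mulVec, e, ← mulVec_mulVec, mulVec_mulVec w,
        Units.mul_inv, one_mulVec, ← e', mulVec_mulVec, Units.inv_mul, one_mulVec]
    · exact (mul_mem (mul_mem (inv_mem (ET_le_Fix T hh')) hg) (ET_le_Fix T hh)) t ht
  obtain ⟨k, hk, f2, f3⟩ := clear_rows h2 (Set.subset_insert o T) f1
    (Finset.univ.filter fun i => i ∈ insert o T) (by simp)
  have m := sup_mem_ET h2 h3 F ho (g := h'⁻¹ * g * h * k) (by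
    rintro i j (hi | hj)
    · rw [Matrix.sub_apply, f3 i (by simpa using hi), sub_self]
    · rw [Matrix.sub_apply, mem_Fix.1 f2 j hj, sub_self])
  have : g = h' * (h'⁻¹ * g * h * k) * k⁻¹ * h⁻¹ := by group
  rw [this]
  exact mul_mem (mul_mem (mul_mem hh' m) (inv_mem hk)) (inv_mem hh)

end Vale.Agent.P193
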