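import Vale.Agent.P193.St3

/-! The Steinberg group maps isomorphically onto the general linear group. -/

namespace Vale.Agent.P193

open Matrix Filter

variable {ι : Type} {R : Type} [Ring R] [Fintype ι] [DecidableEq ι]

omit [Fintype ι] [DecidableEq ι] in
theorem QT_ind (h2 : ∀ r : R, r + r = 0) {T : Set ι} {p : St ι R → Prop} (h1 : p 1)
    (hg : ∀ i j r, j ∉ T → p (xs i j r)) (hm : ∀ a b, p a → p b → p (a * b))
    {g : St ι R} (hg' : g ∈ QT T) : p g := by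
  induction hg' using Subgroup.closure_induction'' with
  | mem a ha => obtain ⟨i, j, r, hj, rfl⟩ := ha; exact hg i j r hj
  | inv_mem a ha =>
    obtain ⟨i, j, r, hj, rfl⟩ := ha
    rw [isSt_xs.inv h2]; exact hg i j r hj
  | one => exact h1
  | mul a b _ _ ha hb => exact hm a b ha hb

omit [Fintype ι] [DecidableEq ι] in
theorem QT_mono {T T' : Set ι} (h : T ⊆ T') : (QT T' : Subgroup (St ι R)) ≤ QT T := by
  rw [QT, Subgroup.closure_le]
  rintro _ ⟨i, j, r, hj, rfl⟩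
  exact xs_mem_QT i (fun h' => hj (h h')) r

theorem stπ_row (o : ι) (v : ι → R) : stπ (isSt_xs.row o v : St ι R) = isSt_el.row o v := by
  induction v using Pi.single_induction with
  | zero => rw [IsSt.row_zero, IsSt.row_zero, map_one]
  | add u v hu hv => rw [IsSt.row_add, IsSt.row_add, map_mul, hu, hv]
  | single i r => rw [IsSt.row_single, IsSt.row_single, stπ_xs]

theorem QT_ker (h2 : ∀ r : R, r + r = 0) (F : Flasque R) {o : ι} {p : St ι R}
    (hp : p ∈ QT {o}) (hp1 : stπ p = 1) : p = 1 := by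
  have dec : ∃ h ∈ (Ho o : Subgroup (St ι R)), ∃ v, p = h * isSt_xs.row o v := by
    refine QT_ind h2 (p := fun p => ∃ h ∈ (Ho o : Subgroup (St ι R)), ∃ v,
      p = h * isSt_xs.row o v) ?_ ?_ ?_ hp
    · exact ⟨1, one_mem _, 0, by simp [IsSt.row_zero]⟩
    · intro i j r hj
      by_cases hi : i = o
      · subst hi
        exact ⟨1, one_mem _, Pi.single j r, by rw [IsSt.row_single, one_mul]⟩
      · exact ⟨_, Subgroup.subset_closure ⟨i, j, r, hi, hj, rfl⟩, 0, by simp [IsSt.row_zero]⟩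
    · rintro _ _ ⟨h, hh, v, rfl⟩ ⟨h', hh', v', rfl⟩
      refine ⟨h * h', mul_mem hh hh',
        v ᵥ* (((stπ h'⁻¹)⁻¹ : (Matrix ι ι R)ˣ) : Matrix ι ι R) + v', ?_⟩
      rw [IsSt.row_add, ← Ho_row h2 (inv_mem hh') v]; group
  obtain ⟨h, hh, v, rfl⟩ := dec
  have hr : Pi.single o (1 : R) ᵥ* ((stπ h : (Matrix ι ι R)ˣ) : Matrix ι ι R) = Pi.single o 1 := by
    refine Ho_ind h2 (p := fun h => Pi.single o (1 : R) ᵥ*
      ((stπ h : (Matrix ι ι R)ˣ) : Matrix ι ι R) = Pi.single o 1) ?_ ?_ ?_ hh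
    · simp
    · intro i j r hi hj
      by_cases hij : i = j
      · subst hij; simp [el_self]
      rw [stπ_xs, el_val hij, vecMul_add, vecMul_one]
      funext k
      simp [Ne.symm hi, hi, single]
    · intro a b ha hb
      rw [map_mul, Units.val_mul, ← vecMul_vecMul, ha, hb]
  have hv : ∀ j, j ≠ o → v j = 0 := by
    intro j hj
    have e := congrArg (fun g : (Matrix ι ι R)ˣ => (Pi.single o (1 : R) ᵥ* (g : Matrix ι ι R)) j) hp1
    simp only [map_mul, Units.val_mul, ← vecMul_vecMul, hr, stπ_row, row_val] at e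
    simpa [Rm, hj, Ne.symm hj, one_apply] using e
  have hrow : (isSt_xs.row o v : St ι R) = 1 := by
    have := isSt_xs.row_mem o (⊥ : Subgroup (St ι R)) v fun j => by
      by_cases hj : j = o
      · subst hj; simp [isSt_xs.diag]
      · simp [hv j hj, isSt_xs.zero]
    simpa using this
  rw [hrow, mul_one] at hp1 ⊢
  exact Ho_ker h2 F hh hp1

/-- the filter of generic columns -/
def coneF (ι R : Type) [Ring R] [Fintype ι] : Filter (ι → R) where
  sets := {A | ∃ s : Finset (ι → R), ∀ w, (∀ f ∈ s, f ≠ 0 → ∃ a : R, a * (f ⬝ᵥ w) = 1) → w ∈ A}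
  univ_sets := ⟨∅, fun _ _ => trivial⟩
  sets_of_superset := fun ⟨s, hs⟩ h => ⟨s, fun w hw => h (hs w hw)⟩
  inter_sets := by
    classical
    rintro A B ⟨s, hs⟩ ⟨t, ht⟩
    exact ⟨s ∪ t, fun w hw => ⟨hs w fun f hf => hw f (Finset.mem_union_left _ hf),
      ht w fun f hf => hw f (Finset.mem_union_right _ hf)⟩⟩

omit [DecidableEq ι] in
theorem coneF_neBot (hC : Cone ι R) : (coneF ι R).NeBot := by
  rw [← forall_mem_nonempty_iff_neBot]
  rintro A ⟨s, hs⟩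
  obtain ⟨w, hw⟩ := hC s
  exact ⟨w, hs w hw⟩

theorem coneF_tendsto (g : (Matrix ι ι R)ˣ) :
    Tendsto (fun w => (g : Matrix ι ι R) *ᵥ w) (coneF ι R) (coneF ι R) := by
  classical
  rintro A ⟨s, hs⟩
  refine ⟨s.image fun f => f ᵥ* (g : Matrix ι ι R), fun w hw => hs _ fun f hf hf0 => ?_⟩
  obtain ⟨a, ha⟩ := hw _ (Finset.mem_image_of_mem _ hf) (fun h => hf0 (by
    have := congrArg (fun v => v ᵥ* ((g⁻¹ : (Matrix ι ι R)ˣ) : Matrix ι ι R)) h
    simpa only [vecMul_vecMul, Units.mul_inv, vecMul_one, zero_vecMul] using this))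
  exact ⟨a, by rw [dotProduct_mulVec]; exact ha⟩

theorem coneF_coord [Nontrivial R] (c : ι) : ∀ᶠ w in coneF ι R, ∃ a : R, a * w c = 1 := by
  refine ⟨{Pi.single c 1}, fun w hw => ?_⟩
  obtain ⟨a, ha⟩ := hw _ (Finset.mem_singleton_self _) (by simp)
  exact ⟨a, by simpa using ha⟩

theorem tw_el_mulVec (h2 : ∀ r : R, r + r = 0) {a b : ι} (hab : a ≠ b) :
    ((tw el a b 1 1 : (Matrix ι ι R)ˣ) : Matrix ι ι R) *ᵥ Pi.single a 1 = Pi.single b 1 := by
  simp only [tw, Units.val_mul, ← mulVec_mulVec, el_val hab, el_val hab.symm, add_mulVec,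
    one_mulVec, single_mulVec]
  funext i
  by_cases h1 : i = a
  · subst h1; simp [hab, hab.symm, h2]
  by_cases h3 : i = b
  · subst h3; simp [hab, hab.symm]
  simp [h1, h3]

theorem stπ_tw (a b : ι) (u v : R) : stπ (tw xs a b u v : St ι R) = tw el a b u v := by
  simp [tw]

theorem stπ_injective [Nontrivial R] (h2 : ∀ r : R, r + r = 0)
    (h3 : ∀ k o : ι, ∃ l, l ≠ k ∧ l ≠ o) (F : Flasque R) (hC : Cone ι R) {o a b c : ι}
    (hoa : o ≠ a) (hob : o ≠ b) (hoc : o ≠ c) (hab : a ≠ b) (hac : a ≠ c) (hbc : b ≠ c) :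
    Function.Injective (stπ : St ι R →* (Matrix ι ι R)ˣ) := by
  set P : Subgroup (St ι R) := QT {o} with hP
  set Q : Subgroup (St ι R) := QT {o, a} with hQ
  set σ : St ι R := tw xs o a 1 1 with hσ
  set τ : St ι R := tw xs a b 1 1 with hτ
  have hQP : Q ≤ P := QT_mono (by simp)
  have σσ : σ⁻¹ = σ := isSt_xs.tw_inv h2 _ _ _ _
  have hτP : τ ∈ P :=
    mul_mem (mul_mem (xs_mem_QT _ (by simpa using hob.symm) _)
      (xs_mem_QT _ (by simpa using hoa.symm) _)) (xs_mem_QT _ (by simpa using hob.symm) _)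
  have σQ : ∀ q ∈ Q, σ⁻¹ * q * σ ∈ Q := by
    intro q hq
    have : σ * q * σ⁻¹ ∈ Q := by
      refine QT_ind h2 (p := fun q => σ * q * σ⁻¹ ∈ Q) ?_ ?_ ?_ hq
      · simp
      · intro i j r hj
        have hj' := hj
        simp only [Set.mem_insert_iff, Set.mem_singleton_iff, not_or] at hj'
        by_cases h1 : i = o
        · subst h1
          rw [hσ, isSt_xs.w_c₁ h2 hoa (Ne.symm hj'.1) (Ne.symm hj'.2)]; exact xs_mem_QT _ hj _
        by_cases h4 : i = a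
        · subst h4
          rw [hσ, isSt_xs.w_c₂ h2 hoa (Ne.symm hj'.1) (Ne.symm hj'.2)]; exact xs_mem_QT _ hj _
        rw [hσ, isSt_xs.tw_comm (Ne.symm h1) (Ne.symm h4) (Ne.symm hj'.1) (Ne.symm hj'.2)]
        exact xs_mem_QT _ hj _
      · intro x y hx hy
        have : σ * (x * y) * σ⁻¹ = σ * x * σ⁻¹ * (σ * y * σ⁻¹) := by group
        rw [this]; exact mul_mem hx hy
    rw [σσ] at this ⊢
    exact this
  have braid : σ⁻¹ * τ * σ = τ * σ * τ⁻¹ := by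
    have e1 : σ * τ * σ⁻¹ = tw xs o b 1 1 := by
      have : σ * τ * σ⁻¹ = (σ * xs a b 1 * σ⁻¹) * (σ * xs b a 1 * σ⁻¹) * (σ * xs a b 1 * σ⁻¹) := by
        rw [hτ, tw]; group
      rw [this, hσ, isSt_xs.w_c₂ h2 hoa hob hab, isSt_xs.w_r₂ h2 hoa hob.symm hab.symm]; rfl
    have e2 : τ * σ * τ⁻¹ = tw xs o b 1 1 := by
      have : τ * σ * τ⁻¹ = (τ * xs o a 1 * τ⁻¹) * (τ * xs a o 1 * τ⁻¹) * (τ * xs o a 1 * τ⁻¹) := by
        rw [hσ, tw]; group
      rw [this, hτ, isSt_xs.w_r₁ h2 hab hoa hob, isSt_xs.w_c₁ h2 hab hoa.symm hob.symm]; rfl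
    rw [e2, ← e1, σσ]
  have hb : b ∉ ({o, a} : Set ι) := by simp [hob.symm, hab.symm]
  have hc : c ∉ ({o, a} : Set ι) := by simp [hoc.symm, hac.symm]
  let Rel : (ι → R) → St ι R → Prop := fun u y => ∃ p ∈ P,
    ((stπ p : (Matrix ι ι R)ˣ) : Matrix ι ι R) *ᵥ Pi.single a 1 = u ∧ (p * σ)⁻¹ * y ∈ P
  have uniq : ∀ u y y', Rel u y → Rel u y' → y⁻¹ * y' ∈ P := by
    rintro u y y' ⟨p, hp, e, hy⟩ ⟨p', hp', e', hy'⟩
    have hd : p⁻¹ * p' ∈ P := mul_mem (inv_mem hp) hp'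
    have f1 : stπ (p⁻¹ * p') ∈ Fix ({o, a} : Set ι) := by
      rintro t (rfl | rfl)
      · exact ET_le_Fix {t} ⟨_, hd, rfl⟩ t rfl
      · rw [map_mul, map_inv, Units.val_mul, ← mulVec_mulVec, e', ← e, mulVec_mulVec,
          Units.inv_mul, one_mulVec]
    obtain ⟨q, hq, hq'⟩ := Fix_le_ET h2 h3 F hC hb hc hbc f1
    have : q⁻¹ * (p⁻¹ * p') = 1 := QT_ker h2 F (mul_mem (inv_mem (hQP hq)) hd)
      (by rw [map_mul, map_inv, hq', inv_mul_cancel])
    have hdq : p⁻¹ * p' ∈ Q := by rw [← inv_mul_eq_one.1 this]; exact hq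
    have : y⁻¹ * y' = ((p * σ)⁻¹ * y)⁻¹ * (σ⁻¹ * (p⁻¹ * p') * σ) * ((p' * σ)⁻¹ * y') := by group
    rw [this]
    exact mul_mem (mul_mem (inv_mem hy) (hQP (σQ _ hdq))) hy'
  have hτa : ((stπ τ : (Matrix ι ι R)ˣ) : Matrix ι ι R) *ᵥ Pi.single a 1 = Pi.single b 1 := by
    rw [hτ, stπ_tw, tw_el_mulVec h2 hab]
  have hσb : (((stπ σ)⁻¹ : (Matrix ι ι R)ˣ) : Matrix ι ι R) *ᵥ Pi.single b 1 = Pi.single b 1 := by
    have : stπ σ ∈ Fix ({b} : Set ι) := ET_le_Fix _ ⟨σ, mul_mem (mul_mem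
      (xs_mem_QT _ (by simpa using hab) _) (xs_mem_QT _ (by simpa using hob) _))
      (xs_mem_QT _ (by simpa using hab) _), rfl⟩
    exact (inv_mem this) b rfl
  have good : ∀ w : ι → R, (∃ r : R, r * w c = 1) → ∃ q ∈ Q,
      ((stπ q : (Matrix ι ι R)ˣ) : Matrix ι ι R) *ᵥ Pi.single b 1 = w ∧ Rel w (q * τ * σ) := by
    rintro w ⟨r, hr⟩
    obtain ⟨_, ⟨q, hq, rfl⟩, e⟩ := reach hb hc hbc hr
    refine ⟨q, hq, e, q * τ, mul_mem (hQP hq) hτP, ?_, by rw [inv_mul_cancel]; exact one_mem _⟩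
    rw [map_mul, Units.val_mul, ← mulVec_mulVec, hτa, e]
  let M : Submonoid (St ι R) :=
    { carrier := {s | ∀ᶠ w in coneF ι R, ∀ y, Rel w y →
        Rel ((((stπ s)⁻¹ : (Matrix ι ι R)ˣ) : Matrix ι ι R) *ᵥ w) (s⁻¹ * y)}
      one_mem' := by
        refine (Eventually.of_forall fun w y h => ?_ : ∀ᶠ w in coneF ι R, _)
        simpa using h
      mul_mem' := by
        intro s s' hs hs'
        filter_upwards [hs, (coneF_tendsto (stπ s)⁻¹).eventually hs'] with w h1 h4 y hy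
        have := h4 _ (h1 y hy)
        rwa [mulVec_mulVec, ← Units.val_mul, ← _root_.mul_inv_rev, ← map_mul, ← mul_assoc,
          ← _root_.mul_inv_rev] at this }
  have PM : ∀ p ∈ P, p ∈ M := by
    intro p hp
    refine (Eventually.of_forall ?_ : ∀ᶠ w in coneF ι R, _)
    rintro w y ⟨p', hp', e, hy⟩
    refine ⟨p⁻¹ * p', mul_mem (inv_mem hp) hp', ?_, ?_⟩
    · rw [map_mul, map_inv, Units.val_mul, ← mulVec_mulVec, e]
    · have : (p⁻¹ * p' * σ)⁻¹ * (p⁻¹ * y) = (p' * σ)⁻¹ * y := by group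
      rw [this]; exact hy
  have σM : σ ∈ M := by
    filter_upwards [coneF_coord (R := R) c] with w hw y hy
    obtain ⟨q, hq, e, hr⟩ := good w hw
    have hu := uniq _ _ _ hr hy
    refine ⟨σ⁻¹ * q * σ * τ, mul_mem (hQP (σQ q hq)) hτP, ?_, ?_⟩
    · have : ((stπ σ : (Matrix ι ι R)ˣ) : Matrix ι ι R) *ᵥ Pi.single b 1 = Pi.single b 1 := by
        conv_lhs => rw [← hσb]
        rw [mulVec_mulVec, Units.mul_inv, one_mulVec]
      simp only [map_mul, map_inv, Units.val_mul, ← mulVec_mulVec]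
      rw [hτa, this, e]
    · have : (σ⁻¹ * q * σ * τ * σ)⁻¹ * (σ⁻¹ * y) =
          (τ * σ)⁻¹ * (σ⁻¹ * τ * σ) * ((q * τ * σ)⁻¹ * y) := by group
      rw [this, braid]
      have : (τ * σ)⁻¹ * (τ * σ * τ⁻¹) = τ⁻¹ := by group
      rw [this]
      exact mul_mem (inv_mem hτP) hu
  have xM : ∀ i j r, xs i j r ∈ M := by
    have x1 : ∀ i j r, j ≠ o → xs i j r ∈ M := fun i j r hj => PM _ (xs_mem_QT (T := {o}) _ hj _)
    have x2 : ∀ i r, i ≠ a → xs i o r ∈ M := by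
      intro i r hi
      by_cases hio : i = o
      · subst hio; rw [isSt_xs.diag]; exact one_mem _
      rw [← isSt_xs.w_r₂ h2 hoa hio hi r, ← hσ, σσ]
      exact mul_mem (mul_mem σM (x1 _ _ _ hoa.symm)) σM
    intro i j r
    by_cases hj : j = o
    · subst hj
      by_cases hi : i = a
      · subst hi
        rw [← mul_one r, isSt_xs.eq_comm_elt hab hob.symm hoa.symm, isSt_xs.inv h2,
          isSt_xs.inv h2]
        exact mul_mem (mul_mem (mul_mem (x1 _ _ _ hob.symm) (x2 _ _ hab.symm))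
          (x1 _ _ _ hob.symm)) (x2 _ _ hab.symm)
      · exact x2 _ _ hi
    · exact x1 _ _ _ hj
  have allM : ∀ s, s ∈ M := fun s =>
    QT_ind h2 (T := ∅) (p := fun s => s ∈ M) (one_mem _) (fun i j r _ => xM i j r)
      (fun _ _ => mul_mem) (St.mem_of_gens _ (fun i j r => xs_mem_QT _ (by simp) _) s)
  rw [injective_iff_map_eq_one]
  intro k hk
  haveI := coneF_neBot hC
  obtain ⟨w, h1, h4⟩ := ((show ∀ᶠ w in coneF ι R, _ from allM k).and (coneF_coord (R := R) c)).exists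
  obtain ⟨q, -, -, hr⟩ := good w h4
  have h5 := h1 _ hr
  rw [hk, inv_one, Units.val_one, one_mulVec] at h5
  have h6 := QT_ker h2 F (uniq _ _ _ hr h5) (by
    rw [map_mul, map_mul stπ k⁻¹, map_inv stπ k, hk, inv_one, one_mul, map_inv, inv_mul_cancel])
  have : k = (q * τ * σ) * ((q * τ * σ)⁻¹ * (k⁻¹ * (q * τ * σ)))⁻¹ * (q * τ * σ)⁻¹ := by group
  rw [this, h6]; simp

theorem stπ_surjective [Nontrivial R] (h2 : ∀ r : R, r + r = 0)
    (h3 : ∀ k o : ι, ∃ l, l ≠ k ∧ l ≠ o) (F : Flasque R) (hC : Cone ι R) {o c : ι}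
    (hoc : o ≠ c) : Function.Surjective (stπ : St ι R →* (Matrix ι ι R)ˣ) := by
  intro g
  obtain ⟨s, -, hs⟩ := Fix_le_ET h2 h3 F hC (T := ∅) (by simp) (by simp) hoc (g := g)
    (fun t ht => ht.elim)
  exact ⟨s, hs⟩

end Vale.Agent.P193
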